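import Vale.Agent.Lib.P245.Subgauss

/-!
# The Bakry-Emery log-Sobolev inequality from Prekopa-Leindler (Bobkov-Ledoux)
-/

open MeasureTheory ProbabilityTheory Real Filter Topology
open scoped ENNReal RealInnerProductSpace ContDiff

namespace Vale.Agent.Lib.P245

variable {n : ℕ}

set_option linter.unusedSectionVars false
set_option linter.unusedVariables false

/-- Strong log-concavity with modulus `c`. -/
def StrongLC (p : Eu n → ℝ) (c : ℝ) : Prop :=
  ∀ (x y : Eu n) (s : ℝ), 0 < s → s < 1 →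
    p x ^ (1 - s) * p y ^ s * rexp ((c / 2) * s * (1 - s) * ‖x - y‖ ^ 2) ≤ p ((1 - s) • x + s • y)

lemma integrable_bdd_mul {p b : Eu n → ℝ} (hp : Integrable p) (hp0 : ∀ x, 0 ≤ p x)
    (hb : Measurable b) {C : ℝ} (hC : ∀ x, |b x| ≤ C) : Integrable (fun x => b x * p x) := by
  refine (hp.const_mul C).mono' (hb.aestronglyMeasurable.mul hp.aestronglyMeasurable)
    (Eventually.of_forall fun x => ?_)
  rw [norm_mul, Real.norm_eq_abs, Real.norm_eq_abs, abs_of_nonneg (hp0 x)]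
  exact mul_le_mul_of_nonneg_right (hC x) (hp0 x)

/-- The pointwise condition for Prekopa-Leindler. -/
lemma be_pt {p ϕ Γ : Eu n → ℝ} {c M : ℝ} (hp0 : ∀ x, 0 ≤ p x) (hslc : StrongLC p c)
    (hT : ∀ x z, ϕ x ≤ ϕ z + Γ z * ‖x - z‖ + M * ‖x - z‖ ^ 2)
    {s : ℝ} (s0 : 0 < s) (s1 : s < 1) {d : ℝ} (hd : d = c * (1 - s) - 2 * M * s) (hd0 : 0 < d)
    (x y : Eu n) :
    (rexp (ϕ x / (1 - s)) * p x) ^ (1 - s) * p y ^ s ≤
      rexp (ϕ ((1 - s) • x + s • y) + (s / (2 * d)) * Γ ((1 - s) • x + s • y) ^ 2)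
        * p ((1 - s) • x + s • y) := by
  set z := (1 - s) • x + s • y with hz
  have hs1 : 0 < 1 - s := by linarith
  have e1 : (rexp (ϕ x / (1 - s)) * p x) ^ (1 - s) = rexp (ϕ x) * p x ^ (1 - s) := by
    rw [Real.mul_rpow (exp_pos _).le (hp0 x), ← Real.exp_mul]
    congr 2
    field_simp
  have hxz : x - z = s • (x - y) := by
    rw [hz]; module
  have hn : ‖x - z‖ = s * ‖x - y‖ := by
    rw [hxz, norm_smul, Real.norm_eq_abs, abs_of_pos s0]
  have hT' := hT x z
  rw [hn] at hT'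
  set D := ‖x - y‖ with hD
  set G := Γ z with hG
  have key : ϕ x ≤ ϕ z + (s / (2 * d)) * G ^ 2 + (c / 2) * s * (1 - s) * D ^ 2 := by
    have h1 : 0 ≤ (s / (2 * d)) * (G - d * D) ^ 2 := by positivity
    have e : (s / (2 * d)) * (G - d * D) ^ 2 =
        (s / (2 * d)) * G ^ 2 - s * (G * D) + (s / 2) * d * D ^ 2 := by
      field_simp
      ring
    have e2 : (c / 2) * s * (1 - s) * D ^ 2 = (s / 2) * d * D ^ 2 + M * (s * D) ^ 2 := by
      rw [hd]
      ring
    rw [e] at h1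
    rw [e2]
    have e3 : G * (s * D) = s * (G * D) := by ring
    linarith
  have hA : 0 ≤ p x ^ (1 - s) * p y ^ s :=
    mul_nonneg (rpow_nonneg (hp0 x) _) (rpow_nonneg (hp0 y) _)
  have hlc := hslc x y s s0 s1
  rw [← hz, ← hD] at hlc
  rw [e1]
  calc rexp (ϕ x) * p x ^ (1 - s) * p y ^ s = rexp (ϕ x) * (p x ^ (1 - s) * p y ^ s) := by ring
    _ ≤ rexp (ϕ z + (s / (2 * d)) * G ^ 2 + (c / 2) * s * (1 - s) * D ^ 2) *
        (p x ^ (1 - s) * p y ^ s) := by
        gcongr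
    _ = rexp (ϕ z + (s / (2 * d)) * G ^ 2) *
        (p x ^ (1 - s) * p y ^ s * rexp ((c / 2) * s * (1 - s) * D ^ 2)) := by
        rw [exp_add (ϕ z + (s / (2 * d)) * G ^ 2)]
        ring
    _ ≤ _ := by gcongr

/-- Prekopa-Leindler in real form. -/
lemma be_pl {p ϕ Γ : Eu n → ℝ} {c M : ℝ} (hpm : Measurable p) (hp0 : ∀ x, 0 ≤ p x)
    (hslc : StrongLC p c) (hϕ : Measurable ϕ) (hΓ : Measurable Γ)
    (hT : ∀ x z, ϕ x ≤ ϕ z + Γ z * ‖x - z‖ + M * ‖x - z‖ ^ 2)
    {s : ℝ} (s0 : 0 < s) (s1 : s < 1) {d : ℝ} (hd : d = c * (1 - s) - 2 * M * s) (hd0 : 0 < d)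
    (hi1 : Integrable fun x => rexp (ϕ x / (1 - s)) * p x) (hi2 : Integrable p)
    (hi3 : Integrable fun x => rexp (ϕ x + (s / (2 * d)) * Γ x ^ 2) * p x) :
    (∫ x, rexp (ϕ x / (1 - s)) * p x) ^ (1 - s) * (∫ x, p x) ^ s ≤
      ∫ x, rexp (ϕ x + (s / (2 * d)) * Γ x ^ 2) * p x := by
  have hs1 : 0 < 1 - s := by linarith
  have m1 : Measurable fun x => rexp (ϕ x / (1 - s)) * p x :=
    (measurable_exp.comp (hϕ.div_const _)).mul hpm
  have m3 : Measurable fun x => rexp (ϕ x + (s / (2 * d)) * Γ x ^ 2) * p x :=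
    (measurable_exp.comp (hϕ.add ((hΓ.pow_const 2).const_mul _))).mul hpm
  have h01 : ∀ x, 0 ≤ rexp (ϕ x / (1 - s)) * p x := fun x => mul_nonneg (exp_pos _).le (hp0 x)
  have h03 : ∀ x, 0 ≤ rexp (ϕ x + (s / (2 * d)) * Γ x ^ 2) * p x :=
    fun x => mul_nonneg (exp_pos _).le (hp0 x)
  have key := pl_eu (f := fun x => ENNReal.ofReal (rexp (ϕ x / (1 - s)) * p x))
    (g := fun x => ENNReal.ofReal (p x))
    (h := fun x => ENNReal.ofReal (rexp (ϕ x + (s / (2 * d)) * Γ x ^ 2) * p x))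
    m1.ennreal_ofReal hpm.ennreal_ofReal m3.ennreal_ofReal s0 s1 ?_
  · rw [← ofReal_integral_eq_lintegral_ofReal hi1 (Eventually.of_forall h01),
      ← ofReal_integral_eq_lintegral_ofReal hi2 (Eventually.of_forall hp0),
      ← ofReal_integral_eq_lintegral_ofReal hi3 (Eventually.of_forall h03),
      ENNReal.ofReal_rpow_of_nonneg (integral_nonneg h01) hs1.le,
      ENNReal.ofReal_rpow_of_nonneg (integral_nonneg hp0) s0.le,
      ← ENNReal.ofReal_mul (rpow_nonneg (integral_nonneg h01) _)] at key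
    exact (ENNReal.ofReal_le_ofReal_iff (integral_nonneg h03)).1 key
  · intro x y
    rw [ENNReal.ofReal_rpow_of_nonneg (h01 x) hs1.le, ENNReal.ofReal_rpow_of_nonneg (hp0 y) s0.le,
      ← ENNReal.ofReal_mul (rpow_nonneg (h01 x) _)]
    exact ENNReal.ofReal_le_ofReal (be_pt hp0 hslc hT s0 s1 hd hd0 x y)

/-- Lower bound for the left side. -/
lemma be_lower {A B m Q s : ℝ} (hA : 0 < A) (hm : 0 < m) (s0 : 0 < s) (s1 : s < 1)
    (hQ : rexp ((1 / (1 - s) - 1) * (B / A)) * A ≤ Q) :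
    A + s * (B - A * log (A / m)) ≤ Q ^ (1 - s) * m ^ s := by
  have hs1 : 0 < 1 - s := by linarith
  have hb := Real.rpow_le_rpow (by positivity) hQ hs1.le
  rw [Real.mul_rpow (exp_pos _).le hA.le, ← Real.exp_mul] at hb
  have e : (1 / (1 - s) - 1) * (B / A) * (1 - s) = s * (B / A) := by
    field_simp
    ring
  rw [e] at hb
  have hstep : rexp (s * (B / A)) * A ^ (1 - s) * m ^ s ≤ Q ^ (1 - s) * m ^ s := by gcongr
  refine le_trans ?_ hstep
  rw [Real.rpow_def_of_pos hA, Real.rpow_def_of_pos hm, ← exp_add, ← exp_add]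
  set t := s * (B / A - log (A / m)) with ht
  have e2 : s * (B / A) + log A * (1 - s) + log m * s = log A + t := by
    rw [ht, log_div hA.ne' hm.ne']
    ring
  rw [e2, exp_add, exp_log hA]
  have h1 := add_one_le_exp t
  have e3 : A + s * (B - A * log (A / m)) = A * (t + 1) := by
    rw [ht]
    field_simp
    ring
  rw [e3]
  gcongr

/-- The abstract Bakry-Emery estimate. -/
theorem be_abstract {p ϕ Γ : Eu n → ℝ} {c M L Γ₀ : ℝ} (hc : 0 < c) (hpm : Measurable p)
    (hp0 : ∀ x, 0 ≤ p x) (hpi : Integrable p) (hmpos : 0 < ∫ x, p x)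
    (hslc : StrongLC p c) (hϕ : Measurable ϕ) (hL : ∀ x, |ϕ x| ≤ L) (hΓ : Measurable Γ)
    (hΓ₀ : ∀ x, |Γ x| ≤ Γ₀)
    (hT : ∀ x z, ϕ x ≤ ϕ z + Γ z * ‖x - z‖ + M * ‖x - z‖ ^ 2) :
    (∫ x, ϕ x * (rexp (ϕ x) * p x)) -
        (∫ x, rexp (ϕ x) * p x) * log ((∫ x, rexp (ϕ x) * p x) / ∫ x, p x)
      ≤ (1 / (2 * c)) * ∫ x, Γ x ^ 2 * (rexp (ϕ x) * p x) := by
  set m := ∫ x, p x with hm
  -- the integrable pieces
  have hbdd : ∀ {b : Eu n → ℝ} {C : ℝ}, Measurable b → (∀ x, |b x| ≤ C) →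
      Integrable fun x => b x * p x := fun hb hC => integrable_bdd_mul hpi hp0 hb hC
  have hL0 : 0 ≤ L := (abs_nonneg _).trans (hL 0)
  have hΓ0 : 0 ≤ Γ₀ := (abs_nonneg _).trans (hΓ₀ 0)
  have hϕle : ∀ x, ϕ x ≤ L := fun x => (le_abs_self _).trans (hL x)
  have hexp : ∀ x, rexp (ϕ x) ≤ rexp L := fun x => exp_le_exp.2 (hϕle x)
  have hi_A : Integrable fun x => rexp (ϕ x) * p x :=
    hbdd (measurable_exp.comp hϕ) (C := rexp L) fun x => by
      rw [abs_of_pos (exp_pos _)]; exact hexp x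
  have hi_B : Integrable fun x => ϕ x * (rexp (ϕ x) * p x) := by
    have := hbdd (b := fun x => ϕ x * rexp (ϕ x)) (hϕ.mul (measurable_exp.comp hϕ))
      (C := L * rexp L) fun x => by
        rw [abs_mul, abs_of_pos (exp_pos _)]
        exact mul_le_mul (hL x) (hexp x) (exp_pos _).le hL0
    refine this.congr (Eventually.of_forall fun x => ?_)
    simp only
    ring
  have hΓsq : ∀ x, Γ x ^ 2 ≤ Γ₀ ^ 2 := fun x => by
    have := hΓ₀ x
    rw [← sq_abs]
    exact pow_le_pow_left₀ (abs_nonneg _) this 2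
  have hi_W : Integrable fun x => Γ x ^ 2 * (rexp (ϕ x) * p x) := by
    have := hbdd (b := fun x => Γ x ^ 2 * rexp (ϕ x)) ((hΓ.pow_const 2).mul (measurable_exp.comp hϕ))
      (C := Γ₀ ^ 2 * rexp L) fun x => by
        rw [abs_mul, abs_of_pos (exp_pos _), abs_of_nonneg (sq_nonneg _)]
        exact mul_le_mul (hΓsq x) (hexp x) (exp_pos _).le (sq_nonneg _)
    refine this.congr (Eventually.of_forall fun x => ?_)
    simp only
    ring
  set A := ∫ x, rexp (ϕ x) * p x with hA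
  set B := ∫ x, ϕ x * (rexp (ϕ x) * p x) with hB
  set W := ∫ x, Γ x ^ 2 * (rexp (ϕ x) * p x) with hW
  have hApos : 0 < A := by
    rw [hA, integral_pos_iff_support_of_nonneg (fun x => mul_nonneg (exp_pos _).le (hp0 x)) hi_A]
    rw [hm, integral_pos_iff_support_of_nonneg hp0 hpi] at hmpos
    have : Function.support (fun x => rexp (ϕ x) * p x) = Function.support p := by
      ext x
      simp [(exp_pos (ϕ x)).ne']
    rwa [this]
  have hW0 : 0 ≤ W := integral_nonneg fun x =>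
    mul_nonneg (sq_nonneg _) (mul_nonneg (exp_pos _).le (hp0 x))
  -- the estimate for a fixed small `s`
  have main : ∀ s : ℝ, 0 < s → s < 1 → 0 < c * (1 - s) - 2 * M * s →
      B - A * log (A / m) ≤ (1 / (2 * (c * (1 - s) - 2 * M * s))) *
        (rexp ((s / (2 * (c * (1 - s) - 2 * M * s))) * Γ₀ ^ 2) * W) := by
    intro s s0 s1 hd0
    set d := c * (1 - s) - 2 * M * s with hd
    have hs1 : 0 < 1 - s := by linarith
    set κ := s / (2 * d) with hκ
    have hκ0 : 0 < κ := by positivity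
    have hi1 : Integrable fun x => rexp (ϕ x / (1 - s)) * p x :=
      hbdd (measurable_exp.comp (hϕ.div_const _)) (C := rexp (L / (1 - s))) fun x => by
        rw [abs_of_pos (exp_pos _)]
        apply exp_le_exp.2
        gcongr
        exact hϕle x
    have hi3 : Integrable fun x => rexp (ϕ x + κ * Γ x ^ 2) * p x :=
      hbdd (measurable_exp.comp (hϕ.add ((hΓ.pow_const 2).const_mul _)))
        (C := rexp (L + κ * Γ₀ ^ 2)) fun x => by
        rw [abs_of_pos (exp_pos _)]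
        apply exp_le_exp.2
        have := hΓsq x
        have := hϕle x
        gcongr
    have hpl := be_pl hpm hp0 hslc hϕ hΓ hT s0 s1 hd hd0 hi1 hpi hi3
    rw [← hm, ← hκ] at hpl
    -- lower bound for `Q`
    set t := 1 / (1 - s) - 1 with ht
    have ht0 : 0 ≤ t := by
      rw [ht, sub_nonneg, le_div_iff₀ hs1]
      linarith
    have hQ : rexp (t * (B / A)) * A ≤ ∫ x, rexp (ϕ x / (1 - s)) * p x := by
      have pt : ∀ x, rexp (t * (B / A)) * ((1 - t * (B / A)) * (rexp (ϕ x) * p x)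
          + t * (ϕ x * (rexp (ϕ x) * p x))) ≤ rexp (ϕ x / (1 - s)) * p x := by
        intro x
        have h1 := add_one_le_exp (t * ϕ x - t * (B / A))
        have h2 : rexp (t * (B / A)) * (t * ϕ x - t * (B / A) + 1) ≤ rexp (t * ϕ x) := by
          calc _ ≤ rexp (t * (B / A)) * rexp (t * ϕ x - t * (B / A)) := by gcongr
            _ = _ := by rw [← exp_add]; congr 1; ring
        have e : ϕ x / (1 - s) = ϕ x + t * ϕ x := by
          rw [ht]
          field_simp
          ring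
        rw [e, exp_add]
        have h3 : 0 ≤ rexp (ϕ x) * p x := mul_nonneg (exp_pos _).le (hp0 x)
        calc rexp (t * (B / A)) * ((1 - t * (B / A)) * (rexp (ϕ x) * p x)
              + t * (ϕ x * (rexp (ϕ x) * p x)))
            = (rexp (t * (B / A)) * (t * ϕ x - t * (B / A) + 1)) * (rexp (ϕ x) * p x) := by ring
          _ ≤ rexp (t * ϕ x) * (rexp (ϕ x) * p x) := by gcongr
          _ = _ := by ring
      have i1 : Integrable fun x => (1 - t * (B / A)) * (rexp (ϕ x) * p x) := hi_A.const_mul _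
      have i2 : Integrable fun x => t * (ϕ x * (rexp (ϕ x) * p x)) := hi_B.const_mul _
      have hmono := integral_mono ((i1.add i2).const_mul (rexp (t * (B / A)))) hi1 pt
      rw [integral_const_mul, integral_add' i1 i2, integral_const_mul, integral_const_mul, ← hA,
        ← hB] at hmono
      have e : (1 - t * (B / A)) * A + t * B = A := by
        field_simp
        ring
      rw [e] at hmono
      exact hmono
    have hlow := be_lower hApos hmpos s0 s1 hQ
    -- upper bound for `R`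
    have hup : ∫ x, rexp (ϕ x + κ * Γ x ^ 2) * p x ≤ A + (κ * rexp (κ * Γ₀ ^ 2)) * W := by
      have pt : ∀ x, rexp (ϕ x + κ * Γ x ^ 2) * p x ≤ rexp (ϕ x) * p x
          + (κ * rexp (κ * Γ₀ ^ 2)) * (Γ x ^ 2 * (rexp (ϕ x) * p x)) := by
        intro x
        have h3 : 0 ≤ rexp (ϕ x) * p x := mul_nonneg (exp_pos _).le (hp0 x)
        set y := κ * Γ x ^ 2 with hy
        have hy0 : 0 ≤ y := by positivity
        have h4 : rexp y ≤ 1 + y * rexp y := by
          have h5 := add_one_le_exp (-y)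
          have h6 : rexp (-y) * rexp y = 1 := by rw [← exp_add]; simp
          have h7 := exp_pos y
          nlinarith
        have h5 : rexp y ≤ rexp (κ * Γ₀ ^ 2) := by
          apply exp_le_exp.2
          rw [hy]
          have := hΓsq x
          gcongr
        have h6 : rexp y ≤ 1 + y * rexp (κ * Γ₀ ^ 2) := by
          have : y * rexp y ≤ y * rexp (κ * Γ₀ ^ 2) := by gcongr
          linarith
        rw [exp_add]
        calc rexp (ϕ x) * rexp y * p x = rexp y * (rexp (ϕ x) * p x) := by ring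
          _ ≤ (1 + y * rexp (κ * Γ₀ ^ 2)) * (rexp (ϕ x) * p x) := by gcongr
          _ = _ := by rw [hy]; ring
      have i3 : Integrable fun x => (κ * rexp (κ * Γ₀ ^ 2)) * (Γ x ^ 2 * (rexp (ϕ x) * p x)) :=
        hi_W.const_mul _
      have hmono := integral_mono hi3 (hi_A.add i3) pt
      rw [integral_add' hi_A i3, integral_const_mul, ← hA, ← hW] at hmono
      exact hmono
    have hchain : A + s * (B - A * log (A / m)) ≤ A + (κ * rexp (κ * Γ₀ ^ 2)) * W :=
      hlow.trans (hpl.trans hup)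
    have h1 : s * (B - A * log (A / m)) ≤ (κ * rexp (κ * Γ₀ ^ 2)) * W := by linarith
    have e : κ * rexp (κ * Γ₀ ^ 2) * W = s * ((1 / (2 * d)) * (rexp (κ * Γ₀ ^ 2) * W)) := by
      rw [hκ]
      field_simp
    rw [e] at h1
    exact le_of_mul_le_mul_left h1 s0
  -- passage to the limit
  set F : ℝ → ℝ := fun s => (1 / (2 * (c * (1 - s) - 2 * M * s))) *
        (rexp ((s / (2 * (c * (1 - s) - 2 * M * s))) * Γ₀ ^ 2) * W) with hF
  have hcont : ContinuousAt F 0 := by
    have hd : ContinuousAt (fun s : ℝ => 2 * (c * (1 - s) - 2 * M * s)) 0 := by fun_prop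
    have hne : 2 * (c * (1 - (0 : ℝ)) - 2 * M * 0) ≠ 0 := by
      simp only [sub_zero, mul_one, mul_zero]
      positivity
    have h1 : ContinuousAt (fun s : ℝ => 1 / (2 * (c * (1 - s) - 2 * M * s))) 0 :=
      continuousAt_const.div hd hne
    have h2 : ContinuousAt (fun s : ℝ => s / (2 * (c * (1 - s) - 2 * M * s))) 0 :=
      continuousAt_id.div hd hne
    have h3 : ContinuousAt (fun s : ℝ => rexp ((s / (2 * (c * (1 - s) - 2 * M * s))) * Γ₀ ^ 2)) 0 :=
      (h2.mul continuousAt_const).rexp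
    exact h1.mul (h3.mul continuousAt_const)
  have hF0 : F 0 = (1 / (2 * c)) * W := by
    simp [hF]
  have hlim : Tendsto F (𝓝[>] 0) (𝓝 (F 0)) := hcont.tendsto.mono_left nhdsWithin_le_nhds
  rw [← hF0]
  refine ge_of_tendsto hlim ?_
  have hd : Tendsto (fun s : ℝ => c * (1 - s) - 2 * M * s) (𝓝 0) (𝓝 (c * (1 - 0) - 2 * M * 0)) := by
    have : Continuous (fun s : ℝ => c * (1 - s) - 2 * M * s) := by fun_prop
    exact this.tendsto 0
  have hd2 : ∀ᶠ s in 𝓝 (0 : ℝ), 0 < c * (1 - s) - 2 * M * s :=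
    hd.eventually (lt_mem_nhds (by simpa using hc))
  have hs3 : ∀ᶠ s in 𝓝 (0 : ℝ), s < 1 := gt_mem_nhds (by norm_num)
  have h5 := (hd2.and hs3).filter_mono (nhdsWithin_le_nhds (s := Set.Ioi (0 : ℝ)))
  filter_upwards [h5, self_mem_nhdsWithin] with s hs hs0
  exact main s hs0 hs.2 hs.1

end Vale.Agent.Lib.P245
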