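import Vale.Agent.Lib.P245.Hyper

/-!
# The entropy decomposition along the Gaussian channel
-/

open MeasureTheory ProbabilityTheory Real
open scoped ENNReal RealInnerProductSpace

namespace Vale.Agent.Lib.P245

variable {n : ℕ} {μ : Measure (Eu n)} [IsProbabilityMeasure μ] {κ : ℝ}

set_option linter.unusedSectionVars false
set_option linter.unusedVariables false

/-- Young's inequality for the entropy. -/
lemma young_ent {a : ℝ} (ha : 0 ≤ a) (y : ℝ) : a * y ≤ a * log a - a + rexp y := by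
  rcases ha.eq_or_lt with rfl | ha
  · simpa using (exp_pos y).le
  · have h1 := add_one_le_exp (y - log a)
    have h2 : rexp (y - log a) = rexp y / a := by
      rw [exp_sub, exp_log ha]
    rw [h2] at h1
    have h3 : (y - log a + 1) * a ≤ rexp y := by
      rwa [le_div_iff₀ ha] at h1
    nlinarith

lemma abs_mul_log_le {t : ℝ} (ht : 0 ≤ t) : |t * log t| ≤ 1 + t ^ 2 := by
  rcases ht.eq_or_lt with rfl | ht
  · simp
  · rcases le_total t 1 with h | h
    · have h1 : log t ≤ 0 := log_nonpos ht.le h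
      have h2 : log t ≥ 1 - t⁻¹ := by
        have := one_sub_inv_le_log_of_pos ht
        linarith
      rw [abs_of_nonpos (mul_nonpos_of_nonneg_of_nonpos ht.le h1)]
      have h3 : t * (1 - t⁻¹) = t - 1 := by field_simp
      have h4 : t * log t ≥ t * (1 - t⁻¹) := by gcongr
      nlinarith [sq_nonneg t]
    · have h1 : 0 ≤ log t := log_nonneg h
      have h2 : log t ≤ t - 1 := log_le_sub_one_of_pos ht
      rw [abs_of_nonneg (mul_nonneg ht.le h1)]
      nlinarith [sq_nonneg t]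

/-- The channel output density. -/
noncomputable def hh (μ : Measure (Eu n)) (κ : ℝ) (g : Eu n → ℝ) (θ : Eu n) : ℝ :=
  ∫ x, kk κ θ x * g x ∂μ

section
variable {g : Eu n → ℝ} (hg : Measurable g) (hg0 : ∀ x, 0 ≤ g x) {G : ℝ} (hgG : ∀ x, g x ≤ G)
include hg hg0 hgG

lemma integrable_g : Integrable g μ := by
  refine Integrable.of_bound hg.aestronglyMeasurable G (Filter.Eventually.of_forall fun x => ?_)
  rw [Real.norm_eq_abs, abs_of_nonneg (hg0 x)]
  exact hgG x

lemma integrable_kk_g (θ : Eu n) : Integrable (fun x => kk κ θ x * g x) μ := by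
  refine ((integrable_kk_x (μ := μ) κ θ).const_mul G).mono' ?_
    (Filter.Eventually.of_forall fun x => ?_)
  · exact (((measurable_kk κ).comp measurable_prodMk_left).mul hg).aestronglyMeasurable
  · rw [Real.norm_eq_abs, abs_of_nonneg (mul_nonneg (kk_nonneg _ _ _) (hg0 x)), mul_comm]
    exact mul_le_mul_of_nonneg_right (hgG x) (kk_nonneg _ _ _)

lemma hh_nonneg (θ : Eu n) : 0 ≤ hh μ κ g θ :=
  integral_nonneg fun x => mul_nonneg (kk_nonneg _ _ _) (hg0 x)

lemma hh_le (θ : Eu n) : hh μ κ g θ ≤ G * Zz μ κ θ := by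
  unfold hh Zz
  rw [← integral_const_mul]
  refine integral_mono (integrable_kk_g hg hg0 hgG θ) ((integrable_kk_x κ θ).const_mul G)
    (fun x => ?_)
  simp only
  rw [mul_comm]
  exact mul_le_mul_of_nonneg_right (hgG x) (kk_nonneg _ _ _)

lemma measurable_hh : Measurable (hh μ κ g) := by
  have h : StronglyMeasurable fun p : Eu n × Eu n => kk κ p.1 p.2 * g p.2 := by
    apply Measurable.stronglyMeasurable
    exact (measurable_kk κ).mul (hg.comp measurable_snd)
  exact h.integral_prod_right'.measurable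

lemma hh_pos (hg1 : ∫ x, g x ∂μ = 1) (θ : Eu n) : 0 < hh μ κ g θ := by
  unfold hh
  rw [integral_pos_iff_support_of_nonneg (fun x => mul_nonneg (kk_nonneg _ _ _) (hg0 x))
    (integrable_kk_g hg hg0 hgG θ)]
  have h1 : 0 < ∫ x, g x ∂μ := by rw [hg1]; norm_num
  rw [integral_pos_iff_support_of_nonneg hg0 (integrable_g hg hg0 hgG)] at h1
  have : Function.support (fun x => kk κ θ x * g x) = Function.support g := by
    ext x
    simp [(kk_pos κ θ x).ne']
  rwa [this]

lemma integral_hh (hg1 : ∫ x, g x ∂μ = 1) : ∫ θ, hh μ κ g θ ∂(gam n) = 1 := by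
  have h := integral_kernel (gam n) μ (ℓ := fun θ x => kk κ θ x) (e := fun _ => 1) (G := g)
    (measurable_kk κ) (kk_nonneg κ) (fun x => integrable_kk κ x) (fun x => integral_kk κ x)
    hg.aestronglyMeasurable (by simpa using integrable_g hg hg0 hgG)
  simp only [mul_one, hg1] at h
  rw [← h]
  refine integral_congr_ae (Filter.Eventually.of_forall fun θ => ?_)
  simp only [hh]
  refine integral_congr_ae (Filter.Eventually.of_forall fun x => ?_)
  simp only
  ring

lemma integrable_hh : Integrable (hh μ κ g) (gam n) := by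
  have hGnn : 0 ≤ G := (hg0 0).trans (hgG 0)
  refine (integrable_Zz (μ := μ) (κ := κ)).const_mul G |>.mono'
    (measurable_hh hg hg0 hgG).aestronglyMeasurable (Filter.Eventually.of_forall fun θ => ?_)
  rw [Real.norm_eq_abs, abs_of_nonneg (hh_nonneg hg hg0 hgG θ)]
  exact hh_le hg hg0 hgG θ

lemma integrable_hh_log (hm : Integrable (fun x : Eu n => rexp (2 * κ ^ 2 * ‖x‖ ^ 2)) μ) :
    Integrable (fun θ => hh μ κ g θ * log (hh μ κ g θ)) (gam n) := by
  have hGnn : 0 ≤ G := (hg0 0).trans (hgG 0)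
  have hm1 := measurable_hh (μ := μ) (κ := κ) hg hg0 hgG
  refine ((integrable_const (1 : ℝ)).add ((integrable_Zz_sq (μ := μ) hm).const_mul (G ^ 2))).mono'
    (hm1.mul hm1.log).aestronglyMeasurable (Filter.Eventually.of_forall fun θ => ?_)
  simp only [Pi.add_apply]
  rw [Real.norm_eq_abs]
  refine (abs_mul_log_le (hh_nonneg hg hg0 hgG θ)).trans ?_
  have h1 := hh_le (μ := μ) (κ := κ) hg hg0 hgG θ
  have h2 := hh_nonneg (μ := μ) (κ := κ) hg hg0 hgG θ
  have : hh μ κ g θ ^ 2 ≤ (G * Zz μ κ θ) ^ 2 := pow_le_pow_left₀ h2 h1 2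
  rw [mul_pow] at this
  linarith

lemma integrable_hh_logZ (hm : Integrable (fun x : Eu n => rexp (2 * κ ^ 2 * ‖x‖ ^ 2)) μ) :
    Integrable (fun θ => hh μ κ g θ * log (Zz μ κ θ)) (gam n) := by
  have hGnn : 0 ≤ G := (hg0 0).trans (hgG 0)
  have hm1 := measurable_hh (μ := μ) (κ := κ) hg hg0 hgG
  have hm2 := measurable_Zz (μ := μ) κ
  refine (((integrable_const (1 : ℝ)).add (integrable_Zz_sq (μ := μ) hm)).const_mul G).mono'
    (hm1.mul hm2.log).aestronglyMeasurable (Filter.Eventually.of_forall fun θ => ?_)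
  simp only [Pi.add_apply]
  rw [Real.norm_eq_abs, abs_mul]
  have h0 := hh_nonneg (μ := μ) (κ := κ) hg hg0 hgG θ
  have h1 := hh_le (μ := μ) (κ := κ) hg hg0 hgG θ
  have hZ := Zz_pos (μ := μ) κ θ
  rw [abs_of_nonneg h0]
  have h3 := abs_mul_log_le hZ.le
  rw [abs_mul, abs_of_pos hZ] at h3
  calc hh μ κ g θ * |log (Zz μ κ θ)| ≤ (G * Zz μ κ θ) * |log (Zz μ κ θ)| := by gcongr
    _ = G * (Zz μ κ θ * |log (Zz μ κ θ)|) := by ring
    _ ≤ G * (1 + Zz μ κ θ ^ 2) := by gcongr

end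

/-- The square root of the channel output. -/
noncomputable def uu (μ : Measure (Eu n)) (κ : ℝ) (g : Eu n → ℝ) (θ : Eu n) : ℝ :=
  √(hh μ κ g θ)

section
variable {g : Eu n → ℝ} (hg : Measurable g) (hg0 : ∀ x, 0 ≤ g x) {G : ℝ} (hgG : ∀ x, g x ≤ G)
  (hg1 : ∫ x, g x ∂μ = 1)
include hg hg0 hgG hg1

lemma uu_facts : Measurable (uu μ κ g) ∧ (∀ θ, 0 < uu μ κ g θ) ∧
    Integrable (fun θ => uu μ κ g θ ^ 2) (gam n) ∧ ∫ θ, uu μ κ g θ ^ 2 ∂(gam n) = 1 ∧
    ∀ θ, log (hh μ κ g θ) = 2 * log (uu μ κ g θ) := by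
  have hhm : Measurable (hh μ κ g) := measurable_hh hg hg0 hgG
  have hpos : ∀ θ, 0 < hh μ κ g θ := hh_pos hg hg0 hgG hg1
  have husq : ∀ θ, uu μ κ g θ ^ 2 = hh μ κ g θ := fun θ => sq_sqrt (hpos θ).le
  refine ⟨hhm.sqrt, fun θ => sqrt_pos.2 (hpos θ), ?_, ?_, ?_⟩
  · simpa only [husq] using integrable_hh (μ := μ) (κ := κ) hg hg0 hgG
  · simpa only [husq] using integral_hh (μ := μ) (κ := κ) hg hg0 hgG hg1
  · intro θ
    rw [← husq θ, log_pow]
    push_cast
    ring

lemma ww_uu_pos (x : Eu n) : 0 < ww κ (uu μ κ g) x := by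
  obtain ⟨hum, hupos, hu2, hu1, -⟩ := uu_facts (μ := μ) (κ := κ) hg hg0 hgG hg1
  simp only [ww]
  rw [integral_pos_iff_support_of_nonneg (fun θ => mul_nonneg (kk_nonneg _ _ _) (hupos θ).le)
    (integrable_kk_u hum hu2 x)]
  have : Function.support (fun θ => kk κ θ x * uu μ κ g θ) = Set.univ := by
    ext θ
    simp [(kk_pos κ θ x).ne', (hupos θ).ne']
  rw [this]
  simp

lemma integrable_ww_uu (hm : Integrable (fun x : Eu n => rexp (2 * κ ^ 2 * ‖x‖ ^ 2)) μ) :
    Integrable (fun x => ww κ (uu μ κ g) x ^ 4) μ := by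
  obtain ⟨hum, hupos, hu2, hu1, -⟩ := uu_facts (μ := μ) (κ := κ) hg hg0 hgG hg1
  have hwm : Measurable (ww κ (uu μ κ g)) := measurable_ww hum
  refine hm.mono' (hwm.pow_const 4).aestronglyMeasurable
    (Filter.Eventually.of_forall fun x => ?_)
  rw [Real.norm_eq_abs, abs_of_nonneg (pow_nonneg (ww_uu_pos hg hg0 hgG hg1 x).le 4)]
  have := ww_sq_le (κ := κ) hum hu2 hu1 x
  have h2 : ww κ (uu μ κ g) x ^ 4 = (ww κ (uu μ κ g) x ^ 2) ^ 2 := by ring
  have h3 : rexp (2 * κ ^ 2 * ‖x‖ ^ 2) = rexp (κ ^ 2 * ‖x‖ ^ 2) ^ 2 := by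
    rw [← exp_nat_mul]; congr 1; push_cast; ring
  rw [h2, h3]
  exact pow_le_pow_left₀ (sq_nonneg _) this 2

lemma integral_ww_uu_pos (hm : Integrable (fun x : Eu n => rexp (2 * κ ^ 2 * ‖x‖ ^ 2)) μ) :
    0 < ∫ x, ww κ (uu μ κ g) x ^ 4 ∂μ := by
  rw [integral_pos_iff_support_of_nonneg
    (fun x => pow_nonneg (ww_uu_pos hg hg0 hgG hg1 x).le 4) (integrable_ww_uu hg hg0 hgG hg1 hm)]
  have : Function.support (fun x => ww κ (uu μ κ g) x ^ 4) = Set.univ := by
    ext x
    simp [(ww_uu_pos (κ := κ) hg hg0 hgG hg1 x).ne']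
  rw [this]
  simp

/-- The pointwise estimate behind the first Young inequality. -/
lemma key1_pt {x : Eu n} {I : ℝ} (hIpos : 0 < I)
    (hx : Integrable (fun θ => log (hh μ κ g θ) * (kk κ θ x * g x)) (gam n)) :
    2 * ∫ θ, log (hh μ κ g θ) * (kk κ θ x * g x) ∂(gam n) ≤
      g x * log (g x) - g x + (I⁻¹ * ww κ (uu μ κ g) x ^ 4) + log I * g x := by
  obtain ⟨hum, hupos, hu2, hu1, hlogu⟩ := uu_facts (μ := μ) (κ := κ) hg hg0 hgG hg1
  have hc := ww_uu_pos (μ := μ) (κ := κ) hg hg0 hgG hg1 x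
  set c := ww κ (uu μ κ g) x with hc_def
  have hR : 0 ≤ I⁻¹ * c ^ 4 := by positivity
  rcases (hg0 x).eq_or_lt with hgx | hgx
  · simp only [← hgx]
    simpa using hR
  · have hk1 : Integrable (fun θ => kk κ θ x) (gam n) := integrable_kk κ x
    have hk2 : Integrable (fun θ => kk κ θ x * uu μ κ g θ) (gam n) := integrable_kk_u hum hu2 x
    have hright : Integrable (fun θ => g x * ((2 / c) * (kk κ θ x * uu μ κ g θ)
        + (2 * log c - 2) * kk κ θ x)) (gam n) :=
      ((hk2.const_mul _).add (hk1.const_mul _)).const_mul _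
    have hBle : ∫ θ, log (hh μ κ g θ) * (kk κ θ x * g x) ∂(gam n) ≤
        ∫ θ, g x * ((2 / c) * (kk κ θ x * uu μ κ g θ)
        + (2 * log c - 2) * kk κ θ x) ∂(gam n) := by
      refine integral_mono hx hright (fun θ => ?_)
      simp only
      have h1 : log (uu μ κ g θ / c) ≤ uu μ κ g θ / c - 1 :=
        log_le_sub_one_of_pos (div_pos (hupos θ) hc)
      rw [log_div (hupos θ).ne' hc.ne'] at h1
      rw [hlogu θ]
      have h2 := kk_pos κ θ x
      have h3 : 2 * log (uu μ κ g θ) ≤ 2 * (uu μ κ g θ / c) - 2 + 2 * log c := by linarith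
      calc 2 * log (uu μ κ g θ) * (kk κ θ x * g x)
          ≤ (2 * (uu μ κ g θ / c) - 2 + 2 * log c) * (kk κ θ x * g x) := by
            apply mul_le_mul_of_nonneg_right h3 (by positivity)
        _ = _ := by
            field_simp
            ring
    have hval2 : ∫ θ, g x * ((2 / c) * (kk κ θ x * uu μ κ g θ)
        + (2 * log c - 2) * kk κ θ x) ∂(gam n) = g x * (2 * log c) := by
      rw [integral_const_mul, integral_add (hk2.const_mul _) (hk1.const_mul _),
        integral_const_mul, integral_const_mul, integral_kk]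
      have : ∫ θ, kk κ θ x * uu μ κ g θ ∂(gam n) = c := rfl
      rw [this]
      field_simp
      ring
    rw [hval2] at hBle
    have hy := young_ent (hg0 x) (4 * log c - log I)
    have he : rexp (4 * log c - log I) = I⁻¹ * c ^ 4 := by
      rw [exp_sub, exp_log hIpos, show 4 * log c = ((4 : ℕ) : ℝ) * log c by norm_num,
        exp_nat_mul, exp_log hc]
      field_simp
    rw [he] at hy
    nlinarith

lemma integrable_g_log : Integrable (fun x => g x * log (g x)) μ := by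
  refine Integrable.of_bound (hg.mul hg.log).aestronglyMeasurable (1 + G ^ 2)
    (Filter.Eventually.of_forall fun x => ?_)
  rw [Real.norm_eq_abs]
  refine (abs_mul_log_le (hg0 x)).trans ?_
  have := pow_le_pow_left₀ (hg0 x) (hgG x) 2
  linarith

/-- First Young inequality: `2 D ≤ H + log I`. -/
lemma key1 (hm : Integrable (fun x : Eu n => rexp (2 * κ ^ 2 * ‖x‖ ^ 2)) μ) :
    2 * ∫ θ, hh μ κ g θ * log (hh μ κ g θ) ∂(gam n) ≤
      ∫ x, g x * log (g x) ∂μ + log (∫ x, ww κ (uu μ κ g) x ^ 4 ∂μ) := by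
  have hIpos := integral_ww_uu_pos (κ := κ) hg hg0 hgG hg1 hm
  have hw4i := integrable_ww_uu (κ := κ) hg hg0 hgG hg1 hm
  have hgi := integrable_g (μ := μ) hg hg0 hgG
  have hglog := integrable_g_log (μ := μ) hg hg0 hgG hg1
  set I := ∫ x, ww κ (uu μ κ g) x ^ 4 ∂μ with hI
  have hhm := measurable_hh (μ := μ) (κ := κ) hg hg0 hgG
  have hℓ : Measurable fun q : Eu n × Eu n => kk κ q.2 q.1 * g q.1 :=
    ((continuous_kk κ).comp (continuous_snd.prodMk continuous_fst)).measurable.mul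
      (hg.comp measurable_fst)
  have h0 : ∀ x θ, 0 ≤ kk κ θ x * g x := fun x θ => mul_nonneg (kk_nonneg _ _ _) (hg0 x)
  have hi : ∀ θ, Integrable (fun x => kk κ θ x * g x) μ := integrable_kk_g hg hg0 hgG
  have hGe : Integrable (fun θ => log (hh μ κ g θ) * hh μ κ g θ) (gam n) := by
    refine (integrable_hh_log hg hg0 hgG hm).congr (Filter.Eventually.of_forall fun θ => ?_)
    simp only
    ring
  have hbl := integrable_kernel μ (gam n) (ℓ := fun x θ => kk κ θ x * g x) (e := hh μ κ g)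
    (G := fun θ => log (hh μ κ g θ)) hℓ h0 hi (fun θ => rfl) hhm.log.aestronglyMeasurable hGe
  have hval := integral_kernel μ (gam n) (ℓ := fun x θ => kk κ θ x * g x) (e := hh μ κ g)
    (G := fun θ => log (hh μ κ g θ)) hℓ h0 hi (fun θ => rfl) hhm.log.aestronglyMeasurable hGe
  have hBi := hbl.integral_prod_left
  have hpt := hbl.prod_right_ae.mono fun x hx => key1_pt hg hg0 hgG hg1 hIpos hx
  have hRi : Integrable (fun x => g x * log (g x) - g x
      + (I⁻¹ * ww κ (uu μ κ g) x ^ 4) + log I * g x) μ :=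
    ((hglog.sub hgi).add (hw4i.const_mul _)).add (hgi.const_mul _)
  have hmono := integral_mono_ae (hBi.const_mul 2) hRi hpt
  have i1 : Integrable (fun x => g x * log (g x) - g x) μ := hglog.sub hgi
  have i2 : Integrable (fun x => I⁻¹ * ww κ (uu μ κ g) x ^ 4) μ := hw4i.const_mul _
  have i3 : Integrable (fun x => log I * g x) μ := hgi.const_mul _
  have i12 : Integrable (fun x => g x * log (g x) - g x + I⁻¹ * ww κ (uu μ κ g) x ^ 4) μ :=
    i1.add i2
  rw [integral_const_mul, hval, integral_add i12 i3, integral_add i1 i2,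
    integral_sub hglog hgi, integral_const_mul, integral_const_mul, hg1, ← hI] at hmono
  have hI1 : I⁻¹ * I = 1 := inv_mul_cancel₀ hIpos.ne'
  have e : ∫ θ, log (hh μ κ g θ) * hh μ κ g θ ∂(gam n) = ∫ θ, hh μ κ g θ * log (hh μ κ g θ) ∂(gam n) := by
    refine integral_congr_ae (Filter.Eventually.of_forall fun θ => ?_)
    simp only
    ring
  rw [e] at hmono
  linarith

/-- Second Young inequality. -/
lemma key2 (hκ : κ ≠ 0) (hm : Integrable (fun x : Eu n => rexp (2 * κ ^ 2 * ‖x‖ ^ 2)) μ) :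
    -(2 * ∫ θ, hh μ κ g θ * log (Zz μ κ θ) ∂(gam n)) ≤
      ∫ θ, hh μ κ g θ * log (hh μ κ g θ) ∂(gam n) + 4 * log (phi μ (2 * κ ^ 2)) := by
  have hi1 : Integrable (hh μ κ g) (gam n) := integrable_hh hg hg0 hgG
  have hi2 := integrable_hh_log (μ := μ) (κ := κ) hg hg0 hgG hm
  have hi3 := integrable_hh_logZ (μ := μ) (κ := κ) hg hg0 hgG hm
  have hint1 := integral_hh (μ := μ) (κ := κ) hg hg0 hgG hg1
  have hpos := hh_pos (μ := μ) (κ := κ) hg hg0 hgG hg1
  obtain ⟨hNi, hNle⟩ := neg_moment (μ := μ) hκ hm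
  set N := ∫ θ, (Zz μ κ θ)⁻¹ ^ 2 ∂(gam n) with hN
  have hNpos : 0 < N := by
    rw [hN, integral_pos_iff_support_of_nonneg (fun θ => by positivity) hNi]
    have : Function.support (fun θ => (Zz μ κ θ)⁻¹ ^ 2) = Set.univ := by
      ext θ
      simp [(Zz_pos (μ := μ) κ θ).ne']
    rw [this]
    simp
  have hlogN : log N ≤ 4 * log (phi μ (2 * κ ^ 2)) := by
    have := log_le_log hNpos hNle
    rw [log_pow] at this
    simpa using this
  have hpt : ∀ θ, -(2 * (hh μ κ g θ * log (Zz μ κ θ))) ≤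
      hh μ κ g θ * log (hh μ κ g θ) - hh μ κ g θ + N⁻¹ * (Zz μ κ θ)⁻¹ ^ 2 + log N * hh μ κ g θ := by
    intro θ
    have hZ := Zz_pos (μ := μ) κ θ
    have hy := young_ent (hpos θ).le (-2 * log (Zz μ κ θ) - log N)
    have he : rexp (-2 * log (Zz μ κ θ) - log N) = N⁻¹ * (Zz μ κ θ)⁻¹ ^ 2 := by
      rw [exp_sub, exp_log hNpos, show -2 * log (Zz μ κ θ) = ((2 : ℕ) : ℝ) * (-log (Zz μ κ θ)) by
        push_cast; ring, exp_nat_mul, exp_neg, exp_log hZ]
      field_simp
    rw [he] at hy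
    nlinarith
  have hRi : Integrable (fun θ => hh μ κ g θ * log (hh μ κ g θ) - hh μ κ g θ
      + N⁻¹ * (Zz μ κ θ)⁻¹ ^ 2 + log N * hh μ κ g θ) (gam n) :=
    ((hi2.sub hi1).add (hNi.const_mul _)).add (hi1.const_mul _)
  have hmono : ∫ θ, -(2 * (hh μ κ g θ * log (Zz μ κ θ))) ∂(gam n) ≤ _ :=
    integral_mono ((hi3.const_mul 2).neg) hRi hpt
  have i1 : Integrable (fun θ => hh μ κ g θ * log (hh μ κ g θ) - hh μ κ g θ) (gam n) := hi2.sub hi1
  have i2 : Integrable (fun θ => N⁻¹ * (Zz μ κ θ)⁻¹ ^ 2) (gam n) := hNi.const_mul _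
  have i3 : Integrable (fun θ => log N * hh μ κ g θ) (gam n) := hi1.const_mul _
  have i12 : Integrable (fun θ => hh μ κ g θ * log (hh μ κ g θ) - hh μ κ g θ
      + N⁻¹ * (Zz μ κ θ)⁻¹ ^ 2) (gam n) := i1.add i2
  rw [integral_neg, integral_const_mul, integral_add i12 i3, integral_add i1 i2,
    integral_sub hi2 hi1, integral_const_mul, integral_const_mul, hint1, ← hN] at hmono
  have : N⁻¹ * N = 1 := inv_mul_cancel₀ hNpos.ne'
  linarith

end

/-- The entropy chain. -/
theorem chain (hκ : κ ≠ 0) (hm : Integrable (fun x : Eu n => rexp (2 * κ ^ 2 * ‖x‖ ^ 2)) μ)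
    {g : Eu n → ℝ} (hg : Measurable g) (hg0 : ∀ x, 0 ≤ g x) {G : ℝ} (hgG : ∀ x, g x ≤ G)
    (hg1 : ∫ x, g x ∂μ = 1) {E : Eu n → ℝ} (hE : Integrable E (gam n))
    (hbe : ∀ θ, (∫ x, (g x * log (g x)) * kk κ θ x ∂μ)
        - hh μ κ g θ * log (hh μ κ g θ / Zz μ κ θ) ≤ E θ) :
    (1 / 4) * ∫ x, g x * log (g x) ∂μ ≤ ∫ θ, E θ ∂(gam n)
      + (3 / 8) * log (phi μ (4 * κ ^ 2)) + 2 * log (phi μ (2 * κ ^ 2)) := by
  have hglog := integrable_g_log (μ := μ) hg hg0 hgG hg1
  have hi2 := integrable_hh_log (μ := μ) (κ := κ) hg hg0 hgG hm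
  have hi3 := integrable_hh_logZ (μ := μ) (κ := κ) hg hg0 hgG hm
  have hpos := hh_pos (μ := μ) (κ := κ) hg hg0 hgG hg1
  have k1 := key1 (μ := μ) (κ := κ) hg hg0 hgG hg1 hm
  have k2 := key2 (μ := μ) (κ := κ) hg hg0 hgG hg1 hκ hm
  have hIpos := integral_ww_uu_pos (κ := κ) hg hg0 hgG hg1 hm
  obtain ⟨hum, hupos, hu2, hu1, -⟩ := uu_facts (μ := μ) (κ := κ) hg hg0 hgG hg1
  have hhyp := hyper (μ := μ) hm hum (fun θ => (hupos θ).le) hu2 hu1
  set I := ∫ x, ww κ (uu μ κ g) x ^ 4 ∂μ with hI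
  have hlogI : 2 * log I ≤ log (phi μ (4 * κ ^ 2)) := by
    have := log_le_log (by positivity) hhyp
    rw [log_pow] at this
    simpa using this
  set D := ∫ θ, hh μ κ g θ * log (hh μ κ g θ) ∂(gam n) with hD
  set H := ∫ x, g x * log (g x) ∂μ with hH
  -- the decomposition of the entropy
  have hQi := (integrable_kernel (gam n) μ (ℓ := fun θ x => kk κ θ x) (e := fun _ => 1)
    (G := fun x => g x * log (g x)) (measurable_kk κ) (kk_nonneg κ) (fun x => integrable_kk κ x)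
    (fun x => integral_kk κ x) (hg.mul hg.log).aestronglyMeasurable
    (by simpa using hglog)).integral_prod_left
  have hQv := integral_kernel (gam n) μ (ℓ := fun θ x => kk κ θ x) (e := fun _ => 1)
    (G := fun x => g x * log (g x)) (measurable_kk κ) (kk_nonneg κ) (fun x => integrable_kk κ x)
    (fun x => integral_kk κ x) (hg.mul hg.log).aestronglyMeasurable
    (by simpa using hglog)
  simp only [mul_one] at hQv
  have hlogdiv : ∀ θ, hh μ κ g θ * log (hh μ κ g θ / Zz μ κ θ)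
      = hh μ κ g θ * log (hh μ κ g θ) - hh μ κ g θ * log (Zz μ κ θ) := by
    intro θ
    rw [log_div (hpos θ).ne' (Zz_pos (μ := μ) κ θ).ne']
    ring
  have hpt3 : ∀ θ, (∫ x, (g x * log (g x)) * kk κ θ x ∂μ) ≤
      E θ + (hh μ κ g θ * log (hh μ κ g θ) - hh μ κ g θ * log (Zz μ κ θ)) := by
    intro θ
    have := hbe θ
    rw [hlogdiv θ] at this
    linarith
  have i1 : Integrable (fun θ => hh μ κ g θ * log (hh μ κ g θ) - hh μ κ g θ * log (Zz μ κ θ))
      (gam n) := hi2.sub hi3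
  have hmono := integral_mono hQi (hE.add i1) hpt3
  rw [hQv, integral_add' hE i1, integral_sub hi2 hi3, ← hD] at hmono
  linarith

end Vale.Agent.Lib.P245
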