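import Mathlib

/-!
# Statement-level definitions for P245 (log-Sobolev inequalities for subgaussian log-concave measures)
-/

open MeasureTheory ProbabilityTheory
open scoped ENNReal RealInnerProductSpace ContDiff

namespace Vale.Agent.Lib.P245

/-- Euclidean `n`-space. -/
abbrev Eu (n : ℕ) := EuclideanSpace ℝ (Fin n)

/-- A log-concave Lebesgue density: nonnegative, Borel, the set `{ρ > 0}` is convex and
`log ρ` is concave on it. -/
def IsLogConcaveDensity {n : ℕ} (ρ : Eu n → ℝ) : Prop :=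
  Measurable ρ ∧ (∀ x, 0 ≤ ρ x) ∧ Convex ℝ {x | 0 < ρ x} ∧
    ConcaveOn ℝ {x | 0 < ρ x} (fun x => Real.log (ρ x))

/-- The measure with Lebesgue density `ρ`. -/
noncomputable def densityMeasure {n : ℕ} (ρ : Eu n → ℝ) : Measure (Eu n) :=
  volume.withDensity (fun x => ENNReal.ofReal (ρ x))

/-- `μ` is linearly `a`-subgaussian: `E exp(⟨X,θ⟩²/a²) ≤ 2` for all unit vectors `θ`. -/
def IsLinearSubgaussian {n : ℕ} (μ : Measure (Eu n)) (a : ℝ) : Prop :=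
  ∀ θ : Eu n, ‖θ‖ = 1 → ∫⁻ x, ENNReal.ofReal (Real.exp (⟪x, θ⟫ ^ 2 / a ^ 2)) ∂μ ≤ 2

/-- The entropy `Ent_μ(g) = ∫ g log g - (∫ g) log (∫ g)`. -/
noncomputable def entropy {n : ℕ} (μ : Measure (Eu n)) (g : Eu n → ℝ) : ℝ :=
  ∫ x, g x * Real.log (g x) ∂μ - (∫ x, g x ∂μ) * Real.log (∫ x, g x ∂μ)

/-- `μ` satisfies a Poincare inequality with constant `C` on test functions. -/
def HasPoincare {n : ℕ} (μ : Measure (Eu n)) (C : ℝ) : Prop :=
  ∀ f : Eu n → ℝ, ContDiff ℝ ∞ f → HasCompactSupport f →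
    ∫ x, (f x - ∫ y, f y ∂μ) ^ 2 ∂μ ≤ C * ∫ x, ‖fderiv ℝ f x‖ ^ 2 ∂μ

end Vale.Agent.Lib.P245
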