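import Vale.Agent.Lib.P245.Rothaus

/-!
# Passing from the density to the measure
-/

open MeasureTheory ProbabilityTheory Real Filter Topology
open scoped ENNReal RealInnerProductSpace ContDiff

namespace Vale.Agent.Lib.P245

variable {n : ℕ}

set_option linter.unusedSectionVars false
set_option linter.unusedVariables false

lemma integral_density {ρ : Eu n → ℝ} (hρ : Measurable ρ) (h0 : ∀ x, 0 ≤ ρ x) (h : Eu n → ℝ) :
    ∫ x, h x ∂(densityMeasure ρ) = ∫ x, h x * ρ x := by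
  unfold densityMeasure
  rw [integral_withDensity_eq_integral_toReal_smul hρ.ennreal_ofReal
    (Eventually.of_forall fun x => ENNReal.ofReal_lt_top)]
  refine integral_congr_ae (Eventually.of_forall fun x => ?_)
  simp [ENNReal.toReal_ofReal (h0 x), mul_comm]

lemma integrable_density_iff {ρ : Eu n → ℝ} (hρ : Measurable ρ) (h0 : ∀ x, 0 ≤ ρ x)
    (h : Eu n → ℝ) :
    Integrable h (densityMeasure ρ) ↔ Integrable fun x => h x * ρ x := by
  unfold densityMeasure
  rw [integrable_withDensity_iff_integrable_smul' hρ.ennreal_ofReal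
    (Eventually.of_forall fun x => ENNReal.ofReal_lt_top)]
  apply integrable_congr
  refine Eventually.of_forall fun x => ?_
  simp [ENNReal.toReal_ofReal (h0 x), mul_comm]

lemma norm_sq_combo (x y : Eu n) (s : ℝ) :
    ‖(1 - s) • x + s • y‖ ^ 2 = (1 - s) * ‖x‖ ^ 2 + s * ‖y‖ ^ 2 - s * (1 - s) * ‖x - y‖ ^ 2 := by
  rw [@norm_add_sq_real, @norm_sub_sq_real, norm_smul, norm_smul, inner_smul_left, inner_smul_right,
    mul_pow, mul_pow, Real.norm_eq_abs, Real.norm_eq_abs, sq_abs, sq_abs]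
  simp only [conj_trivial]
  ring

lemma logconcave_rpow {ρ : Eu n → ℝ} (hρ : IsLogConcaveDensity ρ) (x y : Eu n) {s : ℝ}
    (s0 : 0 < s) (s1 : s < 1) :
    ρ x ^ (1 - s) * ρ y ^ s ≤ ρ ((1 - s) • x + s • y) := by
  obtain ⟨hm, h0, hconv, hconc⟩ := hρ
  have hs1 : 0 < 1 - s := by linarith
  rcases (h0 x).eq_or_lt with hx | hx
  · rw [← hx, Real.zero_rpow hs1.ne', zero_mul]
    exact h0 _
  rcases (h0 y).eq_or_lt with hy | hy
  · rw [← hy, Real.zero_rpow s0.ne', mul_zero]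
    exact h0 _
  have hz : 0 < ρ ((1 - s) • x + s • y) :=
    hconv (Set.mem_setOf.2 hx) (Set.mem_setOf.2 hy) hs1.le s0.le (by ring)
  have h2 := hconc.2 (Set.mem_setOf.2 hx) (Set.mem_setOf.2 hy) hs1.le s0.le (by ring)
  simp only [smul_eq_mul] at h2
  rw [Real.rpow_def_of_pos hx, Real.rpow_def_of_pos hy, ← exp_add]
  calc rexp (log (ρ x) * (1 - s) + log (ρ y) * s)
      ≤ rexp (log (ρ ((1 - s) • x + s • y))) := by
        apply exp_le_exp.2
        linarith
    _ = _ := exp_log hz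

lemma strongLC_kk {ρ : Eu n → ℝ} (hρ : IsLogConcaveDensity ρ) (κ : ℝ) (θ : Eu n) :
    StrongLC (fun x => kk κ θ x * ρ x) (κ ^ 2) := by
  intro x y s s0 s1
  have hs1 : 0 < 1 - s := by linarith
  have h0 := hρ.2.1
  simp only
  rw [Real.mul_rpow (kk_nonneg _ _ _) (h0 x), Real.mul_rpow (kk_nonneg _ _ _) (h0 y)]
  have h1 := logconcave_rpow hρ x y s0 s1
  have hk : kk κ θ x ^ (1 - s) * kk κ θ y ^ s * rexp ((κ ^ 2 / 2) * s * (1 - s) * ‖x - y‖ ^ 2)
      = kk κ θ ((1 - s) • x + s • y) := by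
    unfold kk
    rw [← Real.exp_mul, ← Real.exp_mul, ← exp_add, ← exp_add, norm_sq_combo, inner_add_right,
      inner_smul_right, inner_smul_right]
    congr 1
    ring
  rw [← hk]
  have hpos : 0 ≤ kk κ θ x ^ (1 - s) * kk κ θ y ^ s * rexp ((κ ^ 2 / 2) * s * (1 - s) * ‖x - y‖ ^ 2) :=
    by rw [hk]; exact kk_nonneg _ _ _
  calc kk κ θ x ^ (1 - s) * ρ x ^ (1 - s) * (kk κ θ y ^ s * ρ y ^ s) *
        rexp (κ ^ 2 / 2 * s * (1 - s) * ‖x - y‖ ^ 2)
      = (kk κ θ x ^ (1 - s) * kk κ θ y ^ s * rexp ((κ ^ 2 / 2) * s * (1 - s) * ‖x - y‖ ^ 2)) *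
        (ρ x ^ (1 - s) * ρ y ^ s) := by ring
    _ ≤ _ := by gcongr

/-- The Bakry-Emery inequality for the tilted measures. -/
theorem be_mu {ρ : Eu n → ℝ} (hρ : IsLogConcaveDensity ρ)
    [IsProbabilityMeasure (densityMeasure ρ)] {κ : ℝ} (hκ : κ ≠ 0) (θ : Eu n)
    {f : Eu n → ℝ} (hf : ContDiff ℝ ∞ f) (hfc : HasCompactSupport f) {m ε : ℝ} (hε : 0 < ε) :
    (∫ x, (psiF f m ε x * log (psiF f m ε x)) * kk κ θ x ∂(densityMeasure ρ)) -
        (∫ x, kk κ θ x * psiF f m ε x ∂(densityMeasure ρ)) *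
          log ((∫ x, kk κ θ x * psiF f m ε x ∂(densityMeasure ρ)) / Zz (densityMeasure ρ) κ θ)
      ≤ (2 / κ ^ 2) * ∫ x, ‖fderiv ℝ f x‖ ^ 2 * kk κ θ x ∂(densityMeasure ρ) := by
  have hρm := hρ.1
  have hρ0 := hρ.2.1
  set p : Eu n → ℝ := fun x => kk κ θ x * ρ x with hp
  have hkc : Continuous fun x => kk κ θ x := (continuous_kk κ).comp (Continuous.prodMk_right θ)
  have hpm : Measurable p := hkc.measurable.mul hρm
  have hp0 : ∀ x, 0 ≤ p x := fun x => mul_nonneg (kk_nonneg _ _ _) (hρ0 x)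
  have hpi : Integrable p :=
    (integrable_density_iff hρm hρ0 _).1 (integrable_kk_x (μ := densityMeasure ρ) κ θ)
  have eZ : Zz (densityMeasure ρ) κ θ = ∫ x, p x := by
    unfold Zz
    rw [integral_density hρm hρ0]
  have hmpos : 0 < ∫ x, p x := by
    rw [← eZ]
    exact Zz_pos κ θ
  have key := be_smooth (m := m) (by positivity : 0 < κ ^ 2) hpm hp0 hpi hmpos
    (strongLC_kk hρ κ θ) hf hfc hε
  rw [integral_density hρm hρ0, integral_density hρm hρ0, integral_density hρm hρ0, eZ]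
  have e1 : ∫ x, (psiF f m ε x * log (psiF f m ε x)) * kk κ θ x * ρ x
      = ∫ x, (psiF f m ε x * log (psiF f m ε x)) * p x := by
    refine integral_congr_ae (Eventually.of_forall fun x => ?_)
    simp only [hp]
    ring
  have e2 : ∫ x, kk κ θ x * psiF f m ε x * ρ x = ∫ x, psiF f m ε x * p x := by
    refine integral_congr_ae (Eventually.of_forall fun x => ?_)
    simp only [hp]
    ring
  have e3 : ∫ x, ‖fderiv ℝ f x‖ ^ 2 * kk κ θ x * ρ x = ∫ x, ‖fderiv ℝ f x‖ ^ 2 * p x := by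
    refine integral_congr_ae (Eventually.of_forall fun x => ?_)
    simp only [hp]
    ring
  rw [e1, e2, e3]
  exact key

end Vale.Agent.Lib.P245
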