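import Vale.Agent.Lib.P245.Density

/-!
# The defective log-Sobolev inequality
-/

open MeasureTheory ProbabilityTheory Real Filter Topology
open scoped ENNReal RealInnerProductSpace ContDiff

namespace Vale.Agent.Lib.P245

variable {n : ℕ}

set_option linter.unusedSectionVars false
set_option linter.unusedVariables false

section
variable {ρ : Eu n → ℝ} [IsProbabilityMeasure (densityMeasure ρ)] {κ : ℝ}
  {f : Eu n → ℝ} {m ε : ℝ}

lemma integrable_fderiv_sq (hf : ContDiff ℝ ∞ f) (hfc : HasCompactSupport f) :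
    Integrable (fun x => ‖fderiv ℝ f x‖ ^ 2) (densityMeasure ρ) := by
  have hc : Continuous (fderiv ℝ f) := (hf.fderiv_right (m := ∞) (by simp)).continuous
  obtain ⟨C, hC⟩ := (hfc.fderiv ℝ).exists_bound_of_continuous hc
  refine Integrable.of_bound (hc.norm.pow 2).aestronglyMeasurable (C ^ 2)
    (Eventually.of_forall fun x => ?_)
  rw [Real.norm_eq_abs, abs_of_nonneg (by positivity)]
  exact pow_le_pow_left₀ (norm_nonneg _) (hC x) 2

/-- The pointwise comparison of the normalized function. -/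
lemma ent_psi_hbe (hρ : IsLogConcaveDensity ρ) (hκ : κ ≠ 0)
    (hf : ContDiff ℝ ∞ f) (hfc : HasCompactSupport f) (hε : 0 < ε)
    {M L : ℝ} (hM : 0 < M) (hL : ∀ x, psiF f m ε x ≤ L)
    (hg1 : ∫ x, psiF f m ε x / M ∂(densityMeasure ρ) = 1) (θ : Eu n) :
    (∫ x, ((psiF f m ε x / M) * log (psiF f m ε x / M)) * kk κ θ x ∂(densityMeasure ρ))
      - hh (densityMeasure ρ) κ (fun x => psiF f m ε x / M) θ *
        log (hh (densityMeasure ρ) κ (fun x => psiF f m ε x / M) θ / Zz (densityMeasure ρ) κ θ)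
      ≤ (1 / M) * ((2 / κ ^ 2) * ∫ x, ‖fderiv ℝ f x‖ ^ 2 * kk κ θ x ∂(densityMeasure ρ)) := by
  have hψm : Measurable (psiF f m ε) := (contDiff_psiF hf).continuous.measurable
  have hψ := fun x => psiF_pos (f := f) (m := m) hε x
  have hgm : Measurable fun x => psiF f m ε x / M := hψm.div_const M
  have hg0 : ∀ x, 0 ≤ psiF f m ε x / M := fun x => (div_pos (hψ x) hM).le
  have hgG : ∀ x, psiF f m ε x / M ≤ L / M := fun x => by gcongr; exact hL x
  have hkc : Measurable fun x => kk κ θ x := ((continuous_kk κ).comp (Continuous.prodMk_right θ)).measurable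
  have hk1 := integrable_kk_x (μ := densityMeasure ρ) κ θ
  have i1 : Integrable (fun x => kk κ θ x * psiF f m ε x) (densityMeasure ρ) := by
    refine (hk1.const_mul L).mono' (hkc.mul hψm).aestronglyMeasurable
      (Eventually.of_forall fun x => ?_)
    rw [Real.norm_eq_abs, abs_of_pos (mul_pos (kk_pos _ _ _) (hψ x)), mul_comm]
    exact mul_le_mul_of_nonneg_right (hL x) (kk_nonneg _ _ _)
  have i2 : Integrable (fun x => (psiF f m ε x * log (psiF f m ε x)) * kk κ θ x)
      (densityMeasure ρ) := by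
    refine (hk1.const_mul (1 + L ^ 2)).mono'
      (((hψm.mul hψm.log)).mul hkc).aestronglyMeasurable (Eventually.of_forall fun x => ?_)
    rw [norm_mul, Real.norm_eq_abs, Real.norm_eq_abs, abs_of_pos (kk_pos _ _ _)]
    refine mul_le_mul_of_nonneg_right ?_ (kk_nonneg _ _ _)
    refine (abs_mul_log_le (hψ x).le).trans ?_
    have := pow_le_pow_left₀ (hψ x).le (hL x) 2
    linarith
  set A := ∫ x, kk κ θ x * psiF f m ε x ∂(densityMeasure ρ) with hA
  set B := ∫ x, (psiF f m ε x * log (psiF f m ε x)) * kk κ θ x ∂(densityMeasure ρ) with hB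
  set Z := Zz (densityMeasure ρ) κ θ with hZ
  have hZpos : 0 < Z := Zz_pos κ θ
  have hh1 : hh (densityMeasure ρ) κ (fun x => psiF f m ε x / M) θ = A / M := by
    unfold hh
    rw [hA, ← integral_div]
    refine integral_congr_ae (Eventually.of_forall fun x => ?_)
    simp only
    ring
  have hhpos := hh_pos (μ := densityMeasure ρ) (κ := κ) hgm hg0 hgG hg1 θ
  rw [hh1] at hhpos ⊢
  have hApos : 0 < A := by
    have := mul_pos hhpos hM
    rwa [div_mul_cancel₀ _ hM.ne'] at this
  have e1 : ∫ x, ((psiF f m ε x / M) * log (psiF f m ε x / M)) * kk κ θ x ∂(densityMeasure ρ)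
      = (1 / M) * B - (log M / M) * A := by
    rw [hB, hA, ← integral_const_mul, ← integral_const_mul, ← integral_sub (i2.const_mul _)
      (i1.const_mul _)]
    refine integral_congr_ae (Eventually.of_forall fun x => ?_)
    simp only
    rw [log_div (hψ x).ne' hM.ne']
    field_simp
  rw [e1]
  have key := be_mu hρ hκ θ hf hfc (m := m) hε
  rw [← hA, ← hB, ← hZ] at key
  have e2 : log (A / M / Z) = log (A / Z) - log M := by
    rw [div_right_comm, log_div (by positivity) hM.ne']
  rw [e2]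
  have hM' : 0 < 1 / M := by positivity
  have e3 : 1 / M * B - log M / M * A - A / M * (log (A / Z) - log M)
      = (1 / M) * (B - A * log (A / Z)) := by
    field_simp
    ring
  rw [e3]
  gcongr

/-- The normalized chain. -/
theorem ent_psi (hρ : IsLogConcaveDensity ρ) (hκ : κ ≠ 0)
    (hm : Integrable (fun x : Eu n => rexp (2 * κ ^ 2 * ‖x‖ ^ 2)) (densityMeasure ρ))
    (hf : ContDiff ℝ ∞ f) (hfc : HasCompactSupport f) (hε : 0 < ε) :
    (∫ x, psiF f m ε x * log (psiF f m ε x) ∂(densityMeasure ρ)) -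
        (∫ x, psiF f m ε x ∂(densityMeasure ρ)) * log (∫ x, psiF f m ε x ∂(densityMeasure ρ))
      ≤ (8 / κ ^ 2) * ∫ x, ‖fderiv ℝ f x‖ ^ 2 ∂(densityMeasure ρ)
        + (∫ x, psiF f m ε x ∂(densityMeasure ρ)) *
          ((3 / 2) * log (phi (densityMeasure ρ) (4 * κ ^ 2))
            + 8 * log (phi (densityMeasure ρ) (2 * κ ^ 2))) := by
  have hψm : Measurable (psiF f m ε) := (contDiff_psiF hf).continuous.measurable
  have hψ := fun x => psiF_pos (f := f) (m := m) hε x
  obtain ⟨L₀, hL₀⟩ := exists_bound_phiF (m := m) hf hfc hε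
  set L := rexp L₀ with hL
  have hψL : ∀ x, psiF f m ε x ≤ L := fun x => by
    have h1 : rexp (phiF f m ε x) = psiF f m ε x := exp_log (hψ x)
    rw [← h1]
    exact exp_le_exp.2 ((le_abs_self _).trans (hL₀ x))
  have hψi : Integrable (psiF f m ε) (densityMeasure ρ) := by
    refine Integrable.of_bound hψm.aestronglyMeasurable L (Eventually.of_forall fun x => ?_)
    rw [Real.norm_eq_abs, abs_of_pos (hψ x)]
    exact hψL x
  set M := ∫ x, psiF f m ε x ∂(densityMeasure ρ) with hMdef
  have hM : 0 < M := by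
    have h1 : ∫ _x : Eu n, ε ∂(densityMeasure ρ) ≤ M :=
      integral_mono (integrable_const _) hψi (fun x => by
        simp only [psiF]
        nlinarith [sq_nonneg (f x - m)])
    simp only [integral_const, probReal_univ, smul_eq_mul, one_mul] at h1
    linarith
  have hgm : Measurable fun x => psiF f m ε x / M := hψm.div_const M
  have hg0 : ∀ x, 0 ≤ psiF f m ε x / M := fun x => (div_pos (hψ x) hM).le
  have hgG : ∀ x, psiF f m ε x / M ≤ L / M := fun x => by gcongr; exact hψL x
  have hg1 : ∫ x, psiF f m ε x / M ∂(densityMeasure ρ) = 1 := by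
    rw [integral_div, ← hMdef, div_self hM.ne']
  -- the function `E`
  have hDi := integrable_fderiv_sq (ρ := ρ) hf hfc
  have hdm : Measurable fun x => ‖fderiv ℝ f x‖ ^ 2 :=
    (((hf.fderiv_right (m := ∞) (by simp)).continuous.norm).pow 2).measurable
  have hEi1 := (integrable_kernel (gam n) (densityMeasure ρ) (ℓ := fun θ x => kk κ θ x)
    (e := fun _ => 1) (G := fun x => ‖fderiv ℝ f x‖ ^ 2) (measurable_kk κ) (kk_nonneg κ)
    (fun x => integrable_kk κ x) (fun x => integral_kk κ x) hdm.aestronglyMeasurable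
    (by simpa using hDi)).integral_prod_left
  have hEv := integral_kernel (gam n) (densityMeasure ρ) (ℓ := fun θ x => kk κ θ x)
    (e := fun _ => 1) (G := fun x => ‖fderiv ℝ f x‖ ^ 2) (measurable_kk κ) (kk_nonneg κ)
    (fun x => integrable_kk κ x) (fun x => integral_kk κ x) hdm.aestronglyMeasurable
    (by simpa using hDi)
  simp only [mul_one] at hEv
  set E : Eu n → ℝ := fun θ => (1 / M) * ((2 / κ ^ 2) *
    ∫ x, ‖fderiv ℝ f x‖ ^ 2 * kk κ θ x ∂(densityMeasure ρ)) with hE
  have hEi : Integrable E (gam n) := (hEi1.const_mul _).const_mul _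
  have hchain := chain (μ := densityMeasure ρ) hκ hm hgm hg0 hgG hg1 hEi
    (fun θ => ent_psi_hbe hρ hκ hf hfc hε hM hψL hg1 θ)
  have hEval : ∫ θ, E θ ∂(gam n) = (1 / M) * ((2 / κ ^ 2) *
      ∫ x, ‖fderiv ℝ f x‖ ^ 2 ∂(densityMeasure ρ)) := by
    simp only [hE]
    rw [integral_const_mul, integral_const_mul, hEv]
  rw [hEval] at hchain
  -- the entropy of `g`
  have hlogi : Integrable (fun x => psiF f m ε x * log (psiF f m ε x)) (densityMeasure ρ) := by
    refine Integrable.of_bound (hψm.mul hψm.log).aestronglyMeasurable (1 + L ^ 2)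
      (Eventually.of_forall fun x => ?_)
    rw [Real.norm_eq_abs]
    refine (abs_mul_log_le (hψ x).le).trans ?_
    have := pow_le_pow_left₀ (hψ x).le (hψL x) 2
    linarith
  set H := ∫ x, psiF f m ε x * log (psiF f m ε x) ∂(densityMeasure ρ) with hH
  have hgent : ∫ x, (psiF f m ε x / M) * log (psiF f m ε x / M) ∂(densityMeasure ρ)
      = (1 / M) * H - log M := by
    have e : ∀ x, (psiF f m ε x / M) * log (psiF f m ε x / M)
        = (1 / M) * (psiF f m ε x * log (psiF f m ε x)) - (log M / M) * psiF f m ε x := by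
      intro x
      rw [log_div (hψ x).ne' hM.ne']
      field_simp
    simp_rw [e]
    rw [integral_sub (hlogi.const_mul _) (hψi.const_mul _), integral_const_mul, integral_const_mul,
      ← hH, ← hMdef]
    field_simp
  rw [hgent] at hchain
  set P4 := log (phi (densityMeasure ρ) (4 * κ ^ 2))
  set P2 := log (phi (densityMeasure ρ) (2 * κ ^ 2))
  set Dir := ∫ x, ‖fderiv ℝ f x‖ ^ 2 ∂(densityMeasure ρ)
  have h4M : 0 ≤ 4 * M := by positivity
  have hmul := mul_le_mul_of_nonneg_left hchain h4M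
  have e1 : 4 * M * (1 / 4 * (1 / M * H - log M)) = H - M * log M := by
    field_simp
  have e2 : 4 * M * (1 / M * (2 / κ ^ 2 * Dir) + 3 / 8 * P4 + 2 * P2)
      = 8 / κ ^ 2 * Dir + M * (3 / 2 * P4 + 8 * P2) := by
    field_simp
    ring
  rw [e1, e2] at hmul
  exact hmul

/-- The limit `ε → 0`. -/
theorem ent_F (hρ : IsLogConcaveDensity ρ) (hκ : κ ≠ 0)
    (hm : Integrable (fun x : Eu n => rexp (2 * κ ^ 2 * ‖x‖ ^ 2)) (densityMeasure ρ))
    (hf : ContDiff ℝ ∞ f) (hfc : HasCompactSupport f) {B : ℝ}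
    (hB : (3 / 2) * log (phi (densityMeasure ρ) (4 * κ ^ 2))
            + 8 * log (phi (densityMeasure ρ) (2 * κ ^ 2)) ≤ B) :
    entropy (densityMeasure ρ) (fun x => (f x - m) ^ 2)
      ≤ (8 / κ ^ 2) * ∫ x, ‖fderiv ℝ f x‖ ^ 2 ∂(densityMeasure ρ)
        + (∫ x, (f x - m) ^ 2 ∂(densityMeasure ρ)) * B := by
  obtain ⟨C₀, hC₀⟩ := hfc.exists_bound_of_continuous hf.continuous
  set C := C₀ + |m| with hC
  have hFb : ∀ x, |f x - m| ≤ C := fun x => (abs_sub _ _).trans (by
    have := hC₀ x
    rw [Real.norm_eq_abs] at this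
    linarith)
  have hFsq : ∀ x, (f x - m) ^ 2 ≤ C ^ 2 := fun x => by
    rw [← sq_abs]
    exact pow_le_pow_left₀ (abs_nonneg _) (hFb x) 2
  have hFm : Measurable fun x => (f x - m) ^ 2 :=
    ((hf.continuous.measurable).sub_const m).pow_const 2
  have hFi : Integrable (fun x => (f x - m) ^ 2) (densityMeasure ρ) := by
    refine Integrable.of_bound hFm.aestronglyMeasurable (C ^ 2) (Eventually.of_forall fun x => ?_)
    rw [Real.norm_eq_abs, abs_of_nonneg (sq_nonneg _)]
    exact hFsq x
  set V := ∫ x, (f x - m) ^ 2 ∂(densityMeasure ρ) with hV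
  have hM : ∀ ε : ℝ, ∫ x, psiF f m ε x ∂(densityMeasure ρ) = V + ε := by
    intro ε
    unfold psiF
    rw [integral_add hFi (integrable_const _)]
    simp [hV]
  have hmain : ∀ ε : ℝ, 0 < ε →
      (∫ x, psiF f m ε x * log (psiF f m ε x) ∂(densityMeasure ρ)) - (V + ε) * log (V + ε)
        ≤ (8 / κ ^ 2) * (∫ x, ‖fderiv ℝ f x‖ ^ 2 ∂(densityMeasure ρ)) + (V + ε) * B := by
    intro ε hε
    have h1 := ent_psi (m := m) hρ hκ hm hf hfc hε
    rw [hM] at h1
    refine h1.trans ?_
    have hV0 : 0 ≤ V := integral_nonneg fun x => sq_nonneg _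
    gcongr
  have hlim1 : Tendsto (fun ε : ℝ => ∫ x, psiF f m ε x * log (psiF f m ε x) ∂(densityMeasure ρ))
      (𝓝[>] 0) (𝓝 (∫ x, (f x - m) ^ 2 * log ((f x - m) ^ 2) ∂(densityMeasure ρ))) := by
    refine tendsto_integral_filter_of_dominated_convergence (fun _ => 1 + (C ^ 2 + 1) ^ 2) ?_ ?_
      (integrable_const _) ?_
    · refine Eventually.of_forall fun ε => ?_
      have h : Measurable (psiF f m ε) := (contDiff_psiF hf).continuous.measurable
      exact (h.mul h.log).aestronglyMeasurable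
    · filter_upwards [Ioo_mem_nhdsGT (show (0 : ℝ) < 1 by norm_num)] with ε hε
      refine Eventually.of_forall fun x => ?_
      have h0 : 0 ≤ psiF f m ε x := (psiF_pos hε.1 x).le
      rw [Real.norm_eq_abs]
      refine (abs_mul_log_le h0).trans ?_
      have h1 : psiF f m ε x ≤ C ^ 2 + 1 := by
        unfold psiF
        linarith [hFsq x, hε.2]
      have := pow_le_pow_left₀ h0 h1 2
      linarith
    · refine Eventually.of_forall fun x => ?_
      have h1 : Tendsto (fun ε : ℝ => psiF f m ε x) (𝓝[>] 0) (𝓝 ((f x - m) ^ 2)) := by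
        have : Continuous fun ε : ℝ => (f x - m) ^ 2 + ε := by fun_prop
        have h2 := this.tendsto 0
        rw [add_zero] at h2
        exact h2.mono_left nhdsWithin_le_nhds
      exact (Real.continuous_mul_log.tendsto _).comp h1
  have hV1 : Tendsto (fun ε : ℝ => V + ε) (𝓝[>] 0) (𝓝 V) := by
    have : Continuous fun ε : ℝ => V + ε := by fun_prop
    have h2 := this.tendsto 0
    rw [add_zero] at h2
    exact h2.mono_left nhdsWithin_le_nhds
  have hlim2 : Tendsto (fun ε : ℝ => (V + ε) * log (V + ε)) (𝓝[>] 0) (𝓝 (V * log V)) :=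
    (Real.continuous_mul_log.tendsto _).comp hV1
  have hlim3 : Tendsto (fun ε : ℝ => (8 / κ ^ 2) * (∫ x, ‖fderiv ℝ f x‖ ^ 2 ∂(densityMeasure ρ))
      + (V + ε) * B) (𝓝[>] 0) (𝓝 ((8 / κ ^ 2) * (∫ x, ‖fderiv ℝ f x‖ ^ 2 ∂(densityMeasure ρ))
      + V * B)) := tendsto_const_nhds.add (hV1.mul_const B)
  have hfin := le_of_tendsto_of_tendsto (hlim1.sub hlim2) hlim3
    (Filter.eventually_of_mem self_mem_nhdsWithin fun ε hε => hmain ε hε)
  unfold entropy
  rw [← hV]
  exact hfin

end

end Vale.Agent.Lib.P245
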