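import Vale.Agent.Lib.P245.Kernel
import Vale.Agent.Lib.P227.PL

/-!
# Density of the standard Gaussian and the Prekopa-Leindler inequality on `Eu n`
-/

open MeasureTheory ProbabilityTheory Real
open scoped ENNReal RealInnerProductSpace

namespace Vale.Agent.Lib.P245

variable {n : ℕ}

/-- Prekopa-Leindler on `Eu n`. -/
theorem pl_eu {f g h : Eu n → ℝ≥0∞}
    (hf : Measurable f) (hg : Measurable g) (hh : Measurable h)
    {t : ℝ} (t0 : 0 < t) (t1 : t < 1)
    (H : ∀ x y, f x ^ (1 - t) * g y ^ t ≤ h ((1 - t) • x + t • y)) :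
    (∫⁻ x, f x) ^ (1 - t) * (∫⁻ x, g x) ^ t ≤ ∫⁻ x, h x := by
  have mp := PiLp.volume_preserving_toLp (Fin n)
  have e : ∀ {p : Eu n → ℝ≥0∞}, Measurable p → ∫⁻ x, p x = ∫⁻ x : Fin n → ℝ, p (WithLp.toLp 2 x) := by
    intro p hp
    exact (mp.lintegral_comp hp).symm
  rw [e hf, e hg, e hh]
  refine Vale.Agent.Lib.P227.prekopa_leindler n (hf.comp mp.measurable) (hg.comp mp.measurable)
    (hh.comp mp.measurable) t0 t1 ?_
  intro x y
  have := H (WithLp.toLp 2 x) (WithLp.toLp 2 y)
  simpa [Function.comp_def] using this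

/-- Density of the standard Gaussian. -/
noncomputable def gdens (n : ℕ) (x : Eu n) : ℝ := ((2 * π) ^ ((n : ℝ) / 2))⁻¹ * rexp (-(1 / 2) * ‖x‖ ^ 2)

lemma gdens_pos (x : Eu n) : 0 < gdens n x := by
  unfold gdens
  have : 0 < 2 * π := by positivity
  positivity

lemma continuous_gdens : Continuous (gdens n) := by
  unfold gdens
  fun_prop

lemma integral_gdens_aux : ∫ x : Eu n, rexp (-(1 / 2) * ‖x‖ ^ 2) = (2 * π) ^ ((n : ℝ) / 2) := by
  have h := GaussianFourier.integral_rexp_neg_mul_sq_norm (V := Eu n) (b := 1 / 2) (by norm_num)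
  rw [h]
  simp only [finrank_euclideanSpace, Fintype.card_fin]
  congr 1
  ring

lemma integrable_gdens : Integrable (gdens n) := by
  unfold gdens
  have : Integrable fun x : Eu n => rexp (-(1 / 2) * ‖x‖ ^ 2) := by
    have h := GaussianFourier.integrable_cexp_neg_mul_sq_norm_add (V := Eu n) (b := ((1 / 2 : ℝ) : ℂ))
      (by simp) 0 0
    have h2 := h.re
    refine h2.congr (Filter.Eventually.of_forall fun x => ?_)
    simp only [zero_mul, add_zero, RCLike.re_to_complex]
    have : (Complex.exp (-((1 / 2 : ℝ) : ℂ) * (‖x‖ : ℂ) ^ 2)) =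
        ((rexp (-(1 / 2) * ‖x‖ ^ 2) : ℝ) : ℂ) := by
      push_cast
      rfl
    rw [this, Complex.ofReal_re]
  exact this.const_mul _

lemma gam_eq : gam n = volume.withDensity (fun x => ENNReal.ofReal (gdens n x)) := by
  have hprob : IsProbabilityMeasure (volume.withDensity (fun x : Eu n => ENNReal.ofReal (gdens n x))) := by
    constructor
    rw [withDensity_apply _ MeasurableSet.univ, Measure.restrict_univ,
      ← ofReal_integral_eq_lintegral_ofReal integrable_gdens
        (Filter.Eventually.of_forall fun x => (gdens_pos x).le)]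
    unfold gdens
    rw [integral_const_mul, integral_gdens_aux, inv_mul_cancel₀]
    · simp
    · positivity
  apply Measure.ext_of_charFun
  ext t
  rw [charFun_stdGaussian, charFun_apply,
    integral_withDensity_eq_integral_toReal_smul continuous_gdens.measurable.ennreal_ofReal
      (Filter.Eventually.of_forall fun x => ENNReal.ofReal_lt_top)]
  have h1 : ∀ x : Eu n, (ENNReal.ofReal (gdens n x)).toReal • Complex.exp (⟪x, t⟫ * Complex.I) =
      (((2 * π) ^ ((n : ℝ) / 2))⁻¹ : ℝ) *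
        Complex.exp (-((1 / 2 : ℝ) : ℂ) * (‖x‖ : ℂ) ^ 2 + Complex.I * ⟪t, x⟫) := by
    intro x
    rw [ENNReal.toReal_ofReal (gdens_pos x).le, Complex.real_smul]
    unfold gdens
    push_cast
    rw [mul_assoc, ← Complex.exp_add, real_inner_comm, mul_comm (⟪t, x⟫ : ℂ) Complex.I]
  simp_rw [h1]
  rw [integral_const_mul, GaussianFourier.integral_cexp_neg_mul_sq_norm_add (V := Eu n) (by simp)]
  simp only [finrank_euclideanSpace, Fintype.card_fin]
  have h2 : ((π : ℂ) / ((1 / 2 : ℝ) : ℂ)) = ((2 * π : ℝ) : ℂ) := by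
    push_cast
    field_simp
  rw [h2]
  have h3 : ((2 * π : ℝ) : ℂ) ^ (((n : ℂ)) / 2) = (((2 * π) ^ ((n : ℝ) / 2) : ℝ) : ℂ) := by
    rw [Complex.ofReal_cpow (by positivity)]
    push_cast
    rfl
  rw [h3, ← mul_assoc, ← Complex.ofReal_mul, inv_mul_cancel₀ (by positivity)]
  simp only [Complex.ofReal_one, one_mul]
  congr 1
  rw [Complex.I_sq]
  push_cast
  field_simp
  ring

/-- The Gaussian form of Prekopa-Leindler at `t = 1/2` (Maurey's property tau). -/
theorem gauss_tau {u v : Eu n → ℝ≥0∞} (hu : Measurable u) (hv : Measurable v)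
    (H : ∀ x y, u x * v y ≤ ENNReal.ofReal (rexp (‖x - y‖ ^ 2 / 4))) :
    (∫⁻ x, u x ∂(gam n)) * (∫⁻ x, v x ∂(gam n)) ≤ 1 := by
  have hd : Measurable fun x : Eu n => ENNReal.ofReal (gdens n x) :=
    continuous_gdens.measurable.ennreal_ofReal
  rw [gam_eq, lintegral_withDensity_eq_lintegral_mul _ hd hu,
    lintegral_withDensity_eq_lintegral_mul _ hd hv]
  set f : Eu n → ℝ≥0∞ := (fun x => ENNReal.ofReal (gdens n x)) * u with hf
  set g : Eu n → ℝ≥0∞ := (fun x => ENNReal.ofReal (gdens n x)) * v with hg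
  have hfm : Measurable f := hd.mul hu
  have hgm : Measurable g := hd.mul hv
  have key := pl_eu (t := 1 / 2) hfm hgm hd (by norm_num) (by norm_num) ?_
  · have h1 : ∫⁻ x : Eu n, ENNReal.ofReal (gdens n x) = 1 := by
      rw [← ofReal_integral_eq_lintegral_ofReal integrable_gdens
        (Filter.Eventually.of_forall fun x => (gdens_pos x).le)]
      unfold gdens
      rw [integral_const_mul, integral_gdens_aux, inv_mul_cancel₀ (by positivity)]
      simp
    rw [h1] at key
    norm_num at key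
    have h2 : ((∫⁻ x, f x) ^ (1 / 2 : ℝ) * (∫⁻ x, g x) ^ (1 / 2 : ℝ)) ^ (2 : ℝ) ≤ 1 ^ (2 : ℝ) :=
      ENNReal.rpow_le_rpow key (by norm_num)
    rw [ENNReal.mul_rpow_of_nonneg _ _ (by norm_num), ← ENNReal.rpow_mul, ← ENNReal.rpow_mul] at h2
    norm_num at h2
    exact h2
  · intro x y
    norm_num
    have h0 : (f x * g y) ≤ (ENNReal.ofReal (gdens n ((1 / 2 : ℝ) • x + (1 / 2 : ℝ) • y))) ^ (2 : ℝ) := by
      have e1 : f x * g y = (ENNReal.ofReal (gdens n x) * ENNReal.ofReal (gdens n y)) * (u x * v y) := by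
        simp only [hf, hg, Pi.mul_apply]
        ring
      rw [e1]
      calc _ ≤ (ENNReal.ofReal (gdens n x) * ENNReal.ofReal (gdens n y)) *
              ENNReal.ofReal (rexp (‖x - y‖ ^ 2 / 4)) := by gcongr; exact H x y
        _ = ENNReal.ofReal (gdens n ((1 / 2 : ℝ) • x + (1 / 2 : ℝ) • y)) ^ (2 : ℝ) := by
          rw [← ENNReal.ofReal_mul (gdens_pos x).le, ← ENNReal.ofReal_mul (by
            have := gdens_pos x; have := gdens_pos y; positivity),
            ENNReal.ofReal_rpow_of_nonneg (gdens_pos _).le (by norm_num)]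
          congr 1
          have hz : ‖(1 / 2 : ℝ) • x + (1 / 2 : ℝ) • y‖ ^ 2 =
              (‖x‖ ^ 2 + ‖y‖ ^ 2) / 2 - ‖x - y‖ ^ 2 / 4 := by
            rw [@norm_add_sq_real, norm_smul, norm_smul, inner_smul_left, inner_smul_right,
              @norm_sub_sq_real]
            simp
            ring
          unfold gdens
          rw [Real.rpow_two, mul_pow, ← Real.exp_nat_mul, hz]
          have : (rexp (-(1 / 2) * ‖x‖ ^ 2)) * (rexp (-(1 / 2) * ‖y‖ ^ 2)) * rexp (‖x - y‖ ^ 2 / 4)
              = rexp (((2 : ℕ) : ℝ) * (-(1 / 2) * ((‖x‖ ^ 2 + ‖y‖ ^ 2) / 2 - ‖x - y‖ ^ 2 / 4))) := by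
            rw [← exp_add, ← exp_add]
            congr 1
            push_cast
            ring
          rw [← this]
          ring
    have h3 := ENNReal.rpow_le_rpow h0 (show (0 : ℝ) ≤ 1 / 2 by norm_num)
    rw [ENNReal.mul_rpow_of_nonneg _ _ (by norm_num), ← ENNReal.rpow_mul] at h3
    norm_num at h3
    simpa using h3

end Vale.Agent.Lib.P245
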