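import Vale.Agent.Lib.P245.NegMoment

/-!
# The hypercontractive bound for the Gaussian channel
-/

open MeasureTheory ProbabilityTheory Real
open scoped ENNReal RealInnerProductSpace

namespace Vale.Agent.Lib.P245

variable {n : ℕ} {μ : Measure (Eu n)} [IsProbabilityMeasure μ] {κ : ℝ}

set_option linter.unusedSectionVars false
set_option linter.unusedVariables false

/-- The dual smoothing of `u`. -/
noncomputable def ww (κ : ℝ) (u : Eu n → ℝ) (x : Eu n) : ℝ := ∫ θ, kk κ θ x * u θ ∂(gam n)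

lemma integrable_kk_u {u : Eu n → ℝ} (hu : Measurable u)
    (hu2 : Integrable (fun θ => u θ ^ 2) (gam n)) (x : Eu n) :
    Integrable (fun θ => kk κ θ x * u θ) (gam n) := by
  have hk : Continuous fun θ : Eu n => kk κ θ x :=
    (continuous_kk κ).comp (Continuous.prodMk_left x)
  refine ((integrable_kk_mul κ x x).add hu2).mono' (hk.measurable.mul hu).aestronglyMeasurable
    (Filter.Eventually.of_forall fun θ => ?_)
  simp only [Pi.add_apply]
  rw [norm_mul, Real.norm_eq_abs, Real.norm_eq_abs]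
  have := sq_nonneg (|kk κ θ x| - |u θ|)
  have h1 : |kk κ θ x| ^ 2 = kk κ θ x * kk κ θ x := by rw [sq_abs]; ring
  have h2 : |u θ| ^ 2 = u θ ^ 2 := sq_abs _
  nlinarith [sq_nonneg (kk κ θ x), sq_nonneg (u θ)]

lemma ww_nonneg {u : Eu n → ℝ} (hu0 : ∀ θ, 0 ≤ u θ) (x : Eu n) : 0 ≤ ww κ u x :=
  integral_nonneg fun θ => mul_nonneg (kk_nonneg _ _ _) (hu0 θ)

lemma measurable_ww {u : Eu n → ℝ} (hu : Measurable u) : Measurable (ww κ u) := by
  have h : StronglyMeasurable fun p : Eu n × Eu n => kk κ p.2 p.1 * u p.2 := by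
    apply Measurable.stronglyMeasurable
    have h1 : Measurable fun p : Eu n × Eu n => kk κ p.2 p.1 :=
      ((continuous_kk κ).comp (continuous_snd.prodMk continuous_fst)).measurable
    exact h1.mul (hu.comp measurable_snd)
  exact h.integral_prod_right'.measurable

lemma ww_sq_le {u : Eu n → ℝ} (hu : Measurable u)
    (hu2 : Integrable (fun θ => u θ ^ 2) (gam n)) (hu1 : ∫ θ, u θ ^ 2 ∂(gam n) = 1) (x : Eu n) :
    ww κ u x ^ 2 ≤ rexp (κ ^ 2 * ‖x‖ ^ 2) := by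
  have h := integral_mul_sq_le (m := gam n) (f := fun θ => kk κ θ x) (g := u)
    (integrable_kk_mul κ x x) (integrable_kk_u hu hu2 x) (by simpa [pow_two] using hu2)
  rw [integral_kk_mul] at h
  have e : ∫ θ, u θ * u θ ∂(gam n) = 1 := by
    rw [← hu1]; simp [pow_two]
  rw [e, mul_one, real_inner_self_eq_norm_sq] at h
  exact h

lemma ww_le {u : Eu n → ℝ} (hu : Measurable u) (hu0 : ∀ θ, 0 ≤ u θ)
    (hu2 : Integrable (fun θ => u θ ^ 2) (gam n)) (hu1 : ∫ θ, u θ ^ 2 ∂(gam n) = 1) (x : Eu n) :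
    ww κ u x ≤ rexp (κ ^ 2 * ‖x‖ ^ 2 / 2) := by
  have h := ww_sq_le (κ := κ) hu hu2 hu1 x
  have e : rexp (κ ^ 2 * ‖x‖ ^ 2) = rexp (κ ^ 2 * ‖x‖ ^ 2 / 2) ^ 2 := by
    rw [← exp_nat_mul]; congr 1; push_cast; ring
  rw [e] at h
  exact le_of_sq_le_sq h (exp_pos _).le
where le_of_sq_le_sq {a b : ℝ} (h : a ^ 2 ≤ b ^ 2) (hb : 0 ≤ b) : a ≤ b := abs_le_of_sq_le_sq' h hb |>.2

/-- The three-parameter family of integrands. -/
noncomputable def EE (κ : ℝ) (u : Eu n → ℝ) (a : ℕ) (s : ℝ) (p : Eu n × Eu n) : ℝ :=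
  ww κ u p.1 ^ a * ww κ u p.2 ^ a * rexp (s * ⟪p.1, p.2⟫)

lemma EE_mul (u : Eu n → ℝ) (a b : ℕ) (s t : ℝ) (p : Eu n × Eu n) :
    EE κ u a s p * EE κ u b t p = EE κ u (a + b) (s + t) p := by
  unfold EE
  rw [pow_add, pow_add, add_mul, exp_add]
  ring

lemma measurable_EE {u : Eu n → ℝ} (hu : Measurable u) (a : ℕ) (s : ℝ) :
    Measurable (EE κ u a s) := by
  unfold EE
  have h := measurable_ww (κ := κ) hu
  exact (((h.comp measurable_fst).pow_const a).mul ((h.comp measurable_snd).pow_const a)).mul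
    (measurable_exp.comp (measurable_inner_prod.const_mul s))

lemma EE_le_domD {u : Eu n → ℝ} (hu : Measurable u) (hu0 : ∀ θ, 0 ≤ u θ)
    (hu2 : Integrable (fun θ => u θ ^ 2) (gam n)) (hu1 : ∫ θ, u θ ^ 2 ∂(gam n) = 1)
    (a : ℕ) {s : ℝ} (hs : 0 ≤ s) (h : a * κ ^ 2 + s ≤ 4 * κ ^ 2) (p : Eu n × Eu n) :
    EE κ u a s p ≤ domD κ p := by
  unfold EE domD
  have h1 := ww_le (κ := κ) hu hu0 hu2 hu1 p.1
  have h2 := ww_le (κ := κ) hu hu0 hu2 hu1 p.2
  have h3 := ww_nonneg (κ := κ) hu0 p.1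
  have h4 := ww_nonneg (κ := κ) hu0 p.2
  have h5 : ww κ u p.1 ^ a ≤ rexp (κ ^ 2 * ‖p.1‖ ^ 2 / 2) ^ a := pow_le_pow_left₀ h3 h1 a
  have h6 : ww κ u p.2 ^ a ≤ rexp (κ ^ 2 * ‖p.2‖ ^ 2 / 2) ^ a := pow_le_pow_left₀ h4 h2 a
  have h7 : rexp (s * ⟪p.1, p.2⟫) ≤ rexp (s * ((‖p.1‖ ^ 2 + ‖p.2‖ ^ 2) / 2)) := by
    apply exp_le_exp.2
    gcongr
    exact inner_le_half _ _
  calc ww κ u p.1 ^ a * ww κ u p.2 ^ a * rexp (s * ⟪p.1, p.2⟫)
      ≤ rexp (κ ^ 2 * ‖p.1‖ ^ 2 / 2) ^ a * rexp (κ ^ 2 * ‖p.2‖ ^ 2 / 2) ^ a *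
        rexp (s * ((‖p.1‖ ^ 2 + ‖p.2‖ ^ 2) / 2)) := by gcongr
    _ = rexp ((a * κ ^ 2 + s) * ((‖p.1‖ ^ 2 + ‖p.2‖ ^ 2) / 2)) := by
        rw [← exp_nat_mul, ← exp_nat_mul, ← exp_add, ← exp_add]
        congr 1
        ring
    _ ≤ rexp ((4 * κ ^ 2) * ((‖p.1‖ ^ 2 + ‖p.2‖ ^ 2) / 2)) := by
        apply exp_le_exp.2
        gcongr
    _ = _ := by
        rw [← exp_add]
        congr 1
        ring

lemma integrable_EE (hm : Integrable (fun x : Eu n => rexp (2 * κ ^ 2 * ‖x‖ ^ 2)) μ)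
    {u : Eu n → ℝ} (hu : Measurable u) (hu0 : ∀ θ, 0 ≤ u θ)
    (hu2 : Integrable (fun θ => u θ ^ 2) (gam n)) (hu1 : ∫ θ, u θ ^ 2 ∂(gam n) = 1)
    (a : ℕ) {s : ℝ} (hs : 0 ≤ s) (h : a * κ ^ 2 + s ≤ 4 * κ ^ 2) :
    Integrable (EE κ u a s) (μ.prod μ) := by
  refine (integrable_domD hm).mono' (measurable_EE hu a s).aestronglyMeasurable
    (Filter.Eventually.of_forall fun p => ?_)
  have h0 : 0 ≤ EE κ u a s p := by
    unfold EE
    have h3 := ww_nonneg (κ := κ) hu0 p.1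
    have h4 := ww_nonneg (κ := κ) hu0 p.2
    positivity
  rw [Real.norm_eq_abs, abs_of_nonneg h0]
  exact EE_le_domD hu hu0 hu2 hu1 a hs h p

/-- The hypercontractive estimate. -/
theorem hyper (hm : Integrable (fun x : Eu n => rexp (2 * κ ^ 2 * ‖x‖ ^ 2)) μ)
    {u : Eu n → ℝ} (hu : Measurable u) (hu0 : ∀ θ, 0 ≤ u θ)
    (hu2 : Integrable (fun θ => u θ ^ 2) (gam n)) (hu1 : ∫ θ, u θ ^ 2 ∂(gam n) = 1) :
    (∫ x, ww κ u x ^ 4 ∂μ) ^ 2 ≤ phi μ (4 * κ ^ 2) := by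
  set w := ww κ u with hw
  have hwm : Measurable w := measurable_ww hu
  have hw0 : ∀ x, 0 ≤ w x := ww_nonneg hu0
  have hT : 0 ≤ κ ^ 2 := sq_nonneg κ
  set I := ∫ x, w x ^ 4 ∂μ with hI
  have hI0 : 0 ≤ I := integral_nonneg fun x => pow_nonneg (hw0 x) 4
  by_cases hIz : I = 0
  · rw [hIz]
    have : 0 ≤ phi μ (4 * κ ^ 2) := integral_nonneg fun p => (exp_pos _).le
    simpa using this
  have hIpos : 0 < I := lt_of_le_of_ne hI0 (Ne.symm hIz)
  have hw4i : Integrable (fun x => w x ^ 4) μ := by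
    refine hm.mono' (hwm.pow_const 4).aestronglyMeasurable
      (Filter.Eventually.of_forall fun x => ?_)
    rw [Real.norm_eq_abs, abs_of_nonneg (pow_nonneg (hw0 x) 4)]
    have := ww_sq_le (κ := κ) hu hu2 hu1 x
    have h2 : w x ^ 4 = (w x ^ 2) ^ 2 := by ring
    have h3 : rexp (2 * κ ^ 2 * ‖x‖ ^ 2) = rexp (κ ^ 2 * ‖x‖ ^ 2) ^ 2 := by
      rw [← exp_nat_mul]; congr 1; push_cast; ring
    rw [h2, h3]
    exact pow_le_pow_left₀ (sq_nonneg _) this 2
  -- notation for the pair integrals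
  have hJ : ∀ (a : ℕ) (s : ℝ), 0 ≤ s → a * κ ^ 2 + s ≤ 4 * κ ^ 2 →
      Integrable (EE κ u a s) (μ.prod μ) := fun a s hs h => integrable_EE hm hu hu0 hu2 hu1 a hs h
  set X := ∫ p, EE κ u 3 (κ ^ 2) p ∂(μ.prod μ) with hX
  set Y := ∫ p, EE κ u 2 (2 * κ ^ 2) p ∂(μ.prod μ) with hY
  have hI2 : ∫ p, EE κ u 4 0 p ∂(μ.prod μ) = I ^ 2 := by
    have e : EE κ u 4 0 = fun p : Eu n × Eu n => w p.1 ^ 4 * w p.2 ^ 4 := by
      funext p; simp [EE, hw]
    rw [e, integral_prod_mul (μ := μ) (ν := μ) (fun x => w x ^ 4) (fun x => w x ^ 4)]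
    ring
  have hPhi : ∫ p, EE κ u 0 (4 * κ ^ 2) p ∂(μ.prod μ) = phi μ (4 * κ ^ 2) := by
    unfold phi
    refine integral_congr_ae (Filter.Eventually.of_forall fun p => ?_)
    simp [EE]
  -- first step: `I ^ 2 ≤ X`
  have step1 : I ^ 2 ≤ X := by
    set S : Eu n → ℝ := fun θ => ∫ x, kk κ θ x * w x ^ 3 ∂μ with hS
    have hℓ : Measurable fun q : Eu n × Eu n => kk κ q.1 q.2 * u q.1 :=
      (measurable_kk κ).mul (hu.comp measurable_fst)
    have h0 : ∀ θ x, 0 ≤ kk κ θ x * u θ := fun θ x => mul_nonneg (kk_nonneg _ _ _) (hu0 θ)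
    have hi : ∀ x, Integrable (fun θ => kk κ θ x * u θ) (gam n) := integrable_kk_u hu hu2
    have hGe : Integrable (fun x => w x ^ 3 * w x) μ := by
      refine hw4i.congr (Filter.Eventually.of_forall fun x => ?_)
      simp only
      ring
    have hmw3 : AEStronglyMeasurable (fun x => w x ^ 3) μ :=
      (hwm.pow_const 3).aestronglyMeasurable
    have hint := integral_kernel (gam n) μ (ℓ := fun θ x => kk κ θ x * u θ) (e := w)
      (G := fun x => w x ^ 3) hℓ h0 hi (fun x => rfl) hmw3 hGe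
    have hintble := (integrable_kernel (gam n) μ (ℓ := fun θ x => kk κ θ x * u θ) (e := w)
      (G := fun x => w x ^ 3) hℓ h0 hi (fun x => rfl) hmw3 hGe).integral_prod_left
    have e1 : ∀ θ, ∫ x, w x ^ 3 * (kk κ θ x * u θ) ∂μ = u θ * S θ := by
      intro θ
      simp only [hS]
      rw [← integral_const_mul]
      refine integral_congr_ae (Filter.Eventually.of_forall fun x => ?_)
      simp only
      ring
    simp_rw [e1] at hint hintble
    have e2 : ∫ x, w x ^ 3 * w x ∂μ = I := by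
      rw [hI]
      refine integral_congr_ae (Filter.Eventually.of_forall fun x => ?_)
      simp only
      ring
    rw [e2] at hint
    -- `S θ ^ 2` as a pair integral
    have e3 : ∀ θ, S θ * S θ =
        ∫ p, (w p.1 ^ 3 * w p.2 ^ 3) * (kk κ θ p.1 * kk κ θ p.2) ∂(μ.prod μ) := by
      intro θ
      have := integral_prod_mul (μ := μ) (ν := μ) (fun x => kk κ θ x * w x ^ 3)
        (fun x => kk κ θ x * w x ^ 3)
      simp only [hS]
      rw [← this]
      refine integral_congr_ae (Filter.Eventually.of_forall fun p => ?_)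
      simp only
      ring
    have hGm : AEStronglyMeasurable (fun p : Eu n × Eu n => w p.1 ^ 3 * w p.2 ^ 3) (μ.prod μ) :=
      (((hwm.pow_const 3).comp measurable_fst).mul
        ((hwm.pow_const 3).comp measurable_snd)).aestronglyMeasurable
    have hGe2 : Integrable (fun p : Eu n × Eu n =>
        (w p.1 ^ 3 * w p.2 ^ 3) * rexp (κ ^ 2 * ⟪p.1, p.2⟫)) (μ.prod μ) :=
      hJ 3 (κ ^ 2) hT (by push_cast; linarith)
    have hSS : Integrable (fun θ => S θ * S θ) (gam n) := by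
      simp_rw [e3]
      exact (integrable_pair κ hGm hGe2).integral_prod_left
    have hSSval : ∫ θ, S θ * S θ ∂(gam n) = X := by
      simp_rw [e3]
      rw [integral_pair κ hGm hGe2]
      rfl
    have hcs := integral_mul_sq_le (m := gam n) (f := u) (g := S)
      (by simpa [pow_two] using hu2) hintble hSS
    rw [hint, hSSval] at hcs
    have e4 : ∫ θ, u θ * u θ ∂(gam n) = 1 := by
      rw [← hu1]; simp [pow_two]
    rw [e4, one_mul] at hcs
    exact hcs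
  -- second step: `X ^ 2 ≤ I ^ 2 * Y`
  have csEE : ∀ (a b : ℕ) (s t : ℝ), 0 ≤ s → 0 ≤ t → (a + a : ℕ) * κ ^ 2 + (s + s) ≤ 4 * κ ^ 2 →
      (b + b : ℕ) * κ ^ 2 + (t + t) ≤ 4 * κ ^ 2 →
      (∫ p, EE κ u (a + b) (s + t) p ∂(μ.prod μ)) ^ 2 ≤
        (∫ p, EE κ u (a + a) (s + s) p ∂(μ.prod μ)) *
          ∫ p, EE κ u (b + b) (t + t) p ∂(μ.prod μ) := by
    intro a b s t hs ht h1 h2
    have h3 : ((a + b : ℕ) : ℝ) * κ ^ 2 + (s + t) ≤ 4 * κ ^ 2 := by
      push_cast at h1 h2 ⊢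
      linarith
    have := integral_mul_sq_le (m := μ.prod μ) (f := EE κ u a s) (g := EE κ u b t)
      (by simpa only [EE_mul] using hJ (a + a) (s + s) (by linarith) h1)
      (by simpa only [EE_mul] using hJ (a + b) (s + t) (by linarith) h3)
      (by simpa only [EE_mul] using hJ (b + b) (t + t) (by linarith) h2)
    simpa only [EE_mul] using this
  have step2 : X ^ 2 ≤ I ^ 2 * Y := by
    have := csEE 2 1 0 (κ ^ 2) le_rfl hT (by push_cast; linarith) (by push_cast; linarith)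
    norm_num at this
    rw [hI2] at this
    have e : κ ^ 2 + κ ^ 2 = 2 * κ ^ 2 := by ring
    rw [e] at this
    exact this
  have step3 : Y ^ 2 ≤ I ^ 2 * phi μ (4 * κ ^ 2) := by
    have := csEE 2 0 0 (2 * κ ^ 2) le_rfl (by positivity) (by push_cast; linarith)
      (by push_cast; linarith)
    norm_num at this
    rw [hI2] at this
    have e : 2 * κ ^ 2 + 2 * κ ^ 2 = 4 * κ ^ 2 := by ring
    rw [e, hPhi] at this
    exact this
  have hI2pos : 0 < I ^ 2 := by positivity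
  have hXpos : 0 < X := lt_of_lt_of_le hI2pos step1
  have h4 : (I ^ 2) ^ 2 ≤ X ^ 2 := pow_le_pow_left₀ hI2pos.le step1 2
  have h5 : I ^ 2 ≤ Y := by
    have : I ^ 2 * I ^ 2 ≤ I ^ 2 * Y := by nlinarith
    exact le_of_mul_le_mul_left this hI2pos
  have h6 : (I ^ 2) ^ 2 ≤ Y ^ 2 := pow_le_pow_left₀ hI2pos.le h5 2
  have : I ^ 2 * I ^ 2 ≤ I ^ 2 * phi μ (4 * κ ^ 2) := by nlinarith
  exact le_of_mul_le_mul_left this hI2pos

end Vale.Agent.Lib.P245
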