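import Vale.Agent.Lib.P245.Defs

/-!
# The Gaussian channel kernel
-/

open MeasureTheory ProbabilityTheory Real
open scoped ENNReal RealInnerProductSpace

namespace Vale.Agent.Lib.P245

variable {n : ℕ}

/-- The exponential kernel `k(w,x) = exp(κ⟨w,x⟩ - κ²|x|²/2)`: the density at `w` of `N(κ x, I)`
with respect to the standard Gaussian. -/
noncomputable def kk (κ : ℝ) (w x : Eu n) : ℝ := rexp (κ * ⟪w, x⟫ - κ ^ 2 * ‖x‖ ^ 2 / 2)

lemma kk_pos (κ : ℝ) (w x : Eu n) : 0 < kk κ w x := exp_pos _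

lemma kk_nonneg (κ : ℝ) (w x : Eu n) : 0 ≤ kk κ w x := (kk_pos κ w x).le

lemma continuous_kk (κ : ℝ) : Continuous fun p : Eu n × Eu n => kk κ p.1 p.2 := by
  unfold kk
  fun_prop

lemma measurable_kk (κ : ℝ) : Measurable fun p : Eu n × Eu n => kk κ p.1 p.2 :=
  (continuous_kk κ).measurable

lemma kk_le (κ : ℝ) (w x : Eu n) : kk κ w x ≤ rexp (‖w‖ ^ 2 / 2) := by
  unfold kk
  apply exp_le_exp.2
  have h := sq_nonneg ‖w - κ • x‖
  rw [@norm_sub_sq_real, norm_smul, inner_smul_right, mul_pow, Real.norm_eq_abs, sq_abs] at h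
  linarith

/-- Standard Gaussian on `Eu n`. -/
noncomputable abbrev gam (n : ℕ) : Measure (Eu n) := stdGaussian (Eu n)

lemma integrable_exp_inner_gam (v : Eu n) : Integrable (fun w : Eu n => rexp ⟪v, w⟫) (gam n) := by
  have h := integrable_exp_mul_gaussianReal (μ := 0) (v := (‖v‖ ^ 2).toNNReal) 1
  have hmap : (gam n).map (fun x => ⟪v, x⟫) = gaussianReal 0 (‖v‖ ^ 2).toNNReal := by
    have h := IsGaussian.map_eq_gaussianReal (μ := gam n) (innerSL ℝ v)
    have h1 : (⇑(innerSL ℝ v) : Eu n → ℝ) = fun x => ⟪v, x⟫ := by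
      ext x; simp
    rw [h1] at h
    rw [h]
    congr 1
    · simpa using integral_strongDual_stdGaussian (E := Eu n) (innerSL ℝ v)
    · have h2 := variance_dual_stdGaussian (E := Eu n) (innerSL ℝ v)
      rw [h1] at h2
      rw [h2]
      simp
  rw [← hmap] at h
  have hm : Measurable fun x : Eu n => ⟪v, x⟫ := (continuous_const.inner continuous_id).measurable
  have h2 := (integrable_map_measure (by fun_prop) hm.aemeasurable).1 h
  simpa [Function.comp_def] using h2

lemma integral_exp_inner_gam (v : Eu n) :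
    ∫ w, rexp ⟪v, w⟫ ∂(gam n) = rexp (‖v‖ ^ 2 / 2) := by
  have hmap : (gam n).map (fun x => ⟪v, x⟫) = gaussianReal 0 (‖v‖ ^ 2).toNNReal := by
    have h := IsGaussian.map_eq_gaussianReal (μ := gam n) (innerSL ℝ v)
    have h1 : (⇑(innerSL ℝ v) : Eu n → ℝ) = fun x => ⟪v, x⟫ := by
      ext x; simp
    rw [h1] at h
    rw [h]
    congr 1
    · simpa using integral_strongDual_stdGaussian (E := Eu n) (innerSL ℝ v)
    · have h2 := variance_dual_stdGaussian (E := Eu n) (innerSL ℝ v)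
      rw [h1] at h2
      rw [h2]
      simp
  have h := mgf_gaussianReal (p := gam n) hmap 1
  simp only [mgf, one_mul, zero_add, one_pow, mul_one] at h
  rw [h, Real.coe_toNNReal _ (by positivity)]

/-- `k(·,x)` is an integrable probability density for the standard Gaussian. -/
lemma kk_eq (κ : ℝ) (w x : Eu n) : kk κ w x = rexp (- (κ ^ 2 * ‖x‖ ^ 2 / 2)) * rexp ⟪κ • x, w⟫ := by
  unfold kk
  rw [← exp_add, inner_smul_left, real_inner_comm]
  congr 1
  simp
  ring

lemma integrable_kk (κ : ℝ) (x : Eu n) : Integrable (fun w => kk κ w x) (gam n) := by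
  simp_rw [kk_eq]
  exact (integrable_exp_inner_gam _).const_mul _

lemma integral_kk (κ : ℝ) (x : Eu n) : ∫ w, kk κ w x ∂(gam n) = 1 := by
  simp_rw [kk_eq]
  rw [integral_const_mul, integral_exp_inner_gam, ← exp_add, norm_smul, mul_pow, Real.norm_eq_abs,
    sq_abs]
  simp

lemma kk_mul_eq (κ : ℝ) (w x y : Eu n) : kk κ w x * kk κ w y =
    rexp (- (κ ^ 2 * (‖x‖ ^ 2 + ‖y‖ ^ 2) / 2)) * rexp ⟪κ • (x + y), w⟫ := by
  unfold kk
  rw [← exp_add, ← exp_add, inner_smul_left, real_inner_comm, inner_add_left, real_inner_comm w x,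
    real_inner_comm w y]
  congr 1
  simp
  ring

lemma integrable_kk_mul (κ : ℝ) (x y : Eu n) : Integrable (fun w => kk κ w x * kk κ w y) (gam n) := by
  simp_rw [kk_mul_eq]
  exact (integrable_exp_inner_gam _).const_mul _

lemma integral_kk_mul (κ : ℝ) (x y : Eu n) :
    ∫ w, kk κ w x * kk κ w y ∂(gam n) = rexp (κ ^ 2 * ⟪x, y⟫) := by
  simp_rw [kk_mul_eq]
  rw [integral_const_mul, integral_exp_inner_gam, ← exp_add, norm_smul, mul_pow, Real.norm_eq_abs,
    sq_abs, @norm_add_sq_real]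
  congr 1
  ring

/-- Shifting the Gaussian argument multiplies the kernel by an exponential. -/
lemma kk_shift (κ : ℝ) (w v x : Eu n) : kk κ (w + v) x = kk κ w x * rexp (κ * ⟪v, x⟫) := by
  unfold kk
  rw [← exp_add, inner_add_left]
  congr 1
  ring

/-- A generic Fubini statement for a nonnegative kernel. -/
lemma integrable_kernel {X Ω : Type*} [MeasurableSpace X] [MeasurableSpace Ω]
    (m : Measure X) (ν : Measure Ω) [SFinite m] [SFinite ν] {ℓ : X → Ω → ℝ}
    (hℓ : Measurable fun p : X × Ω => ℓ p.1 p.2) (h0 : ∀ x ω, 0 ≤ ℓ x ω) {e : Ω → ℝ}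
    (hi : ∀ ω, Integrable (fun x => ℓ x ω) m) (he : ∀ ω, ∫ x, ℓ x ω ∂m = e ω) {G : Ω → ℝ}
    (hG : AEStronglyMeasurable G ν) (hGe : Integrable (fun ω => G ω * e ω) ν) :
    Integrable (fun p : X × Ω => G p.2 * ℓ p.1 p.2) (m.prod ν) := by
  have hmeas : AEStronglyMeasurable (fun p : X × Ω => G p.2 * ℓ p.1 p.2) (m.prod ν) :=
    (hG.comp_snd).mul hℓ.aestronglyMeasurable
  rw [integrable_prod_iff' hmeas]
  constructor
  · exact Filter.Eventually.of_forall fun ω => by simpa using (hi ω).const_mul (G ω)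
  · refine hGe.norm.congr (Filter.Eventually.of_forall fun ω => ?_)
    have h1 : ∀ x, ‖G ω * ℓ x ω‖ = |G ω| * ℓ x ω := by
      intro x
      rw [norm_mul, Real.norm_eq_abs, Real.norm_eq_abs, abs_of_nonneg (h0 x ω)]
    simp only [h1]
    rw [integral_const_mul, he, norm_mul, Real.norm_eq_abs, Real.norm_eq_abs]
    have : 0 ≤ e ω := by
      rw [← he]
      exact integral_nonneg fun x => h0 x ω
    rw [abs_of_nonneg this]

/-- The corresponding iterated integral. -/
lemma integral_kernel {X Ω : Type*} [MeasurableSpace X] [MeasurableSpace Ω]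
    (m : Measure X) (ν : Measure Ω) [SFinite m] [SFinite ν] {ℓ : X → Ω → ℝ}
    (hℓ : Measurable fun p : X × Ω => ℓ p.1 p.2) (h0 : ∀ x ω, 0 ≤ ℓ x ω) {e : Ω → ℝ}
    (hi : ∀ ω, Integrable (fun x => ℓ x ω) m) (he : ∀ ω, ∫ x, ℓ x ω ∂m = e ω) {G : Ω → ℝ}
    (hG : AEStronglyMeasurable G ν) (hGe : Integrable (fun ω => G ω * e ω) ν) :
    ∫ x, ∫ ω, G ω * ℓ x ω ∂ν ∂m = ∫ ω, G ω * e ω ∂ν := by
  have h := integrable_kernel m ν hℓ h0 hi he hG hGe
  rw [integral_integral_swap (f := fun x ω => G ω * ℓ x ω) h]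
  refine integral_congr_ae (Filter.Eventually.of_forall fun ω => ?_)
  simp only
  rw [integral_const_mul, he]

end Vale.Agent.Lib.P245
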