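import Vale.Agent.Lib.P245.EntPsi

/-!
# The main estimate
-/

open MeasureTheory ProbabilityTheory Real Filter Topology
open scoped ENNReal RealInnerProductSpace ContDiff

namespace Vale.Agent.Lib.P245

variable {n : ℕ}

set_option linter.unusedSectionVars false
set_option linter.unusedVariables false

/-- The estimate for a fixed channel time `T`, with the variance on the right. -/
theorem variance_bound {ρ : Eu n → ℝ} (hρ : IsLogConcaveDensity ρ)
    [IsProbabilityMeasure (densityMeasure ρ)] {a : ℝ} (ha : 0 < a)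
    (hc : ∀ θ : Eu n, ∫ x, ⟪x, θ⟫ ∂(densityMeasure ρ) = 0)
    (hsg : IsLinearSubgaussian (densityMeasure ρ) a)
    {f : Eu n → ℝ} (hf : ContDiff ℝ ∞ f) (hfc : HasCompactSupport f)
    {T : ℝ} (hT0 : 0 < T) (hT1 : 12 * T * a ^ 2 ≤ 1) :
    entropy (densityMeasure ρ) (fun x => f x ^ 2) ≤
      (24 / T) * (∫ x, ‖fderiv ℝ f x‖ ^ 2 ∂(densityMeasure ρ)) +
        (672 * (n * T ^ 2 * a ^ 4) + 10) *
          ∫ x, (f x - ∫ y, f y ∂(densityMeasure ρ)) ^ 2 ∂(densityMeasure ρ) := by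
  set μ := densityMeasure ρ with hμ
  set κ := √T with hκdef
  have hκ2 : κ ^ 2 = T := Real.sq_sqrt hT0.le
  have hκ : κ ≠ 0 := (Real.sqrt_pos.2 hT0).ne'
  have ha2 : 0 < a ^ 2 := by positivity
  have hTa : T * a ^ 2 ≤ 1 / 12 := by linarith
  have hTa0 : 0 ≤ T * a ^ 2 := by positivity
  have hmgf := mgf_bound ha hsg hc
  have hm : Integrable (fun x : Eu n => rexp (2 * κ ^ 2 * ‖x‖ ^ 2)) μ :=
    integrable_moment hmgf (by positivity) (by rw [hκ2]; nlinarith)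
  have hsq : (T * a ^ 2) ^ 2 ≤ (1 / 12) ^ 2 := pow_le_pow_left₀ hTa0 hTa 2
  have h4 : log (phi μ (4 * κ ^ 2)) ≤ 4 * n * (4 * κ ^ 2) ^ 2 * a ^ 4 := by
    refine log_phi_le hmgf (by positivity) ?_ (integrable_exp_inner hm (by positivity) le_rfl)
    rw [hκ2]
    nlinarith
  have h2 : log (phi μ (2 * κ ^ 2)) ≤ 4 * n * (2 * κ ^ 2) ^ 2 * a ^ 4 := by
    refine log_phi_le hmgf (by positivity) ?_ (integrable_exp_inner hm (by positivity)
      (by nlinarith [sq_nonneg κ]))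
    rw [hκ2]
    nlinarith
  rw [hκ2] at h4 h2
  set B := 224 * (n * T ^ 2 * a ^ 4) with hB
  have hB0 : 0 ≤ B := by positivity
  have hBle : (3 / 2) * log (phi μ (4 * κ ^ 2)) + 8 * log (phi μ (2 * κ ^ 2)) ≤ B := by
    rw [hκ2, hB]
    nlinarith
  set m := ∫ y, f y ∂μ with hmdef
  have hE := ent_F (m := m) hρ hκ hm hf hfc hBle
  rw [hκ2] at hE
  obtain ⟨C₀, hC₀⟩ := hfc.exists_bound_of_continuous hf.continuous
  have hR := rothaus (μ := μ) hf.continuous.measurable (C₁ := C₀) (fun x => by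
    simpa [Real.norm_eq_abs] using hC₀ x)
  rw [← hmdef] at hR
  set V := ∫ x, (f x - m) ^ 2 ∂μ with hV
  set Dir := ∫ x, ‖fderiv ℝ f x‖ ^ 2 ∂μ with hDir
  calc entropy μ (fun x => f x ^ 2)
      ≤ 3 * entropy μ (fun x => (f x - m) ^ 2) + 10 * V := hR
    _ ≤ 3 * ((8 / T) * Dir + V * B) + 10 * V := by gcongr
    _ = _ := by
      rw [hB]
      ring

/-- The estimate for a fixed channel time `T`. -/
theorem final_bound {ρ : Eu n → ℝ} (hρ : IsLogConcaveDensity ρ)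
    [IsProbabilityMeasure (densityMeasure ρ)] {a C : ℝ} (ha : 0 < a) (hC : 0 ≤ C)
    (hc : ∀ θ : Eu n, ∫ x, ⟪x, θ⟫ ∂(densityMeasure ρ) = 0)
    (hsg : IsLinearSubgaussian (densityMeasure ρ) a) (hP : HasPoincare (densityMeasure ρ) C)
    {f : Eu n → ℝ} (hf : ContDiff ℝ ∞ f) (hfc : HasCompactSupport f)
    {T : ℝ} (hT0 : 0 < T) (hT1 : 12 * T * a ^ 2 ≤ 1) :
    entropy (densityMeasure ρ) (fun x => f x ^ 2) ≤
      (24 / T + 672 * (n * T ^ 2 * a ^ 4 * C) + 10 * C) *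
        ∫ x, ‖fderiv ℝ f x‖ ^ 2 ∂(densityMeasure ρ) := by
  have h1 := variance_bound hρ ha hc hsg hf hfc hT0 hT1
  have hPo := hP f hf hfc
  have hDir0 : 0 ≤ ∫ x, ‖fderiv ℝ f x‖ ^ 2 ∂(densityMeasure ρ) :=
    integral_nonneg fun x => by positivity
  have hc0 : 0 ≤ 672 * ((n : ℝ) * T ^ 2 * a ^ 4) + 10 := by positivity
  have h5 := mul_le_mul_of_nonneg_left hPo hc0
  refine h1.trans ?_
  refine (add_le_add_right h5 _).trans (le_of_eq ?_)
  ring

/-- The cube root bound. -/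
theorem cube_root_bound {ρ : Eu n → ℝ} (hρ : IsLogConcaveDensity ρ)
    [IsProbabilityMeasure (densityMeasure ρ)] {a C : ℝ} (ha : 0 < a) (hC : 0 ≤ C)
    (hc : ∀ θ : Eu n, ∫ x, ⟪x, θ⟫ ∂(densityMeasure ρ) = 0)
    (hsg : IsLinearSubgaussian (densityMeasure ρ) a) (hP : HasPoincare (densityMeasure ρ) C)
    {f : Eu n → ℝ} (hf : ContDiff ℝ ∞ f) (hfc : HasCompactSupport f) :
    entropy (densityMeasure ρ) (fun x => f x ^ 2) ≤
      700 * (a ^ 2 + C + ((n : ℝ) * a ^ 4 * C) ^ (1 / 3 : ℝ)) *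
        ∫ x, ‖fderiv ℝ f x‖ ^ 2 ∂(densityMeasure ρ) := by
  have ha2 : 0 < a ^ 2 := by positivity
  have hx0 : 0 ≤ (n : ℝ) * a ^ 4 * C := by positivity
  set Q := ((n : ℝ) * a ^ 4 * C) ^ (1 / 3 : ℝ) with hQ
  have hQ0 : 0 ≤ Q := rpow_nonneg hx0 _
  have hQ3 : Q ^ 3 = (n : ℝ) * a ^ 4 * C := by
    rw [hQ, ← Real.rpow_natCast, ← Real.rpow_mul hx0]
    norm_num
  have hDir0 : 0 ≤ ∫ x, ‖fderiv ℝ f x‖ ^ 2 ∂(densityMeasure ρ) :=
    integral_nonneg fun x => by positivity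
  -- the choice of the channel time
  obtain ⟨T, hT0, hT1, hT2, hT3⟩ : ∃ T : ℝ, 0 < T ∧ 12 * T * a ^ 2 ≤ 1 ∧ 1 / T ≤ 12 * a ^ 2 + Q ∧
      T ^ 2 * Q ^ 3 ≤ Q := by
    rcases hQ0.eq_or_lt with h | h
    · refine ⟨1 / (12 * a ^ 2), by positivity, ?_, ?_, ?_⟩
      · apply le_of_eq
        field_simp
      · rw [← h, one_div_one_div]
        linarith
      · rw [← h]
        simp
    · refine ⟨min (1 / (12 * a ^ 2)) (1 / Q), by positivity, ?_, ?_, ?_⟩
      · have h1 : min (1 / (12 * a ^ 2)) (1 / Q) ≤ 1 / (12 * a ^ 2) := min_le_left _ _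
        have h2 : 12 * min (1 / (12 * a ^ 2)) (1 / Q) * a ^ 2 ≤ 12 * (1 / (12 * a ^ 2)) * a ^ 2 := by
          gcongr
        refine h2.trans (le_of_eq ?_)
        field_simp
      · rcases le_total (1 / (12 * a ^ 2)) (1 / Q) with h1 | h1
        · rw [min_eq_left h1, one_div_one_div]
          linarith
        · rw [min_eq_right h1, one_div_one_div]
          linarith
      · have h1 : min (1 / (12 * a ^ 2)) (1 / Q) ≤ 1 / Q := min_le_right _ _
        set T := min (1 / (12 * a ^ 2)) (1 / Q) with hT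
        have hT0 : 0 < T := by positivity
        have h2 : T * Q ≤ 1 := by
          calc T * Q ≤ (1 / Q) * Q := by gcongr
            _ = 1 := by field_simp
        have h3 : (T * Q) ^ 2 ≤ 1 := by
          have : 0 ≤ T * Q := by positivity
          nlinarith
        calc T ^ 2 * Q ^ 3 = (T * Q) ^ 2 * Q := by ring
          _ ≤ 1 * Q := by gcongr
          _ = Q := one_mul _
  have key := final_bound hρ ha hC hc hsg hP hf hfc hT0 hT1
  refine key.trans ?_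
  apply mul_le_mul_of_nonneg_right _ hDir0
  have e1 : 24 / T = 24 * (1 / T) := by ring
  have e2 : (n : ℝ) * T ^ 2 * a ^ 4 * C = T ^ 2 * Q ^ 3 := by
    rw [hQ3]
    ring
  rw [e1, e2]
  nlinarith

end Vale.Agent.Lib.P245
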