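import Vale.Agent.Lib.P245.GaussPL

/-!
# The partition function `Z` and its second and negative moments
-/

open MeasureTheory ProbabilityTheory Real
open scoped ENNReal RealInnerProductSpace

namespace Vale.Agent.Lib.P245

variable {n : ℕ} {μ : Measure (Eu n)} [IsProbabilityMeasure μ] {κ : ℝ}

set_option linter.unusedSectionVars false
set_option linter.unusedVariables false

/-- Dominating function on the product. -/
noncomputable def domD (κ : ℝ) (p : Eu n × Eu n) : ℝ :=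
  rexp (2 * κ ^ 2 * ‖p.1‖ ^ 2) * rexp (2 * κ ^ 2 * ‖p.2‖ ^ 2)

lemma integrable_domD (hm : Integrable (fun x : Eu n => rexp (2 * κ ^ 2 * ‖x‖ ^ 2)) μ) :
    Integrable (domD κ) (μ.prod μ) := hm.mul_prod hm

lemma domD_pos (p : Eu n × Eu n) : 0 < domD κ p := by
  unfold domD; positivity

lemma inner_le_half (x y : Eu n) : ⟪x, y⟫ ≤ (‖x‖ ^ 2 + ‖y‖ ^ 2) / 2 := by
  have h := real_inner_le_norm x y
  nlinarith [sq_nonneg (‖x‖ - ‖y‖)]

lemma neg_inner_le_half (x y : Eu n) : -⟪x, y⟫ ≤ (‖x‖ ^ 2 + ‖y‖ ^ 2) / 2 := by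
  have h := real_inner_le_norm x (-y)
  rw [inner_neg_right, norm_neg] at h
  nlinarith [sq_nonneg (‖x‖ - ‖y‖)]

lemma exp_inner_le_domD {s : ℝ} (h0 : 0 ≤ s) (hs : s ≤ 4 * κ ^ 2) (p : Eu n × Eu n) :
    rexp (s * ⟪p.1, p.2⟫) ≤ domD κ p := by
  unfold domD
  rw [← exp_add]
  apply exp_le_exp.2
  have h1 := inner_le_half p.1 p.2
  have h2 : 0 ≤ ‖p.1‖ ^ 2 + ‖p.2‖ ^ 2 := by positivity
  calc s * ⟪p.1, p.2⟫ ≤ s * ((‖p.1‖ ^ 2 + ‖p.2‖ ^ 2) / 2) := by gcongr
    _ ≤ (4 * κ ^ 2) * ((‖p.1‖ ^ 2 + ‖p.2‖ ^ 2) / 2) := by gcongr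
    _ = _ := by ring

lemma measurable_inner_prod : Measurable fun p : Eu n × Eu n => ⟪p.1, p.2⟫ :=
  (continuous_fst.inner continuous_snd).measurable

/-- The Laplace transform of `⟨x,x'⟩` under `μ ⊗ μ`. -/
noncomputable def phi (μ : Measure (Eu n)) (s : ℝ) : ℝ :=
  ∫ p, rexp (s * ⟪p.1, p.2⟫) ∂(μ.prod μ)

lemma integrable_exp_inner (hm : Integrable (fun x : Eu n => rexp (2 * κ ^ 2 * ‖x‖ ^ 2)) μ)
    {s : ℝ} (h0 : 0 ≤ s) (hs : s ≤ 4 * κ ^ 2) :
    Integrable (fun p : Eu n × Eu n => rexp (s * ⟪p.1, p.2⟫)) (μ.prod μ) := by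
  refine (integrable_domD hm).mono' ?_ (Filter.Eventually.of_forall fun p => ?_)
  · exact (measurable_exp.comp (measurable_inner_prod.const_mul s)).aestronglyMeasurable
  · rw [Real.norm_eq_abs, abs_of_pos (exp_pos _)]
    exact exp_inner_le_domD h0 hs p

/-- The first moment under the tilted product measure. -/
noncomputable def psi (μ : Measure (Eu n)) (s : ℝ) : ℝ :=
  ∫ p, ⟪p.1, p.2⟫ * rexp (s * ⟪p.1, p.2⟫) ∂(μ.prod μ)

lemma integrable_psi (hκ : κ ≠ 0) (hm : Integrable (fun x : Eu n => rexp (2 * κ ^ 2 * ‖x‖ ^ 2)) μ) :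
    Integrable (fun p : Eu n × Eu n => ⟪p.1, p.2⟫ * rexp (κ ^ 2 * ⟪p.1, p.2⟫)) (μ.prod μ) := by
  have hT : 0 < κ ^ 2 := by positivity
  refine ((integrable_domD (κ := κ) hm).const_mul (κ ^ 2)⁻¹).mono' ?_
    (Filter.Eventually.of_forall fun p => ?_)
  · exact (measurable_inner_prod.mul
      (measurable_exp.comp (measurable_inner_prod.const_mul _))).aestronglyMeasurable
  · rw [norm_mul, Real.norm_eq_abs, Real.norm_eq_abs, abs_of_pos (exp_pos _)]
    set u := κ ^ 2 * ((‖p.1‖ ^ 2 + ‖p.2‖ ^ 2) / 2) with hu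
    have h1 : κ ^ 2 * ⟪p.1, p.2⟫ ≤ u := by
      rw [hu]; gcongr; exact inner_le_half _ _
    have h2 : -(κ ^ 2 * ⟪p.1, p.2⟫) ≤ u := by
      rw [hu, ← mul_neg]; gcongr; exact neg_inner_le_half _ _
    have h3 : |⟪p.1, p.2⟫| ≤ (κ ^ 2)⁻¹ * u := by
      rw [le_inv_mul_iff₀ hT]
      have e3 : κ ^ 2 * |⟪p.1, p.2⟫| = |κ ^ 2 * ⟪p.1, p.2⟫| := by
        rw [abs_mul, abs_of_pos hT]
      rw [e3]
      exact abs_le.2 ⟨by linarith, h1⟩
    have h4 : u ≤ rexp u := by linarith [add_one_le_exp u]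
    have hu0 : 0 ≤ u := by rw [hu]; positivity
    calc |⟪p.1, p.2⟫| * rexp (κ ^ 2 * ⟪p.1, p.2⟫) ≤ ((κ ^ 2)⁻¹ * u) * rexp u := by
          gcongr
      _ ≤ ((κ ^ 2)⁻¹ * rexp u) * rexp u := by gcongr
      _ = (κ ^ 2)⁻¹ * rexp (2 * u) := by
          rw [mul_assoc, ← exp_add]; congr 2; ring
      _ ≤ (κ ^ 2)⁻¹ * domD κ p := by
          gcongr
          unfold domD
          rw [← exp_add]
          apply exp_le_exp.2
          rw [hu]
          have : 0 ≤ κ ^ 2 * (‖p.1‖ ^ 2 + ‖p.2‖ ^ 2) := by positivity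
          nlinarith

/-- The partition function. -/
noncomputable def Zz (μ : Measure (Eu n)) (κ : ℝ) (w : Eu n) : ℝ := ∫ x, kk κ w x ∂μ

/-- The unnormalized barycenter. -/
noncomputable def Vv (μ : Measure (Eu n)) (κ : ℝ) (w : Eu n) : Eu n := ∫ x, kk κ w x • x ∂μ

lemma integrable_kk_x (κ : ℝ) (w : Eu n) : Integrable (fun x => kk κ w x) μ := by
  refine Integrable.of_bound ?_ (rexp (‖w‖ ^ 2 / 2)) (Filter.Eventually.of_forall fun x => ?_)
  · exact ((measurable_kk κ).comp measurable_prodMk_left).aestronglyMeasurable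
  · rw [Real.norm_eq_abs, abs_of_pos (kk_pos _ _ _)]
    exact kk_le κ w x

lemma Zz_pos (κ : ℝ) (w : Eu n) : 0 < Zz μ κ w := by
  unfold Zz
  rw [integral_pos_iff_support_of_nonneg (fun x => kk_nonneg κ w x) (integrable_kk_x κ w)]
  have : Function.support (fun x : Eu n => kk κ w x) = Set.univ := by
    ext x
    simp [(kk_pos κ w x).ne']
  rw [this]
  simp

lemma Zz_le (κ : ℝ) (w : Eu n) : Zz μ κ w ≤ rexp (‖w‖ ^ 2 / 2) := by
  unfold Zz
  calc ∫ x, kk κ w x ∂μ ≤ ∫ _, rexp (‖w‖ ^ 2 / 2) ∂μ :=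
        integral_mono (integrable_kk_x κ w) (integrable_const _) (fun x => kk_le κ w x)
    _ = _ := by simp

lemma measurable_Zz (κ : ℝ) : Measurable (Zz μ κ) := by
  have h : StronglyMeasurable fun p : Eu n × Eu n => kk κ p.1 p.2 :=
    (continuous_kk κ).stronglyMeasurable
  exact h.integral_prod_right'.measurable

lemma integrable_norm_of_moment (hκ : κ ≠ 0)
    (hm : Integrable (fun x : Eu n => rexp (2 * κ ^ 2 * ‖x‖ ^ 2)) μ) :
    Integrable (fun x : Eu n => ‖x‖) μ := by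
  have hT : 0 < 2 * κ ^ 2 := by positivity
  refine ((hm.const_mul (2 * κ ^ 2)⁻¹).add (integrable_const (1 : ℝ))).mono' (by fun_prop)
    (Filter.Eventually.of_forall fun x => ?_)
  simp only [norm_norm, Pi.add_apply]
  have h1 : 2 * κ ^ 2 * ‖x‖ ^ 2 ≤ rexp (2 * κ ^ 2 * ‖x‖ ^ 2) := by
    linarith [add_one_le_exp (2 * κ ^ 2 * ‖x‖ ^ 2)]
  have h2 : ‖x‖ ^ 2 ≤ (2 * κ ^ 2)⁻¹ * rexp (2 * κ ^ 2 * ‖x‖ ^ 2) := by
    rw [le_inv_mul_iff₀ hT]; exact h1
  nlinarith [sq_nonneg (‖x‖ - 1)]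

lemma integrable_kk_smul (hκ : κ ≠ 0)
    (hm : Integrable (fun x : Eu n => rexp (2 * κ ^ 2 * ‖x‖ ^ 2)) μ) (w : Eu n) :
    Integrable (fun x => kk κ w x • x) μ := by
  have h1 := integrable_norm_of_moment hκ hm
  refine (h1.const_mul (rexp (‖w‖ ^ 2 / 2))).mono' ?_ (Filter.Eventually.of_forall fun x => ?_)
  · have : Continuous fun x => kk κ w x • x := by
      have : Continuous fun x => kk κ w x :=
        (continuous_kk κ).comp (Continuous.prodMk_right w)
      exact this.smul continuous_id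
    exact this.aestronglyMeasurable
  · rw [norm_smul, Real.norm_eq_abs, abs_of_pos (kk_pos _ _ _)]
    gcongr
    exact kk_le κ w x

lemma measurable_Vv (κ : ℝ) : Measurable (Vv μ κ) := by
  have h : StronglyMeasurable fun p : Eu n × Eu n => kk κ p.1 p.2 • p.2 :=
    ((continuous_kk κ).smul continuous_snd).stronglyMeasurable
  exact h.integral_prod_right'.measurable

lemma measurable_kernel2 (κ : ℝ) :
    Measurable fun q : Eu n × (Eu n × Eu n) => kk κ q.1 q.2.1 * kk κ q.1 q.2.2 := by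
  have h1 : Continuous fun q : Eu n × (Eu n × Eu n) => kk κ q.1 q.2.1 :=
    (continuous_kk κ).comp (continuous_fst.prodMk (continuous_fst.comp continuous_snd))
  have h2 : Continuous fun q : Eu n × (Eu n × Eu n) => kk κ q.1 q.2.2 :=
    (continuous_kk κ).comp (continuous_fst.prodMk (continuous_snd.comp continuous_snd))
  exact (h1.mul h2).measurable

/-- Fubini through the pair kernel. -/
lemma integrable_pair (κ : ℝ) {G : Eu n × Eu n → ℝ} (hG : AEStronglyMeasurable G (μ.prod μ))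
    (hGe : Integrable (fun p => G p * rexp (κ ^ 2 * ⟪p.1, p.2⟫)) (μ.prod μ)) :
    Integrable (fun q : Eu n × (Eu n × Eu n) => G q.2 * (kk κ q.1 q.2.1 * kk κ q.1 q.2.2))
      ((gam n).prod (μ.prod μ)) :=
  integrable_kernel (gam n) (μ.prod μ) (ℓ := fun w p => kk κ w p.1 * kk κ w p.2)
    (measurable_kernel2 κ)
    (fun w p => mul_nonneg (kk_nonneg _ _ _) (kk_nonneg _ _ _))
    (fun p => integrable_kk_mul κ p.1 p.2) (fun p => integral_kk_mul κ p.1 p.2) hG hGe

lemma integral_pair (κ : ℝ) {G : Eu n × Eu n → ℝ} (hG : AEStronglyMeasurable G (μ.prod μ))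
    (hGe : Integrable (fun p => G p * rexp (κ ^ 2 * ⟪p.1, p.2⟫)) (μ.prod μ)) :
    ∫ w, ∫ p, G p * (kk κ w p.1 * kk κ w p.2) ∂(μ.prod μ) ∂(gam n)
      = ∫ p, G p * rexp (κ ^ 2 * ⟪p.1, p.2⟫) ∂(μ.prod μ) :=
  integral_kernel (gam n) (μ.prod μ) (ℓ := fun w p => kk κ w p.1 * kk κ w p.2)
    (measurable_kernel2 κ)
    (fun w p => mul_nonneg (kk_nonneg _ _ _) (kk_nonneg _ _ _))
    (fun p => integrable_kk_mul κ p.1 p.2) (fun p => integral_kk_mul κ p.1 p.2) hG hGe

lemma Zz_sq_eq (κ : ℝ) (w : Eu n) :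
    Zz μ κ w ^ 2 = ∫ p, (1 : ℝ) * (kk κ w p.1 * kk κ w p.2) ∂(μ.prod μ) := by
  simp only [one_mul]
  rw [integral_prod_mul (μ := μ) (ν := μ) (fun x => kk κ w x) (fun x => kk κ w x)]
  unfold Zz
  ring

lemma integral_Zz_sq (hm : Integrable (fun x : Eu n => rexp (2 * κ ^ 2 * ‖x‖ ^ 2)) μ) :
    ∫ w, Zz μ κ w ^ 2 ∂(gam n) = phi μ (κ ^ 2) := by
  simp_rw [Zz_sq_eq]
  have h := integrable_exp_inner hm (s := κ ^ 2) (by positivity) (by nlinarith [sq_nonneg κ])
  rw [integral_pair κ aestronglyMeasurable_const (by simpa using h)]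
  simp [phi]

lemma integrable_Zz_sq (hm : Integrable (fun x : Eu n => rexp (2 * κ ^ 2 * ‖x‖ ^ 2)) μ) :
    Integrable (fun w => Zz μ κ w ^ 2) (gam n) := by
  simp_rw [Zz_sq_eq]
  have h := integrable_exp_inner hm (s := κ ^ 2) (by positivity) (by nlinarith [sq_nonneg κ])
  have := integrable_pair (μ := μ) κ (G := fun _ => (1 : ℝ)) aestronglyMeasurable_const
    (by simpa using h)
  exact this.integral_prod_left

lemma integral_Zz : ∫ w, Zz μ κ w ∂(gam n) = 1 := by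
  unfold Zz
  have h := integral_kernel (gam n) μ (ℓ := fun w x => kk κ w x) (e := fun _ => 1)
    (G := fun _ => (1 : ℝ)) (measurable_kk κ) (kk_nonneg κ) (fun x => integrable_kk κ x)
    (fun x => integral_kk κ x) aestronglyMeasurable_const (by simp)
  simpa using h

lemma integrable_Zz : Integrable (Zz μ κ) (gam n) := by
  have h := integrable_kernel (gam n) μ (ℓ := fun w x => kk κ w x) (e := fun _ => 1)
    (G := fun _ => (1 : ℝ)) (measurable_kk κ) (kk_nonneg κ) (fun x => integrable_kk κ x)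
    (fun x => integral_kk κ x) aestronglyMeasurable_const (by simp)
  have h2 := h.integral_prod_left
  have e : Zz μ κ = fun w => ∫ x, kk κ w x ∂μ := rfl
  rw [e]
  simpa using h2

/-- Cauchy-Schwarz for real integrals, in discriminant form. -/
lemma integral_mul_sq_le {X : Type*} [MeasurableSpace X] {m : Measure X} {f g : X → ℝ}
    (hff : Integrable (fun x => f x * f x) m) (hfg : Integrable (fun x => f x * g x) m)
    (hgg : Integrable (fun x => g x * g x) m) :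
    (∫ x, f x * g x ∂m) ^ 2 ≤ (∫ x, f x * f x ∂m) * (∫ x, g x * g x ∂m) := by
  set A := ∫ x, f x * f x ∂m
  set B := ∫ x, f x * g x ∂m
  set C := ∫ x, g x * g x ∂m
  have key : ∀ t : ℝ, 0 ≤ A - 2 * t * B + t ^ 2 * C := by
    intro t
    have h : 0 ≤ ∫ x, (f x - t * g x) ^ 2 ∂m := integral_nonneg fun x => sq_nonneg _
    have e : ∀ x, (f x - t * g x) ^ 2 = f x * f x - (2 * t) * (f x * g x) + t ^ 2 * (g x * g x) := by
      intro x; ring
    simp_rw [e] at h
    have i1 := hfg.const_mul (2 * t)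
    have i2 := hgg.const_mul (t ^ 2)
    have i3 : Integrable (fun x => f x * f x - (2 * t) * (f x * g x)) m := hff.sub i1
    rw [integral_add i3 i2, integral_sub hff i1, integral_const_mul, integral_const_mul] at h
    linarith
  have hA : 0 ≤ A := integral_nonneg fun x => mul_self_nonneg _
  have hC : 0 ≤ C := integral_nonneg fun x => mul_self_nonneg _
  by_cases hC0 : C = 0
  · have h1 := key (B * 2 * (A + 1) / (4 * B ^ 2 + 1))
    by_contra hcon
    push Not at hcon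
    rw [hC0] at hcon
    have hB : B ≠ 0 := by
      intro h0; rw [h0] at hcon; norm_num at hcon
    have hB2 : 0 < B ^ 2 := by positivity
    have h2 := key ((A + 1) / (2 * B))
    rw [hC0] at h2
    have : 2 * ((A + 1) / (2 * B)) * B = A + 1 := by
      field_simp
    nlinarith
  · have hCpos : 0 < C := lt_of_le_of_ne hC (Ne.symm hC0)
    have h := key (B / C)
    have e : A - 2 * (B / C) * B + (B / C) ^ 2 * C = A - B ^ 2 / C := by
      field_simp
      ring
    rw [e] at h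
    have h3 : B ^ 2 / C ≤ A := by linarith
    rw [div_le_iff₀ hCpos] at h3
    exact h3

lemma one_le_phi (hm : Integrable (fun x : Eu n => rexp (2 * κ ^ 2 * ‖x‖ ^ 2)) μ) :
    1 ≤ phi μ (κ ^ 2) := by
  have h := integral_mul_sq_le (m := gam n) (f := Zz μ κ) (g := fun _ => (1 : ℝ))
    (by simpa [pow_two] using integrable_Zz_sq hm) (by simpa using integrable_Zz)
    (by simp)
  simp only [mul_one, integral_const, probReal_univ, smul_eq_mul] at h
  rw [integral_Zz] at h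
  have e : ∫ x, Zz μ κ x * Zz μ κ x ∂(gam n) = phi μ (κ ^ 2) := by
    rw [← integral_Zz_sq hm]
    simp [pow_two]
  rw [e] at h
  simpa using h

/-- Jensen under the tilted product measure. -/
lemma exp_psi_le (hκ : κ ≠ 0) (hm : Integrable (fun x : Eu n => rexp (2 * κ ^ 2 * ‖x‖ ^ 2)) μ) :
    rexp (κ ^ 2 * psi μ (κ ^ 2) / phi μ (κ ^ 2)) * phi μ (κ ^ 2) ≤ phi μ (2 * κ ^ 2) := by
  have hT : 0 < κ ^ 2 := by positivity
  have h1 := one_le_phi hm
  have hphi : 0 < phi μ (κ ^ 2) := by linarith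
  set c := κ ^ 2 * psi μ (κ ^ 2) / phi μ (κ ^ 2) with hc
  have hi1 := integrable_exp_inner hm (s := κ ^ 2) hT.le (by linarith)
  have hi2 := integrable_exp_inner hm (s := 2 * κ ^ 2) (by positivity) (by linarith)
  have hi3 := integrable_psi hκ hm
  have pt : ∀ p : Eu n × Eu n, rexp c * ((1 - c) * rexp (κ ^ 2 * ⟪p.1, p.2⟫)
      + κ ^ 2 * (⟪p.1, p.2⟫ * rexp (κ ^ 2 * ⟪p.1, p.2⟫))) ≤ rexp (2 * κ ^ 2 * ⟪p.1, p.2⟫) := by
    intro p
    set y := κ ^ 2 * ⟪p.1, p.2⟫ with hy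
    have h2 : rexp c * (y - c + 1) ≤ rexp y := by
      have := add_one_le_exp (y - c)
      calc rexp c * (y - c + 1) ≤ rexp c * rexp (y - c) := by gcongr
        _ = rexp y := by rw [← exp_add]; congr 1; ring
    have e : 2 * κ ^ 2 * ⟪p.1, p.2⟫ = y + y := by rw [hy]; ring
    rw [e, exp_add]
    have : rexp c * ((1 - c) * rexp y + κ ^ 2 * (⟪p.1, p.2⟫ * rexp y)) =
        (rexp c * (y - c + 1)) * rexp y := by
      rw [hy]; ring
    rw [this]
    gcongr
  have hint := integral_mono (μ := μ.prod μ)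
    (((hi1.const_mul (1 - c)).add (hi3.const_mul (κ ^ 2))).const_mul (rexp c)) hi2 pt
  rw [integral_const_mul, integral_add' (hi1.const_mul _) (hi3.const_mul _), integral_const_mul,
    integral_const_mul] at hint
  unfold phi psi at *
  set P := ∫ p : Eu n × Eu n, rexp (κ ^ 2 * ⟪p.1, p.2⟫) ∂(μ.prod μ)
  set Q := ∫ p : Eu n × Eu n, ⟪p.1, p.2⟫ * rexp (κ ^ 2 * ⟪p.1, p.2⟫) ∂(μ.prod μ)
  have e : (1 - c) * P + κ ^ 2 * Q = P := by
    rw [hc]; field_simp; ring
  rw [e] at hint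
  exact hint

end Vale.Agent.Lib.P245
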