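import Vale.Agent.Lib.P245.Moment

/-!
# The negative second moment of the partition function
-/

open MeasureTheory ProbabilityTheory Real
open scoped ENNReal RealInnerProductSpace

namespace Vale.Agent.Lib.P245

variable {n : ℕ} {μ : Measure (Eu n)} [IsProbabilityMeasure μ] {κ : ℝ}

set_option linter.unusedSectionVars false
set_option linter.unusedVariables false

/-- Tangent-line bound for the log-convex function `Z`. -/
lemma Zz_tangent (hκ : κ ≠ 0) (hm : Integrable (fun x : Eu n => rexp (2 * κ ^ 2 * ‖x‖ ^ 2)) μ)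
    (x y : Eu n) :
    Zz μ κ y * rexp (κ * ⟪x - y, Vv μ κ y⟫ / Zz μ κ y) ≤ Zz μ κ x := by
  set d := x - y with hd
  set Z := Zz μ κ y with hZ
  have hZpos : 0 < Z := Zz_pos κ y
  set c := κ * ⟪d, Vv μ κ y⟫ / Z with hc
  have hi1 : Integrable (fun t => kk κ y t) μ := integrable_kk_x κ y
  have hi2 : Integrable (fun t => kk κ y t • t) μ := integrable_kk_smul hκ hm y
  have hin : ∫ t, kk κ y t * ⟪d, t⟫ ∂μ = ⟪d, Vv μ κ y⟫ := by
    have := integral_inner (𝕜 := ℝ) hi2 d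
    rw [show Vv μ κ y = ∫ t, kk κ y t • t ∂μ from rfl, ← this]
    refine integral_congr_ae (Filter.Eventually.of_forall fun t => ?_)
    simp only [inner_smul_right]
  have hi3 : Integrable (fun t => kk κ y t * ⟪d, t⟫) μ := by
    have := hi2.const_inner (𝕜 := ℝ) d
    refine this.congr (Filter.Eventually.of_forall fun t => ?_)
    simp only [inner_smul_right]
  have hx : x = y + d := by rw [hd]; abel
  have hZx : Zz μ κ x = ∫ t, kk κ y t * rexp (κ * ⟪d, t⟫) ∂μ := by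
    unfold Zz
    rw [hx]
    refine integral_congr_ae (Filter.Eventually.of_forall fun t => ?_)
    exact kk_shift κ y d t
  have hi4 : Integrable (fun t => kk κ y t * rexp (κ * ⟪d, t⟫)) μ := by
    have := integrable_kk_x (μ := μ) κ (y + d)
    refine this.congr (Filter.Eventually.of_forall fun t => ?_)
    exact kk_shift κ y d t
  have pt : ∀ t, rexp c * ((1 - c) * kk κ y t + κ * (kk κ y t * ⟪d, t⟫)) ≤
      kk κ y t * rexp (κ * ⟪d, t⟫) := by
    intro t
    have h1 := add_one_le_exp (κ * ⟪d, t⟫ - c)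
    have h2 : rexp c * (κ * ⟪d, t⟫ - c + 1) ≤ rexp (κ * ⟪d, t⟫) := by
      calc _ ≤ rexp c * rexp (κ * ⟪d, t⟫ - c) := by gcongr
        _ = _ := by rw [← exp_add]; congr 1; ring
    have h3 := kk_pos κ y t
    calc rexp c * ((1 - c) * kk κ y t + κ * (kk κ y t * ⟪d, t⟫))
        = kk κ y t * (rexp c * (κ * ⟪d, t⟫ - c + 1)) := by ring
      _ ≤ _ := by gcongr
  have hint := integral_mono (μ := μ)
    (((hi1.const_mul (1 - c)).add (hi3.const_mul κ)).const_mul (rexp c)) hi4 pt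
  rw [integral_const_mul, integral_add' (hi1.const_mul _) (hi3.const_mul _), integral_const_mul,
    integral_const_mul, hin] at hint
  rw [hZx]
  have e : (1 - c) * (∫ t, kk κ y t ∂μ) + κ * ⟪d, Vv μ κ y⟫ = Z := by
    have : ∫ t, kk κ y t ∂μ = Z := rfl
    rw [this, hc]
    field_simp
    ring
  rw [e] at hint
  linarith [mul_comm Z (rexp c)]

lemma Vv_norm_sq (hκ : κ ≠ 0) (hm : Integrable (fun x : Eu n => rexp (2 * κ ^ 2 * ‖x‖ ^ 2)) μ)
    (w : Eu n) :
    ‖Vv μ κ w‖ ^ 2 = ∫ p, ⟪p.1, p.2⟫ * (kk κ w p.1 * kk κ w p.2) ∂(μ.prod μ) := by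
  have hi2 : Integrable (fun t => kk κ w t • t) μ := integrable_kk_smul hκ hm w
  have hnorm := integrable_norm_of_moment hκ hm
  have hprod : Integrable (fun p : Eu n × Eu n => ⟪p.1, p.2⟫ * (kk κ w p.1 * kk κ w p.2))
      (μ.prod μ) := by
    have hk : Continuous fun x : Eu n => kk κ w x :=
      (continuous_kk κ).comp (Continuous.prodMk_right w)
    refine (((hnorm.mul_prod hnorm).const_mul (rexp (‖w‖ ^ 2 / 2) * rexp (‖w‖ ^ 2 / 2)))).mono' ?_
      (Filter.Eventually.of_forall fun p => ?_)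
    · have : Continuous fun p : Eu n × Eu n => ⟪p.1, p.2⟫ * (kk κ w p.1 * kk κ w p.2) :=
        (continuous_fst.inner continuous_snd).mul
          ((hk.comp continuous_fst).mul (hk.comp continuous_snd))
      exact this.aestronglyMeasurable
    · rw [norm_mul, norm_mul, Real.norm_eq_abs, Real.norm_eq_abs, Real.norm_eq_abs,
        abs_of_pos (kk_pos _ _ _), abs_of_pos (kk_pos _ _ _)]
      have h1 := abs_real_inner_le_norm p.1 p.2
      have h2 := kk_le κ w p.1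
      have h3 := kk_le κ w p.2
      have h4 := kk_pos κ w p.1
      have h5 := kk_pos κ w p.2
      calc |⟪p.1, p.2⟫| * (kk κ w p.1 * kk κ w p.2)
          ≤ (‖p.1‖ * ‖p.2‖) * (rexp (‖w‖ ^ 2 / 2) * rexp (‖w‖ ^ 2 / 2)) := by gcongr
        _ = _ := by ring
  rw [integral_prod _ hprod, ← real_inner_self_eq_norm_sq]
  have step1 : ⟪Vv μ κ w, Vv μ κ w⟫ = ∫ x, ⟪Vv μ κ w, kk κ w x • x⟫ ∂μ :=
    (integral_inner hi2 _).symm
  rw [step1]
  refine integral_congr_ae (Filter.Eventually.of_forall fun x => ?_)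
  simp only
  have step2 : ⟪Vv μ κ w, kk κ w x • x⟫ = kk κ w x * ⟪x, Vv μ κ w⟫ := by
    rw [inner_smul_right, real_inner_comm]
  rw [step2]
  have step3 : ⟪x, Vv μ κ w⟫ = ∫ y, kk κ w y * ⟪x, y⟫ ∂μ := by
    have := integral_inner (𝕜 := ℝ) hi2 x
    rw [show Vv μ κ w = ∫ t, kk κ w t • t ∂μ from rfl, ← this]
    refine integral_congr_ae (Filter.Eventually.of_forall fun t => ?_)
    simp only [inner_smul_right]
  rw [step3, ← integral_const_mul]
  refine integral_congr_ae (Filter.Eventually.of_forall fun y => ?_)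
  simp only
  ring

lemma integrable_Vv_sq (hκ : κ ≠ 0) (hm : Integrable (fun x : Eu n => rexp (2 * κ ^ 2 * ‖x‖ ^ 2)) μ) :
    Integrable (fun w => ‖Vv μ κ w‖ ^ 2) (gam n) := by
  simp_rw [Vv_norm_sq hκ hm]
  have h := integrable_pair (μ := μ) κ (G := fun p => ⟪p.1, p.2⟫)
    measurable_inner_prod.aestronglyMeasurable (integrable_psi hκ hm)
  exact h.integral_prod_left

lemma integral_Vv_sq (hκ : κ ≠ 0) (hm : Integrable (fun x : Eu n => rexp (2 * κ ^ 2 * ‖x‖ ^ 2)) μ) :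
    ∫ w, ‖Vv μ κ w‖ ^ 2 ∂(gam n) = psi μ (κ ^ 2) := by
  simp_rw [Vv_norm_sq hκ hm]
  exact integral_pair κ measurable_inner_prod.aestronglyMeasurable (integrable_psi hκ hm)

/-- The negative moment bound. -/
theorem neg_moment (hκ : κ ≠ 0) (hm : Integrable (fun x : Eu n => rexp (2 * κ ^ 2 * ‖x‖ ^ 2)) μ) :
    Integrable (fun w => (Zz μ κ w)⁻¹ ^ 2) (gam n) ∧
      ∫ w, (Zz μ κ w)⁻¹ ^ 2 ∂(gam n) ≤ phi μ (2 * κ ^ 2) ^ 4 := by
  set P := phi μ (κ ^ 2) with hP
  have hP1 : 1 ≤ P := one_le_phi hm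
  have hPpos : 0 < P := by linarith
  set Q := psi μ (κ ^ 2) with hQ
  set c := -(4 * κ ^ 2 * Q / P) with hc
  have hZ := fun w => Zz_pos (μ := μ) κ w
  have hmZ := measurable_Zz (μ := μ) κ
  have hmV := measurable_Vv (μ := μ) κ
  set vv : Eu n → ℝ := fun y => Zz μ κ y ^ 2 * rexp (-(4 * κ ^ 2 * ‖Vv μ κ y‖ ^ 2 / Zz μ κ y ^ 2)) with hvv
  have hvm : Measurable vv := by
    have h1 : Measurable fun y => ‖Vv μ κ y‖ := hmV.norm
    exact (hmZ.pow_const 2).mul (measurable_exp.comp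
      (((((h1.pow_const 2).const_mul (4 * κ ^ 2))).div (hmZ.pow_const 2)).neg))
  have hv0 : ∀ y, 0 ≤ vv y := fun y => by
    simp only [hvv]; positivity
  have hvle : ∀ y, vv y ≤ Zz μ κ y ^ 2 := fun y => by
    simp only [hvv]
    have : rexp (-(4 * κ ^ 2 * ‖Vv μ κ y‖ ^ 2 / Zz μ κ y ^ 2)) ≤ 1 := by
      apply exp_le_one_iff.2
      have : 0 ≤ 4 * κ ^ 2 * ‖Vv μ κ y‖ ^ 2 / Zz μ κ y ^ 2 := by positivity
      linarith
    have h2 : 0 ≤ Zz μ κ y ^ 2 := by positivity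
    nlinarith
  have hZ2 := integrable_Zz_sq (μ := μ) hm
  have hV2 := integrable_Vv_sq (μ := μ) hκ hm
  have hvi : Integrable vv (gam n) := by
    refine hZ2.mono' hvm.aestronglyMeasurable (Filter.Eventually.of_forall fun y => ?_)
    rw [Real.norm_eq_abs, abs_of_nonneg (hv0 y)]
    exact hvle y
  -- lower bound for the integral of `vv`
  have hvlow : rexp c * P ≤ ∫ y, vv y ∂(gam n) := by
    have pt : ∀ y, rexp c * ((1 - c) * Zz μ κ y ^ 2 + (-(4 * κ ^ 2)) * ‖Vv μ κ y‖ ^ 2) ≤ vv y := by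
      intro y
      have hy : 0 < Zz μ κ y ^ 2 := by have := hZ y; positivity
      set s := -(4 * κ ^ 2 * ‖Vv μ κ y‖ ^ 2 / Zz μ κ y ^ 2) with hs
      have h1 := add_one_le_exp (s - c)
      have h2 : rexp c * (s - c + 1) ≤ rexp s := by
        calc _ ≤ rexp c * rexp (s - c) := by gcongr
          _ = _ := by rw [← exp_add]; congr 1; ring
      have e : rexp c * ((1 - c) * Zz μ κ y ^ 2 + (-(4 * κ ^ 2)) * ‖Vv μ κ y‖ ^ 2) =
          Zz μ κ y ^ 2 * (rexp c * (s - c + 1)) := by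
        have h5 : Zz μ κ y ^ 2 * s = -(4 * κ ^ 2 * ‖Vv μ κ y‖ ^ 2) := by
          rw [hs, mul_neg, mul_div_cancel₀ _ hy.ne']
        calc rexp c * ((1 - c) * Zz μ κ y ^ 2 + (-(4 * κ ^ 2)) * ‖Vv μ κ y‖ ^ 2)
            = rexp c * ((1 - c) * Zz μ κ y ^ 2 + Zz μ κ y ^ 2 * s) := by rw [h5]; ring
          _ = _ := by ring
      rw [e]
      simp only [hvv]
      gcongr
    have hint := integral_mono (μ := gam n)
      (((hZ2.const_mul (1 - c)).add (hV2.const_mul (-(4 * κ ^ 2)))).const_mul (rexp c)) hvi pt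
    rw [integral_const_mul, integral_add' (hZ2.const_mul _) (hV2.const_mul _), integral_const_mul,
      integral_const_mul, integral_Zz_sq hm, integral_Vv_sq hκ hm] at hint
    have e : (1 - c) * P + (-(4 * κ ^ 2)) * Q = P := by
      rw [hc]; field_simp; ring
    rw [← hP, ← hQ, e] at hint
    exact hint
  -- Gaussian Prekopa-Leindler
  set uu : Eu n → ℝ := fun x => (Zz μ κ x)⁻¹ ^ 2 with huu
  have hum : Measurable uu := (hmZ.inv).pow_const 2
  have hu0 : ∀ x, 0 ≤ uu x := fun x => by simp only [huu]; positivity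
  have htau := gauss_tau (n := n) (u := fun x => ENNReal.ofReal (uu x))
    (v := fun x => ENNReal.ofReal (vv x)) hum.ennreal_ofReal hvm.ennreal_ofReal ?_
  · rw [← ofReal_integral_eq_lintegral_ofReal hvi (Filter.Eventually.of_forall hv0)] at htau
    set I := ∫ y, vv y ∂(gam n) with hI
    have hIpos : 0 < I := lt_of_lt_of_le (by positivity) hvlow
    have hfin : ∫⁻ x, ENNReal.ofReal (uu x) ∂(gam n) ≤ ENNReal.ofReal (I⁻¹) := by
      have h1 : (∫⁻ x, ENNReal.ofReal (uu x) ∂(gam n)) * ENNReal.ofReal I * ENNReal.ofReal (I⁻¹) ≤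
          1 * ENNReal.ofReal (I⁻¹) := by gcongr
      rw [mul_assoc, ← ENNReal.ofReal_mul hIpos.le, mul_inv_cancel₀ hIpos.ne', ENNReal.ofReal_one,
        mul_one, one_mul] at h1
      exact h1
    have hui : Integrable uu (gam n) := by
      refine ⟨hum.aestronglyMeasurable, ?_⟩
      rw [hasFiniteIntegral_iff_ofReal (Filter.Eventually.of_forall hu0)]
      exact lt_of_le_of_lt hfin ENNReal.ofReal_lt_top
    refine ⟨hui, ?_⟩
    have hint : ∫ x, uu x ∂(gam n) ≤ I⁻¹ := by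
      rw [integral_eq_lintegral_of_nonneg_ae (Filter.Eventually.of_forall hu0)
        hum.aestronglyMeasurable]
      exact ENNReal.toReal_le_of_le_ofReal (by positivity) hfin
    refine hint.trans ?_
    have hlow2 : (rexp c * P)⁻¹ ≥ I⁻¹ := inv_anti₀ (by positivity) hvlow
    refine hlow2.trans ?_
    -- `exp(κ²Q/P) * P ≤ phi(2κ²)`
    have hpsi := exp_psi_le (μ := μ) hκ hm
    rw [← hP, ← hQ] at hpsi
    set R := phi μ (2 * κ ^ 2) with hR
    set e1 := rexp (κ ^ 2 * Q / P) with he1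
    have he1pos : 0 < e1 := exp_pos _
    have hc2 : (rexp c)⁻¹ = e1 ^ 4 := by
      rw [← exp_neg, he1, ← exp_nat_mul]
      congr 1
      rw [hc]
      push_cast
      ring
    rw [mul_inv, hc2]
    have h1 : e1 ≤ R := by
      have : e1 * 1 ≤ e1 * P := by gcongr
      linarith
    have hP' : P⁻¹ ≤ 1 := inv_le_one_of_one_le₀ hP1
    calc e1 ^ 4 * P⁻¹ ≤ R ^ 4 * 1 := by gcongr
      _ = R ^ 4 := mul_one _
  · intro x y
    rw [← ENNReal.ofReal_mul (hu0 x)]
    apply ENNReal.ofReal_le_ofReal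
    have hzx := hZ x
    have hzy := hZ y
    set d := x - y with hd
    set V := Vv μ κ y with hV
    set Zy := Zz μ κ y with hZy
    set Zx := Zz μ κ x with hZx
    have tang : Zy * rexp (κ * ⟪d, V⟫ / Zy) ≤ Zx := Zz_tangent hκ hm x y
    set c1 := κ * ⟪d, V⟫ / Zy with hc1
    have h1 : (Zx)⁻¹ ≤ (Zy * rexp c1)⁻¹ := inv_anti₀ (by positivity) tang
    have h2 : (Zx)⁻¹ ^ 2 ≤ ((Zy * rexp c1)⁻¹) ^ 2 := by
      gcongr
    have h3 : uu x * vv y ≤ ((Zy * rexp c1)⁻¹) ^ 2 * vv y := by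
      simp only [huu]
      exact mul_le_mul_of_nonneg_right h2 (hv0 y)
    refine h3.trans ?_
    simp only [hvv]
    have e : ((Zy * rexp c1)⁻¹) ^ 2 * (Zy ^ 2 * rexp (-(4 * κ ^ 2 * ‖V‖ ^ 2 / Zy ^ 2))) =
        rexp (-2 * c1 - 4 * κ ^ 2 * ‖V‖ ^ 2 / Zy ^ 2) := by
      have h4 : rexp (-2 * c1 - 4 * κ ^ 2 * ‖V‖ ^ 2 / Zy ^ 2) =
          (rexp c1)⁻¹ ^ 2 * rexp (-(4 * κ ^ 2 * ‖V‖ ^ 2 / Zy ^ 2)) := by
        rw [← exp_neg, ← exp_nat_mul, ← exp_add]
        congr 1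
        push_cast
        ring
      rw [h4]
      field_simp
    rw [e]
    apply exp_le_exp.2
    have hsq : 0 ≤ ‖(1 / 2 : ℝ) • d + (2 * κ / Zy) • V‖ ^ 2 := by positivity
    rw [@norm_add_sq_real, norm_smul, norm_smul, inner_smul_left, inner_smul_right] at hsq
    have e2 : ‖(1 / 2 : ℝ)‖ = 1 / 2 := by norm_num
    have e3 : (‖(2 * κ / Zy : ℝ)‖) ^ 2 = (2 * κ / Zy) ^ 2 := by
      rw [Real.norm_eq_abs, sq_abs]
    rw [mul_pow, mul_pow, e2, e3] at hsq
    simp only [conj_trivial] at hsq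
    have e4 : c1 = κ * ⟪d, V⟫ / Zy := rfl
    rw [e4]
    have e5 : 4 * κ ^ 2 * ‖V‖ ^ 2 / Zy ^ 2 = (2 * κ / Zy) ^ 2 * ‖V‖ ^ 2 := by
      field_simp
      ring
    have e6 : κ * ⟪d, V⟫ / Zy = 1 / 2 * (2 * κ / Zy * ⟪d, V⟫) := by
      field_simp
    rw [e6, e5]
    linarith

end Vale.Agent.Lib.P245
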