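import Vale.Agent.Lib.P245.Smooth

/-!
# A weak form of Rothaus' lemma
-/

open MeasureTheory ProbabilityTheory Real Filter Topology
open scoped ENNReal RealInnerProductSpace ContDiff

namespace Vale.Agent.Lib.P245

set_option linter.unusedSectionVars false
set_option linter.unusedVariables false

/-- The relative entropy integrand. -/
noncomputable def aa (x y : ℝ) : ℝ := x * log (x / y) - x + y

lemma log_var {x y r : ℝ} (hx : 0 ≤ x) (hy : 0 < y) (hr : 0 < r) :
    x * log r ≤ x * log (x / y) + r * y - x := by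
  rcases hx.eq_or_lt with rfl | hx
  · simp only [zero_mul, zero_div, log_zero, mul_zero, zero_add, sub_zero]
    positivity
  · have h1 : 0 < r * y / x := by positivity
    have h2 := log_le_sub_one_of_pos h1
    have e : log r = log (x / y) + log (r * y / x) := by
      rw [← log_mul (by positivity) (by positivity)]
      congr 1
      field_simp
    rw [e]
    have h3 : x * log (r * y / x) ≤ x * (r * y / x - 1) := by gcongr
    have e2 : x * (r * y / x - 1) = r * y - x := by
      field_simp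
    nlinarith

lemma aa_nonneg {x y : ℝ} (hx : 0 ≤ x) (hy : 0 < y) : 0 ≤ aa x y := by
  have := log_var hx hy one_pos
  simp only [log_one, mul_zero, one_mul] at this
  unfold aa
  linarith

lemma aa_add_le {x₁ x₂ y₁ y₂ : ℝ} (h1 : 0 ≤ x₁) (h2 : 0 ≤ x₂) (h3 : 0 < y₁) (h4 : 0 < y₂) :
    aa (x₁ + x₂) (y₁ + y₂) ≤ aa x₁ y₁ + aa x₂ y₂ := by
  unfold aa
  rcases (add_nonneg h1 h2).eq_or_lt with h | h
  · have e1 : x₁ = 0 := by linarith
    have e2 : x₂ = 0 := by linarith
    subst e1 e2
    simp
  · set r := (x₁ + x₂) / (y₁ + y₂) with hr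
    have hrpos : 0 < r := by positivity
    have h5 := log_var h1 h3 hrpos
    have h6 := log_var h2 h4 hrpos
    have e : r * y₁ + r * y₂ = x₁ + x₂ := by
      rw [← mul_add, hr]
      field_simp
    nlinarith

lemma aa_le_sq {x y : ℝ} (hx : 0 ≤ x) (hy : 0 < y) : aa x y ≤ (x - y) ^ 2 / y := by
  unfold aa
  rcases hx.eq_or_lt with rfl | hx
  · simp only [zero_mul, zero_div, sub_zero, zero_add, zero_sub, even_two, Even.neg_pow]
    rw [pow_two, mul_div_cancel_right₀ _ hy.ne']
  · have h1 := log_le_sub_one_of_pos (div_pos hx hy)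
    have h2 : x * log (x / y) ≤ x * (x / y - 1) := by gcongr
    have e : (x - y) ^ 2 / y = x * (x / y - 1) - x + y := by
      field_simp
      ring
    rw [e]
    linarith

lemma aa_mono_aux {x X y : ℝ} (hx : 0 ≤ x) (hxX : x ≤ X) (hy : 0 < y) :
    aa x y ≤ y + aa X y := by
  have hX : 0 ≤ X := hx.trans hxX
  rcases le_or_gt x y with h | h
  · have h1 := aa_nonneg hX hy
    have h2 : x * log (x / y) ≤ 0 := by
      rcases hx.eq_or_lt with rfl | hx'
      · simp
      · exact mul_nonpos_of_nonneg_of_nonpos hx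
          (log_nonpos (by positivity) ((div_le_one hy).2 h))
    unfold aa at h1 ⊢
    linarith
  · have hr : 0 < x / y := div_pos (hy.trans h) hy
    have h1 := log_var hX hy hr
    have e : x / y * y = x := by field_simp
    rw [e] at h1
    have h2 : 0 ≤ log (x / y) := log_nonneg ((one_le_div hy).2 h.le)
    have h3 : x * log (x / y) ≤ X * log (x / y) := by gcongr
    unfold aa
    linarith

lemma aa_shift {X V d : ℝ} (hX : 0 ≤ X) (hV : 0 < V) (hd : 0 ≤ d) :
    aa X (V + d) ≤ aa X V + d := by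
  unfold aa
  rcases hX.eq_or_lt with rfl | hX'
  · simp
  · have h1 : log (X / (V + d)) ≤ log (X / V) := by
      apply log_le_log (by positivity)
      gcongr
      linarith
    have h2 : X * log (X / (V + d)) ≤ X * log (X / V) := by gcongr
    linarith

lemma le_two_aa {X V : ℝ} (hX : 0 ≤ X) (hV : 0 < V) : V ≤ 2 * aa X V + 2 * X := by
  have h1 := log_var hX hV (r := 1 / 2) (by norm_num)
  have h2 : log (1 / 2 : ℝ) ≥ -1 := by
    have := one_sub_inv_le_log_of_pos (show (0 : ℝ) < 1 / 2 by norm_num)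
    norm_num at this ⊢
    linarith
  have h3 : X * log (1 / 2 : ℝ) ≥ X * (-1) := by gcongr
  unfold aa
  linarith

/-- The pointwise Rothaus inequality. -/
lemma rothaus_pt (m F : ℝ) {V : ℝ} (hV : 0 < V) :
    aa ((m + F) ^ 2) (m ^ 2 + V) ≤ 10 * F ^ 2 + 3 * aa (F ^ 2) V := by
  have hX : 0 ≤ F ^ 2 := sq_nonneg F
  have ha := aa_nonneg hX hV
  by_cases hm : m = 0
  · subst hm
    simp only [zero_add, ne_eq, OfNat.ofNat_ne_zero, not_false_eq_true, zero_pow]
    linarith
  · by_cases hcase : 0 ≤ m ^ 2 + 2 * m * F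
    · have hm2 : 0 < m ^ 2 := by positivity
      have h1 := aa_add_le hcase hX hm2 hV
      have e : m ^ 2 + 2 * m * F + F ^ 2 = (m + F) ^ 2 := by ring
      rw [e] at h1
      have h2 := aa_le_sq hcase hm2
      have e2 : (m ^ 2 + 2 * m * F - m ^ 2) ^ 2 / m ^ 2 = 4 * F ^ 2 := by
        field_simp
        ring
      rw [e2] at h2
      nlinarith
    · push Not at hcase
      have h4F : m ^ 2 ≤ 4 * F ^ 2 := by nlinarith [sq_nonneg (m + 2 * F)]
      have hle : (m + F) ^ 2 ≤ F ^ 2 := by nlinarith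
      have hy : 0 < m ^ 2 + V := by positivity
      have h1 := aa_mono_aux (sq_nonneg (m + F)) hle hy
      have h2 := aa_shift hX hV (sq_nonneg m)
      rw [add_comm V (m ^ 2)] at h2
      have h3 := le_two_aa hX hV
      nlinarith

variable {n : ℕ} {μ : Measure (Eu n)} [IsProbabilityMeasure μ]

/-- The integrated weak Rothaus inequality. -/
theorem rothaus {f : Eu n → ℝ} (hf : Measurable f) {C₁ : ℝ} (hb : ∀ x, |f x| ≤ C₁) :
    entropy μ (fun x => f x ^ 2) ≤
      3 * entropy μ (fun x => (f x - ∫ y, f y ∂μ) ^ 2) + 10 * ∫ x, (f x - ∫ y, f y ∂μ) ^ 2 ∂μ := by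
  have bdd : ∀ {h : Eu n → ℝ} {C : ℝ}, Measurable h → (∀ x, |h x| ≤ C) → Integrable h μ := by
    intro h C hh hC
    exact Integrable.of_bound hh.aestronglyMeasurable C (Eventually.of_forall fun x => by
      rw [Real.norm_eq_abs]; exact hC x)
  have hfi : Integrable f μ := bdd hf hb
  set m := ∫ y, f y ∂μ with hm
  set F : Eu n → ℝ := fun x => f x - m with hF
  have hFm : Measurable F := hf.sub_const m
  have hFb : ∀ x, |F x| ≤ C₁ + |m| := fun x => (abs_sub _ _).trans (by linarith [hb x])
  have hFi : Integrable F μ := bdd hFm hFb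
  have hF0 : ∫ x, F x ∂μ = 0 := by
    simp only [hF]
    rw [integral_sub hfi (integrable_const _)]
    simp [hm]
  have sqb : ∀ {h : Eu n → ℝ} {C : ℝ}, (∀ x, |h x| ≤ C) → ∀ x, h x ^ 2 ≤ C ^ 2 := by
    intro h C hC x
    rw [← sq_abs]
    exact pow_le_pow_left₀ (abs_nonneg _) (hC x) 2
  have sqi : ∀ {h : Eu n → ℝ} {C : ℝ}, Measurable h → (∀ x, |h x| ≤ C) →
      Integrable (fun x => h x ^ 2) μ := by
    intro h C hh hC
    refine bdd (hh.pow_const 2) (C := C ^ 2) fun x => ?_
    rw [abs_of_nonneg (sq_nonneg _)]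
    exact sqb hC x
  have logi : ∀ {h : Eu n → ℝ} {C : ℝ}, Measurable h → (∀ x, |h x| ≤ C) →
      Integrable (fun x => h x ^ 2 * log (h x ^ 2)) μ := by
    intro h C hh hC
    refine bdd ((hh.pow_const 2).mul (hh.pow_const 2).log) (C := 1 + (C ^ 2) ^ 2) fun x => ?_
    refine (abs_mul_log_le (sq_nonneg _)).trans ?_
    have := pow_le_pow_left₀ (sq_nonneg _) (sqb hC x) 2
    linarith
  set V := ∫ x, F x ^ 2 ∂μ with hV
  have hV0 : 0 ≤ V := integral_nonneg fun x => sq_nonneg _
  have hF2i : Integrable (fun x => F x ^ 2) μ := sqi hFm hFb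
  have hf2i : Integrable (fun x => f x ^ 2) μ := sqi hf hb
  have hfF : ∀ x, f x = m + F x := fun x => by simp [hF]
  have hf2 : ∫ x, f x ^ 2 ∂μ = m ^ 2 + V := by
    have e : ∀ x, f x ^ 2 = m ^ 2 + (2 * m) * F x + F x ^ 2 := fun x => by
      rw [hfF x]; ring
    simp_rw [e]
    have i1 : Integrable (fun x => m ^ 2 + (2 * m) * F x) μ :=
      (integrable_const _).add (hFi.const_mul _)
    rw [integral_add i1 hF2i, integral_add (integrable_const _) (hFi.const_mul _),
      integral_const_mul, hF0, ← hV]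
    simp
  rcases hV0.eq_or_lt with hVz | hVpos
  · -- degenerate case
    have hae : (fun x => F x ^ 2) =ᵐ[μ] 0 :=
      (integral_eq_zero_iff_of_nonneg (fun x => sq_nonneg _) hF2i).1 hVz.symm
    have hae2 : ∀ᵐ x ∂μ, F x = 0 := by
      filter_upwards [hae] with x hx
      simpa using hx
    unfold entropy
    have e1 : ∫ x, f x ^ 2 * log (f x ^ 2) ∂μ = m ^ 2 * log (m ^ 2) := by
      have : (fun x => f x ^ 2 * log (f x ^ 2)) =ᵐ[μ] fun _ => m ^ 2 * log (m ^ 2) := by
        filter_upwards [hae2] with x hx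
        rw [hfF x, hx, add_zero]
      rw [integral_congr_ae this]
      simp
    have e2 : ∫ x, F x ^ 2 * log (F x ^ 2) ∂μ = 0 := by
      have : (fun x => F x ^ 2 * log (F x ^ 2)) =ᵐ[μ] fun _ => 0 := by
        filter_upwards [hae2] with x hx
        simp [hx]
      rw [integral_congr_ae this]
      simp
    have e3 : ∫ x, (f x - m) ^ 2 ∂μ = 0 := hVz.symm
    have e4 : ∫ x, (f x - m) ^ 2 * log ((f x - m) ^ 2) ∂μ = 0 := e2
    rw [e1, hf2, ← hVz, e3, e4]
    simp
  · have ht : 0 < m ^ 2 + V := by positivity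
    -- entropies as integrals of `aa`
    have hEnt : ∀ {h : Eu n → ℝ} {C : ℝ}, Measurable h → (∀ x, |h x| ≤ C) → ∀ {t : ℝ}, 0 < t →
        ∫ x, h x ^ 2 ∂μ = t → Integrable (fun x => aa (h x ^ 2) t) μ ∧
          ∫ x, aa (h x ^ 2) t ∂μ = entropy μ (fun x => h x ^ 2) := by
      intro h C hh hC t ht hint
      have e : ∀ x, aa (h x ^ 2) t = h x ^ 2 * log (h x ^ 2) - log t * h x ^ 2 - h x ^ 2 + t := by
        intro x
        unfold aa
        by_cases h0 : h x ^ 2 = 0
        · simp [h0]
        · rw [log_div h0 ht.ne']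
          ring
      have i1 := logi hh hC
      have i2 := sqi hh hC
      have i3 : Integrable (fun x => h x ^ 2 * log (h x ^ 2) - log t * h x ^ 2) μ :=
        i1.sub (i2.const_mul _)
      have i4 : Integrable (fun x => h x ^ 2 * log (h x ^ 2) - log t * h x ^ 2 - h x ^ 2) μ :=
        i3.sub i2
      simp_rw [e]
      refine ⟨i4.add (integrable_const _), ?_⟩
      rw [integral_add i4 (integrable_const _), integral_sub i3 i2,
        integral_sub i1 (i2.const_mul _), integral_const_mul, hint]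
      unfold entropy
      rw [hint]
      simp
      ring
    obtain ⟨i1, e1⟩ := hEnt hf hb ht hf2
    obtain ⟨i2, e2⟩ := hEnt hFm hFb hVpos rfl
    have hpt : ∀ x, aa (f x ^ 2) (m ^ 2 + V) ≤ 10 * F x ^ 2 + 3 * aa (F x ^ 2) V := by
      intro x
      rw [hfF x]
      exact rothaus_pt m (F x) hVpos
    have hmono := integral_mono i1 ((hF2i.const_mul 10).add (i2.const_mul 3)) hpt
    rw [e1, integral_add' (hF2i.const_mul 10) (i2.const_mul 3), integral_const_mul,
      integral_const_mul, e2, ← hV] at hmono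
    have e3 : (entropy μ fun x => F x ^ 2) = entropy μ fun x => (f x - m) ^ 2 := rfl
    rw [e3] at hmono
    linarith

end Vale.Agent.Lib.P245
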