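import Vale.Agent.Lib.P245.BE

/-!
# The smooth test functions
-/

open MeasureTheory ProbabilityTheory Real Filter Topology
open scoped ENNReal RealInnerProductSpace ContDiff

namespace Vale.Agent.Lib.P245

variable {n : ℕ}

set_option linter.unusedSectionVars false
set_option linter.unusedVariables false

/-- The regularized square. -/
noncomputable def psiF (f : Eu n → ℝ) (m ε : ℝ) (x : Eu n) : ℝ := (f x - m) ^ 2 + ε

/-- Its logarithm. -/
noncomputable def phiF (f : Eu n → ℝ) (m ε : ℝ) (x : Eu n) : ℝ := log (psiF f m ε x)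

section
variable {f : Eu n → ℝ} (hf : ContDiff ℝ ∞ f) (hfc : HasCompactSupport f) {m ε : ℝ} (hε : 0 < ε)

include hε in
lemma psiF_pos (x : Eu n) : 0 < psiF f m ε x := by
  unfold psiF
  positivity

include hf in
lemma contDiff_psiF : ContDiff ℝ ∞ (psiF f m ε) := by
  unfold psiF
  exact ((hf.sub contDiff_const).pow 2).add contDiff_const

include hf hε in
lemma contDiff_phiF : ContDiff ℝ ∞ (phiF f m ε) :=
  (contDiff_psiF hf).log fun x => (psiF_pos hε x).ne'

include hfc in
lemma hasCompactSupport_phiF_sub :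
    HasCompactSupport fun x => phiF f m ε x - log (m ^ 2 + ε) := by
  refine HasCompactSupport.intro hfc (fun x hx => ?_)
  have h0 : f x = 0 := image_eq_zero_of_notMem_tsupport hx
  simp [phiF, psiF, h0]

lemma fderiv_phiF_eq (hf : ContDiff ℝ ∞ f) (hε : 0 < ε) :
    fderiv ℝ (phiF f m ε) = fderiv ℝ fun x => phiF f m ε x - log (m ^ 2 + ε) := by
  funext x
  rw [fderiv_sub_const]

include hf hfc hε in
lemma hasCompactSupport_fderiv_phiF : HasCompactSupport (fderiv ℝ (phiF f m ε)) := by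
  rw [fderiv_phiF_eq hf hε]
  exact (hasCompactSupport_phiF_sub hfc).fderiv ℝ

include hf hε in
lemma contDiff_fderiv_phiF : ContDiff ℝ ∞ (fderiv ℝ (phiF f m ε)) :=
  (contDiff_phiF hf hε).fderiv_right (by simp)

include hf hfc hε in
lemma exists_lipschitz_fderiv_phiF : ∃ K : NNReal, LipschitzWith K (fderiv ℝ (phiF f m ε)) :=
  ContDiff.lipschitzWith_of_hasCompactSupport (hasCompactSupport_fderiv_phiF hf hfc hε)
    (contDiff_fderiv_phiF hf hε) (by simp)

include hf hfc hε in
lemma exists_bound_fderiv_phiF : ∃ C : ℝ, ∀ x, ‖fderiv ℝ (phiF f m ε) x‖ ≤ C :=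
  (hasCompactSupport_fderiv_phiF hf hfc hε).exists_bound_of_continuous
    (contDiff_fderiv_phiF hf hε).continuous

include hf hfc hε in
lemma exists_bound_phiF : ∃ L : ℝ, ∀ x, |phiF f m ε x| ≤ L := by
  have hc : Continuous fun x => phiF f m ε x - log (m ^ 2 + ε) :=
    (contDiff_phiF hf hε).continuous.sub continuous_const
  obtain ⟨C, hC⟩ := (hasCompactSupport_phiF_sub hfc).exists_bound_of_continuous hc
  refine ⟨C + |log (m ^ 2 + ε)|, fun x => ?_⟩
  have h1 := hC x
  rw [Real.norm_eq_abs] at h1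
  have h2 : phiF f m ε x = (phiF f m ε x - log (m ^ 2 + ε)) + log (m ^ 2 + ε) := by ring
  rw [h2]
  exact (abs_add_le _ _).trans (by linarith)

include hf hfc hε in
/-- Second order Taylor bound. -/
lemma taylor_phiF : ∃ M : ℝ, ∀ x z, phiF f m ε x ≤ phiF f m ε z
    + ‖fderiv ℝ (phiF f m ε) z‖ * ‖x - z‖ + M * ‖x - z‖ ^ 2 := by
  obtain ⟨K, hK⟩ := exists_lipschitz_fderiv_phiF (m := m) hf hfc hε
  refine ⟨K, fun x z => ?_⟩
  have hdiff : Differentiable ℝ (phiF f m ε) := (contDiff_phiF hf hε).differentiable (by simp)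
  set r := ‖x - z‖ with hr
  have hb : ∀ y ∈ Metric.closedBall z r,
      ‖fderiv ℝ (phiF f m ε) y - fderiv ℝ (phiF f m ε) z‖ ≤ K * r := by
    intro y hy
    have h1 := hK.dist_le_mul y z
    rw [dist_eq_norm, dist_eq_norm] at h1
    refine h1.trans ?_
    have : ‖y - z‖ ≤ r := by simpa [dist_eq_norm] using hy
    gcongr
  have hz : z ∈ Metric.closedBall z r := Metric.mem_closedBall_self (norm_nonneg _)
  have hx : x ∈ Metric.closedBall z r := by
    simp [dist_eq_norm, hr]
  have key := (convex_closedBall z r).norm_image_sub_le_of_norm_fderiv_le'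
    (fun y _ => hdiff y) hb hz hx
  rw [← hr] at key
  have h2 := (Real.le_norm_self _).trans key
  have h3 := (Real.le_norm_self _).trans ((fderiv ℝ (phiF f m ε) z).le_opNorm (x - z))
  rw [← hr] at h3
  have e : (K : ℝ) * r * r = K * r ^ 2 := by ring
  linarith

include hf hε in
/-- The energy comparison. -/
lemma energy_le (x : Eu n) :
    ‖fderiv ℝ (phiF f m ε) x‖ ^ 2 * rexp (phiF f m ε x) ≤ 4 * ‖fderiv ℝ f x‖ ^ 2 := by
  have hψ := psiF_pos (f := f) (m := m) hε x
  have hd : HasFDerivAt f (fderiv ℝ f x) x :=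
    (hf.differentiable (by simp) x).hasFDerivAt
  have h1 : HasFDerivAt (fun y => (f y - m) ^ 2 + ε)
      ((2 * (f x - m)) • fderiv ℝ f x) x := by
    have h := ((hd.sub_const m).mul (hd.sub_const m)).add_const ε
    have e : (fun y => (f y - m) ^ 2 + ε) = fun y => (f y - m) * (f y - m) + ε := by
      funext y; ring
    have e2 : (f x - m) • fderiv ℝ f x + (f x - m) • fderiv ℝ f x
        = (2 * (f x - m)) • fderiv ℝ f x := by
      rw [two_mul, add_smul]
    rw [e]
    exact h.congr_fderiv e2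
  have h2 : HasFDerivAt (phiF f m ε)
      ((psiF f m ε x)⁻¹ • ((2 * (f x - m)) • fderiv ℝ f x)) x := by
    have := h1.log (by simpa [psiF] using hψ.ne')
    exact this
  rw [h2.fderiv, norm_smul, norm_smul, phiF, exp_log hψ, norm_inv, Real.norm_of_nonneg hψ.le,
    Real.norm_eq_abs, mul_pow, mul_pow, inv_pow, sq_abs, mul_pow]
  have hF : (f x - m) ^ 2 ≤ psiF f m ε x := by
    unfold psiF
    linarith
  set P := psiF f m ε x with hP
  set F := (f x - m) ^ 2 with hFdef
  have hG : 0 ≤ ‖fderiv ℝ f x‖ ^ 2 := by positivity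
  have e : (P ^ 2)⁻¹ * (2 ^ 2 * F * ‖fderiv ℝ f x‖ ^ 2) * P
      = 4 * ‖fderiv ℝ f x‖ ^ 2 * (F / P) := by
    field_simp
    ring
  rw [e]
  have : F / P ≤ 1 := (div_le_one hψ).2 hF
  nlinarith

include hf hfc in
lemma integrable_fderiv_sq_mul {p : Eu n → ℝ} (hp : Integrable p) (hp0 : ∀ x, 0 ≤ p x) :
    Integrable fun x => ‖fderiv ℝ f x‖ ^ 2 * p x := by
  have hc : Continuous (fderiv ℝ f) := (hf.fderiv_right (m := ∞) (by simp)).continuous
  obtain ⟨C, hC⟩ := (hfc.fderiv ℝ).exists_bound_of_continuous hc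
  refine integrable_bdd_mul hp hp0 (hc.norm.pow 2).measurable (C := C ^ 2) fun x => ?_
  rw [abs_of_nonneg (by positivity)]
  exact pow_le_pow_left₀ (norm_nonneg _) (hC x) 2

/-- The Bakry-Emery estimate for the regularized squares. -/
theorem be_smooth {p : Eu n → ℝ} {c : ℝ} (hc : 0 < c) (hpm : Measurable p) (hp0 : ∀ x, 0 ≤ p x)
    (hpi : Integrable p) (hmpos : 0 < ∫ x, p x) (hslc : StrongLC p c)
    (hf : ContDiff ℝ ∞ f) (hfc : HasCompactSupport f) (hε : 0 < ε) :
    (∫ x, (psiF f m ε x * log (psiF f m ε x)) * p x) -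
        (∫ x, psiF f m ε x * p x) * log ((∫ x, psiF f m ε x * p x) / ∫ x, p x)
      ≤ (2 / c) * ∫ x, ‖fderiv ℝ f x‖ ^ 2 * p x := by
  obtain ⟨M, hT⟩ := taylor_phiF (m := m) hf hfc hε
  obtain ⟨L, hL⟩ := exists_bound_phiF (m := m) hf hfc hε
  obtain ⟨Γ₀, hΓ₀⟩ := exists_bound_fderiv_phiF (m := m) hf hfc hε
  have hcont : Continuous (phiF f m ε) := (contDiff_phiF hf hε).continuous
  have hcΓ : Continuous (fun x => ‖fderiv ℝ (phiF f m ε) x‖) :=
    (contDiff_fderiv_phiF hf hε).continuous.norm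
  have key := be_abstract (Γ₀ := Γ₀) hc hpm hp0 hpi hmpos hslc hcont.measurable hL hcΓ.measurable
    (fun x => by rw [abs_of_nonneg (norm_nonneg _)]; exact hΓ₀ x) hT
  have hexp : ∀ x, rexp (phiF f m ε x) = psiF f m ε x := fun x => exp_log (psiF_pos hε x)
  simp only [hexp] at key
  have e1 : ∫ x, log (psiF f m ε x) * (psiF f m ε x * p x)
      = ∫ x, (psiF f m ε x * log (psiF f m ε x)) * p x := by
    refine integral_congr_ae (Eventually.of_forall fun x => ?_)
    simp only
    ring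
  have e0 : ∫ x, phiF f m ε x * (psiF f m ε x * p x)
      = ∫ x, log (psiF f m ε x) * (psiF f m ε x * p x) := rfl
  rw [e0, e1] at key
  refine key.trans ?_
  have hi1 := integrable_fderiv_sq_mul hf hfc hpi hp0
  have hW : ∫ x, ‖fderiv ℝ (phiF f m ε) x‖ ^ 2 * (psiF f m ε x * p x)
      ≤ ∫ x, 4 * (‖fderiv ℝ f x‖ ^ 2 * p x) := by
    have hi2 : Integrable fun x => ‖fderiv ℝ (phiF f m ε) x‖ ^ 2 * (psiF f m ε x * p x) := by
      refine (hi1.const_mul 4).mono' ?_ (Eventually.of_forall fun x => ?_)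
      · have hm1 : Measurable fun x => ‖fderiv ℝ (phiF f m ε) x‖ ^ 2 * psiF f m ε x :=
          (hcΓ.pow 2).measurable.mul (contDiff_psiF hf).continuous.measurable
        refine (hm1.aestronglyMeasurable.mul hpi.aestronglyMeasurable).congr
          (Eventually.of_forall fun x => ?_)
        simp only [Pi.mul_apply]
        ring
      · have := energy_le (m := m) hf hε x
        rw [hexp x] at this
        have h0 := psiF_pos (f := f) (m := m) hε x
        rw [Real.norm_eq_abs, abs_of_nonneg (by have := hp0 x; positivity)]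
        calc ‖fderiv ℝ (phiF f m ε) x‖ ^ 2 * (psiF f m ε x * p x)
            = (‖fderiv ℝ (phiF f m ε) x‖ ^ 2 * psiF f m ε x) * p x := by ring
          _ ≤ (4 * ‖fderiv ℝ f x‖ ^ 2) * p x := mul_le_mul_of_nonneg_right this (hp0 x)
          _ = _ := by ring
    refine integral_mono hi2 (hi1.const_mul 4) (fun x => ?_)
    have := energy_le (m := m) hf hε x
    rw [hexp x] at this
    calc ‖fderiv ℝ (phiF f m ε) x‖ ^ 2 * (psiF f m ε x * p x)
        = (‖fderiv ℝ (phiF f m ε) x‖ ^ 2 * psiF f m ε x) * p x := by ring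
      _ ≤ (4 * ‖fderiv ℝ f x‖ ^ 2) * p x := mul_le_mul_of_nonneg_right this (hp0 x)
      _ = _ := by ring
  rw [integral_const_mul] at hW
  have hc2 : 0 < 1 / (2 * c) := by positivity
  calc 1 / (2 * c) * ∫ x, ‖fderiv ℝ (phiF f m ε) x‖ ^ 2 * (psiF f m ε x * p x)
      ≤ 1 / (2 * c) * (4 * ∫ x, ‖fderiv ℝ f x‖ ^ 2 * p x) := by gcongr
    _ = _ := by
      field_simp
      ring

end

end Vale.Agent.Lib.P245
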