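import Vale.Agent.Lib.P245.Chain

/-!
# From linear subgaussianity to exponential moments of `‖x‖²` and of `⟨x, x'⟩`
-/

open MeasureTheory ProbabilityTheory Real
open scoped ENNReal RealInnerProductSpace

namespace Vale.Agent.Lib.P245

variable {n : ℕ} {μ : Measure (Eu n)} [IsProbabilityMeasure μ] {a : ℝ}

set_option linter.unusedSectionVars false
set_option linter.unusedVariables false

lemma integrable_exp_neg_sq {b : ℝ} (hb : 0 < b) :
    Integrable fun x : Eu n => rexp (-b * ‖x‖ ^ 2) := by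
  have h := GaussianFourier.integrable_cexp_neg_mul_sq_norm_add (V := Eu n) (b := (b : ℂ))
    (by simpa using hb) 0 0
  have h2 := h.re
  refine h2.congr (Filter.Eventually.of_forall fun x => ?_)
  simp only [zero_mul, add_zero, RCLike.re_to_complex]
  have : (Complex.exp (-(b : ℂ) * (‖x‖ : ℂ) ^ 2)) = ((rexp (-b * ‖x‖ ^ 2) : ℝ) : ℂ) := by
    push_cast
    rfl
  rw [this, Complex.ofReal_re]

/-- The Gaussian exponential moment of the squared norm. -/
lemma lintegral_exp_sq_gam {t : ℝ} (ht : 2 * t < 1) :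
    ∫⁻ g, ENNReal.ofReal (rexp (t * ‖g‖ ^ 2)) ∂(gam n)
      = ENNReal.ofReal ((1 / (1 - 2 * t)) ^ ((n : ℝ) / 2)) := by
  have hd : Measurable fun x : Eu n => ENNReal.ofReal (gdens n x) :=
    continuous_gdens.measurable.ennreal_ofReal
  have hf : Measurable fun g : Eu n => ENNReal.ofReal (rexp (t * ‖g‖ ^ 2)) := by
    have : Continuous fun g : Eu n => rexp (t * ‖g‖ ^ 2) := by fun_prop
    exact this.measurable.ennreal_ofReal
  have hb : 0 < 1 / 2 - t := by linarith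
  rw [gam_eq, lintegral_withDensity_eq_lintegral_mul _ hd hf]
  have e : ∀ g : Eu n, ENNReal.ofReal (gdens n g) * ENNReal.ofReal (rexp (t * ‖g‖ ^ 2))
      = ENNReal.ofReal (((2 * π) ^ ((n : ℝ) / 2))⁻¹ * rexp (-(1 / 2 - t) * ‖g‖ ^ 2)) := by
    intro g
    rw [← ENNReal.ofReal_mul (gdens_pos g).le]
    congr 1
    unfold gdens
    rw [mul_assoc, ← exp_add]
    congr 2
    ring
  simp only [Pi.mul_apply, e]
  rw [← ofReal_integral_eq_lintegral_ofReal ((integrable_exp_neg_sq hb).const_mul _)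
    (Filter.Eventually.of_forall fun g => by positivity), integral_const_mul,
    GaussianFourier.integral_rexp_neg_mul_sq_norm (V := Eu n) hb]
  congr 1
  simp only [finrank_euclideanSpace, Fintype.card_fin]
  have hp : 0 < 2 * π := by positivity
  rw [← Real.inv_rpow hp.le, ← Real.mul_rpow (by positivity) (by positivity)]
  congr 1
  have : 1 - 2 * t = 2 * (1 / 2 - t) := by ring
  rw [this]
  field_simp

lemma exp_le_add_exp_sq (t : ℝ) : rexp t ≤ t + rexp (t ^ 2) := by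
  by_cases h1 : |t| ≤ 1
  · have h2 := Real.abs_exp_sub_one_sub_id_le h1
    have h3 := (abs_le.1 h2).2
    have h4 := add_one_le_exp (t ^ 2)
    linarith
  · push Not at h1
    rcases lt_abs.1 h1 with h | h
    · have h2 : t ≤ t ^ 2 := by nlinarith
      have h3 : rexp t ≤ rexp (t ^ 2) := exp_le_exp.2 h2
      linarith
    · have h2 : rexp t ≤ 1 := exp_le_one_iff.2 (by linarith)
      have h4 := add_one_le_exp (t ^ 2)
      nlinarith

lemma sg_unit (hsg : IsLinearSubgaussian μ a) {θ : Eu n} (hθ : ‖θ‖ = 1) :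
    Integrable (fun x : Eu n => rexp (⟪x, θ⟫ ^ 2 / a ^ 2)) μ ∧
      ∫ x, rexp (⟪x, θ⟫ ^ 2 / a ^ 2) ∂μ ≤ 2 := by
  have hcont : Continuous fun x : Eu n => rexp (⟪x, θ⟫ ^ 2 / a ^ 2) := by fun_prop
  have h := hsg θ hθ
  have h0 : ∀ᵐ x ∂μ, 0 ≤ rexp (⟪x, θ⟫ ^ 2 / a ^ 2) :=
    Filter.Eventually.of_forall fun x => (exp_pos _).le
  refine ⟨⟨hcont.aestronglyMeasurable, ?_⟩, ?_⟩
  · rw [hasFiniteIntegral_iff_ofReal h0]
    exact lt_of_le_of_lt h (by simp)
  · rw [integral_eq_lintegral_of_nonneg_ae h0 hcont.aestronglyMeasurable]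
    exact ENNReal.toReal_le_of_le_ofReal (by norm_num) (by simpa using h)

lemma exp_mul_le_convex {p y : ℝ} (h0 : 0 ≤ p) (h1 : p ≤ 1) :
    rexp (p * y) ≤ p * rexp y + (1 - p) := by
  have h := convexOn_exp.2 (Set.mem_univ y) (Set.mem_univ (0 : ℝ)) h0 (by linarith : 0 ≤ 1 - p)
    (by ring)
  simpa using h

lemma mgf_unit (ha : 0 < a) (hsg : IsLinearSubgaussian μ a)
    (hc : ∀ θ : Eu n, ∫ x, ⟪x, θ⟫ ∂μ = 0) {θ : Eu n} (hθ : ‖θ‖ = 1) {l : ℝ} (hl : 0 ≤ l) :
    Integrable (fun x : Eu n => rexp (l * ⟪x, θ⟫)) μ ∧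
      ∫ x, rexp (l * ⟪x, θ⟫) ∂μ ≤ rexp (l ^ 2 * a ^ 2) := by
  obtain ⟨hY, hY2⟩ := sg_unit hsg hθ
  set Y : Eu n → ℝ := fun x => rexp (⟪x, θ⟫ ^ 2 / a ^ 2) with hYdef
  have hcont : Continuous fun x : Eu n => rexp (l * ⟪x, θ⟫) := by fun_prop
  have ha2 : 0 < a ^ 2 := by positivity
  -- domination
  have hdom : ∀ x : Eu n, rexp (l * ⟪x, θ⟫) ≤ rexp (l ^ 2 * a ^ 2 / 2) * ((1 / 2) * Y x + 1 / 2) := by
    intro x
    have h1 : l * ⟪x, θ⟫ ≤ l ^ 2 * a ^ 2 / 2 + (1 / 2) * (⟪x, θ⟫ ^ 2 / a ^ 2) := by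
      have : 0 ≤ (l * a - ⟪x, θ⟫ / a) ^ 2 := sq_nonneg _
      have e : (l * a - ⟪x, θ⟫ / a) ^ 2 =
          l ^ 2 * a ^ 2 - 2 * (l * ⟪x, θ⟫) + ⟪x, θ⟫ ^ 2 / a ^ 2 := by
        field_simp
        ring
      rw [e] at this
      linarith
    have h2 := exp_mul_le_convex (p := 1 / 2) (y := ⟪x, θ⟫ ^ 2 / a ^ 2) (by norm_num) (by norm_num)
    calc rexp (l * ⟪x, θ⟫) ≤ rexp (l ^ 2 * a ^ 2 / 2 + (1 / 2) * (⟪x, θ⟫ ^ 2 / a ^ 2)) :=
          exp_le_exp.2 h1
      _ = rexp (l ^ 2 * a ^ 2 / 2) * rexp ((1 / 2) * (⟪x, θ⟫ ^ 2 / a ^ 2)) := exp_add _ _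
      _ ≤ rexp (l ^ 2 * a ^ 2 / 2) * ((1 / 2) * Y x + 1 / 2) := by
          gcongr
          simp only [hYdef]
          linarith
  have hdomi : Integrable (fun x => rexp (l ^ 2 * a ^ 2 / 2) * ((1 / 2) * Y x + 1 / 2)) μ :=
    ((hY.const_mul _).add (integrable_const _)).const_mul _
  have hI : Integrable (fun x : Eu n => rexp (l * ⟪x, θ⟫)) μ := by
    refine hdomi.mono' hcont.aestronglyMeasurable (Filter.Eventually.of_forall fun x => ?_)
    rw [Real.norm_eq_abs, abs_of_pos (exp_pos _)]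
    exact hdom x
  refine ⟨hI, ?_⟩
  set p := l ^ 2 * a ^ 2 with hp
  have hp0 : 0 ≤ p := by positivity
  by_cases hcase : p ≤ 1
  · -- small parameter: `exp t ≤ t + exp (t²)`
    have hX : Integrable (fun x : Eu n => ⟪x, θ⟫) μ := by
      refine (hY.const_mul a).mono' (by fun_prop) (Filter.Eventually.of_forall fun x => ?_)
      rw [Real.norm_eq_abs]
      set z := ⟪x, θ⟫ with hz
      have h1 : |z| / a ≤ rexp (z ^ 2 / a ^ 2) := by
        have h2 := add_one_le_exp (z ^ 2 / a ^ 2)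
        have h3 : 0 ≤ (|z| / a - 1) ^ 2 := sq_nonneg _
        have e : (|z| / a) ^ 2 = z ^ 2 / a ^ 2 := by
          rw [div_pow, sq_abs]
        nlinarith
      rw [div_le_iff₀ ha] at h1
      simp only [hYdef]
      linarith
    have hpt : ∀ x : Eu n, rexp (l * ⟪x, θ⟫) ≤ l * ⟪x, θ⟫ + (p * Y x + (1 - p)) := by
      intro x
      have h1 := exp_le_add_exp_sq (l * ⟪x, θ⟫)
      have h2 := exp_mul_le_convex (y := ⟪x, θ⟫ ^ 2 / a ^ 2) hp0 hcase
      have e : p * (⟪x, θ⟫ ^ 2 / a ^ 2) = (l * ⟪x, θ⟫) ^ 2 := by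
        rw [hp]
        field_simp
      rw [e] at h2
      simp only [hYdef]
      linarith
    have i1 : Integrable (fun x : Eu n => l * ⟪x, θ⟫) μ := hX.const_mul l
    have i2 : Integrable (fun x => p * Y x + (1 - p)) μ := (hY.const_mul p).add (integrable_const _)
    have hmono := integral_mono hI (i1.add i2) hpt
    rw [integral_add' i1 i2, integral_const_mul, hc θ,
      integral_add (hY.const_mul p) (integrable_const _), integral_const_mul] at hmono
    simp only [integral_const, probReal_univ, smul_eq_mul, one_mul, mul_zero, zero_add] at hmono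
    have h2 := add_one_le_exp p
    nlinarith
  · -- large parameter
    push Not at hcase
    have hmono := integral_mono hI hdomi hdom
    rw [integral_const_mul, integral_add (hY.const_mul _) (integrable_const _),
      integral_const_mul] at hmono
    simp only [integral_const, probReal_univ, smul_eq_mul, one_mul] at hmono
    have h1 : (1 / 2 : ℝ) * ∫ x, Y x ∂μ + 1 / 2 ≤ rexp (1 / 2) := by
      have := add_one_le_exp (1 / 2 : ℝ)
      linarith
    have h2 : rexp (p / 2) * rexp (1 / 2) ≤ rexp p := by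
      rw [← exp_add]
      apply exp_le_exp.2
      linarith
    calc ∫ x, rexp (l * ⟪x, θ⟫) ∂μ ≤ rexp (p / 2) * ((1 / 2 : ℝ) * ∫ x, Y x ∂μ + 1 / 2) := hmono
      _ ≤ rexp (p / 2) * rexp (1 / 2) := by gcongr
      _ ≤ _ := h2

/-- The moment generating function bound. -/
lemma mgf_bound (ha : 0 < a) (hsg : IsLinearSubgaussian μ a)
    (hc : ∀ θ : Eu n, ∫ x, ⟪x, θ⟫ ∂μ = 0) (ξ : Eu n) :
    Integrable (fun x : Eu n => rexp ⟪ξ, x⟫) μ ∧ ∫ x, rexp ⟪ξ, x⟫ ∂μ ≤ rexp (a ^ 2 * ‖ξ‖ ^ 2) := by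
  by_cases hξ : ξ = 0
  · subst hξ
    simp
  · have hn : 0 < ‖ξ‖ := norm_pos_iff.2 hξ
    set θ : Eu n := ‖ξ‖⁻¹ • ξ with hθ
    have hθ1 : ‖θ‖ = 1 := by
      rw [hθ, norm_smul, norm_inv, norm_norm, inv_mul_cancel₀ hn.ne']
    have e : ∀ x : Eu n, ⟪ξ, x⟫ = ‖ξ‖ * ⟪x, θ⟫ := by
      intro x
      rw [hθ, inner_smul_right, real_inner_comm]
      field_simp
    obtain ⟨h1, h2⟩ := mgf_unit ha hsg hc hθ1 hn.le
    simp_rw [e]
    refine ⟨h1, h2.trans_eq ?_⟩
    congr 1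
    ring

section
variable (hmgf : ∀ ξ : Eu n, Integrable (fun x : Eu n => rexp ⟪ξ, x⟫) μ ∧
    ∫ x, rexp ⟪ξ, x⟫ ∂μ ≤ rexp (a ^ 2 * ‖ξ‖ ^ 2))
include hmgf

lemma moment {l : ℝ} (h0 : 0 ≤ l) (h1 : 4 * l * a ^ 2 < 1) :
    ∫⁻ x, ENNReal.ofReal (rexp (l * ‖x‖ ^ 2)) ∂μ
      ≤ ENNReal.ofReal ((1 / (1 - 4 * l * a ^ 2)) ^ ((n : ℝ) / 2)) := by
  set b := √(2 * l) with hbdef
  have hb : b ^ 2 = 2 * l := Real.sq_sqrt (by positivity)
  have e1 : ∀ x : Eu n, ENNReal.ofReal (rexp (l * ‖x‖ ^ 2)) =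
      ∫⁻ g, ENNReal.ofReal (rexp ⟪b • x, g⟫) ∂(gam n) := by
    intro x
    rw [← ofReal_integral_eq_lintegral_ofReal (integrable_exp_inner_gam _)
      (Filter.Eventually.of_forall fun g => (exp_pos _).le), integral_exp_inner_gam, norm_smul,
      mul_pow, Real.norm_eq_abs, sq_abs, hb]
    congr 2
    ring
  simp_rw [e1]
  have hmeas : Measurable (Function.uncurry fun (x g : Eu n) => ENNReal.ofReal (rexp ⟪b • x, g⟫)) := by
    have : Continuous fun q : Eu n × Eu n => rexp ⟪b • q.1, q.2⟫ := by fun_prop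
    exact this.measurable.ennreal_ofReal
  rw [lintegral_lintegral_swap hmeas.aemeasurable]
  have e2 : 4 * l * a ^ 2 = 2 * (2 * l * a ^ 2) := by ring
  rw [e2, ← lintegral_exp_sq_gam (by linarith)]
  refine lintegral_mono fun g => ?_
  obtain ⟨hi, hle⟩ := hmgf (b • g)
  have e3 : ∀ x : Eu n, ⟪b • x, g⟫ = ⟪b • g, x⟫ := by
    intro x
    rw [inner_smul_left, inner_smul_left, real_inner_comm g x]
  simp only [e3]
  rw [← ofReal_integral_eq_lintegral_ofReal hi (Filter.Eventually.of_forall fun g => (exp_pos _).le)]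
  apply ENNReal.ofReal_le_ofReal
  refine hle.trans_eq ?_
  congr 1
  rw [norm_smul, mul_pow, Real.norm_eq_abs, sq_abs, hb]
  ring

lemma integrable_moment {l : ℝ} (h0 : 0 ≤ l) (h1 : 4 * l * a ^ 2 < 1) :
    Integrable (fun x : Eu n => rexp (l * ‖x‖ ^ 2)) μ := by
  have hcont : Continuous fun x : Eu n => rexp (l * ‖x‖ ^ 2) := by fun_prop
  refine ⟨hcont.aestronglyMeasurable, ?_⟩
  rw [hasFiniteIntegral_iff_ofReal (Filter.Eventually.of_forall fun x => (exp_pos _).le)]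
  exact lt_of_le_of_lt (moment hmgf h0 h1) ENNReal.ofReal_lt_top

lemma integral_moment_le {l : ℝ} (h0 : 0 ≤ l) (h1 : 4 * l * a ^ 2 < 1) :
    ∫ x, rexp (l * ‖x‖ ^ 2) ∂μ ≤ (1 / (1 - 4 * l * a ^ 2)) ^ ((n : ℝ) / 2) := by
  have hcont : Continuous fun x : Eu n => rexp (l * ‖x‖ ^ 2) := by fun_prop
  rw [integral_eq_lintegral_of_nonneg_ae (Filter.Eventually.of_forall fun x => (exp_pos _).le)
    hcont.aestronglyMeasurable]
  have hp : 0 < 1 - 4 * l * a ^ 2 := by linarith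
  exact ENNReal.toReal_le_of_le_ofReal (by positivity) (moment hmgf h0 h1)

/-- The bound on the logarithm of `phi`. -/
lemma log_phi_le {s : ℝ} (hs0 : 0 ≤ s) (hs : 8 * s ^ 2 * a ^ 4 ≤ 1)
    (hint : Integrable (fun p : Eu n × Eu n => rexp (s * ⟪p.1, p.2⟫)) (μ.prod μ)) :
    log (phi μ s) ≤ 4 * n * s ^ 2 * a ^ 4 := by
  set y := 4 * (a ^ 2 * s ^ 2) * a ^ 2 with hy
  have hy2 : y ≤ 1 / 2 := by rw [hy]; nlinarith
  have hy0 : 0 ≤ y := by rw [hy]; positivity
  have hl0 : 0 ≤ a ^ 2 * s ^ 2 := by positivity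
  have hy1 : 4 * (a ^ 2 * s ^ 2) * a ^ 2 < 1 := by rw [← hy]; linarith
  have hpos : 0 < phi μ s := by
    unfold phi
    exact integral_exp_pos hint
  have hi := integrable_moment hmgf hl0 hy1
  have hle := integral_moment_le hmgf hl0 hy1
  have h1 : phi μ s ≤ ∫ x, rexp ((a ^ 2 * s ^ 2) * ‖x‖ ^ 2) ∂μ := by
    unfold phi
    rw [integral_prod _ hint]
    refine integral_mono hint.integral_prod_left hi (fun x => ?_)
    simp only
    obtain ⟨h2, h3⟩ := hmgf (s • x)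
    have e : ∀ y' : Eu n, s * ⟪x, y'⟫ = ⟪s • x, y'⟫ := by
      intro y'
      rw [inner_smul_left]
      simp
    simp only [e]
    refine h3.trans_eq ?_
    congr 1
    rw [norm_smul, mul_pow, Real.norm_eq_abs, sq_abs]
    ring
  have h2 := h1.trans hle
  rw [← hy] at h2
  have hz : 0 < 1 / (1 - y) := by
    apply div_pos one_pos
    linarith
  have h3 := log_le_log hpos h2
  rw [log_rpow hz] at h3
  have h4 : log (1 / (1 - y)) ≤ 2 * y := by
    have h5 := log_le_sub_one_of_pos hz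
    have h6 : 1 / (1 - y) - 1 ≤ 2 * y := by
      have : 0 < 1 - y := by linarith
      rw [div_sub_one this.ne', div_le_iff₀ this]
      nlinarith
    linarith
  have hn : (0 : ℝ) ≤ (n : ℝ) / 2 := by positivity
  calc log (phi μ s) ≤ (n : ℝ) / 2 * log (1 / (1 - y)) := h3
    _ ≤ (n : ℝ) / 2 * (2 * y) := by gcongr
    _ = _ := by rw [hy]; ring

end

end Vale.Agent.Lib.P245
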